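import Vale.Agent.P019.E.PF

/-!
P019 E/Val: existence of valuations, residue fields of primes.
PLAN. `exists_val_at`: `z` is transcendental over `B`; the ring `B[z]` is a polynomial ring, take the
prime `(z - d)` (kernel of evaluation at `d`) and `exists_val_of_prime` (ResB).
`LineV.symm`: the residue of `y` is `c x + d`, so every nonzero polynomial in `y` over `E₀` is a
unit (`p(y) ≡ p(c x + d) ≠ 0`, an element of `hf E₀ x`); use `sub_hf`.
`exists_ext_place`: extend a basis `t` of `D` to a transcendence basis `t, z` of `F`, `B = acl z`.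
For a place `Q`, the ring `Q[z]` is a polynomial ring (`z` is independent over `D`), the prime
`m_Q[z]`; `exists_val_of_prime` gives `w` with `w ∩ D = Q` and nonzero polynomials in `z` over `k`
are units, so `w ⊇ k(z)` and `w ⊇ B` (`mem_of_monic`).
`res_isPF`: `π` with value less than one, `z` a basis of `B` (`Flat.exists_basis`), `F₀` a model
containing them. `res_isFF` (Mono2) for `v.comap` with `x = π` (`ZInd`), `y = z` (`RInd`); the residue
field of `v` is purely inseparable over the image of the residue field of `v ∩ F₀`. Alternatively show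
directly: the subfield `resK F₀ v` is finite over `resK k v (z)`, using `res_finite`, `mono_res`.
`zero_of_inf`: if `ξ ≠ 0` take an equation `∑ a_i(Z) ξ ^ i = 0`, `a_i ∈ B[T]`, `a_0 ≠ 0`
(`IsPF.alg_of_not_mem`; `Z ∉ B` since it is congruent to two different constants). At `w` over `β`
all `a_i(Z)` are integral, so `a_0(Z)` is a nonunit, `a_0(β) = 0` for infinitely many `β`.
-/

namespace P019.E

open IntermediateField

variable {k F : Type*} [Field k] [Field F] [Algebra k F]

theorem val_ex {R : Type*} [CommRing R] (φ : R →+* F) (hφ : Function.Injective φ) (𝔮 : Ideal R)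
    [𝔮.IsPrime] : ∃ W : ValuationSubring F, (∀ r, φ r ∈ W) ∧
      ∀ r, W.valuation (φ r) < 1 ↔ r ∈ 𝔮 := by
  let e : R ≃+* φ.range := RingEquiv.ofBijective φ.rangeRestrict
    ⟨fun a b h => hφ (congrArg Subtype.val h), φ.rangeRestrict_surjective⟩
  obtain ⟨W, h1, h2⟩ := exists_val_of_prime φ.range (𝔮.comap e.symm.toRingHom)
  refine ⟨W, fun r => h1 (e r), fun r => (h2 (e r)).trans ?_⟩
  rw [Ideal.mem_comap]
  change e.symm (e r) ∈ 𝔮 ↔ _
  rw [e.symm_apply_apply]

theorem val_aeval_mem {E S : Type*} [Field E] [Algebra E F] [SetLike S F] [SubringClass S F]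
    (s : S) (hE : ∀ e, algebraMap E F e ∈ s) {a : F} (ha : a ∈ s) (p : Polynomial E) :
    Polynomial.aeval a p ∈ s := by
  rw [Polynomial.aeval_eq_sum_range]
  exact sum_mem fun i _ => by
    rw [Algebra.smul_def]
    exact mul_mem (hE _) (pow_mem ha i)

theorem val_cong {E : Type*} [Field E] [Algebra E F] {v : ValuationSubring F}
    (hE : ∀ e, algebraMap E F e ∈ v) {a b : F} (ha : a ∈ v) (hb : b ∈ v)
    (h : v.valuation (a - b) < 1) (p : Polynomial E) :
    v.valuation (Polynomial.aeval a p - Polynomial.aeval b p) < 1 := by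
  rw [← res_eq_iff v (val_aeval_mem v hE ha p) (val_aeval_mem v hE hb p)]
  induction p using Polynomial.induction_on' with
  | add p q hp hq =>
    rw [map_add, map_add, res_add v (val_aeval_mem v hE ha p) (val_aeval_mem v hE ha q),
      res_add v (val_aeval_mem v hE hb p) (val_aeval_mem v hE hb q), hp, hq]
  | monomial n c =>
    rw [Polynomial.aeval_monomial, Polynomial.aeval_monomial, res_mul v (hE c) (pow_mem ha n),
      res_mul v (hE c) (pow_mem hb n), res_pow v ha, res_pow v hb, (res_eq_iff v ha hb).2 h]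

theorem val_unit {v : ValuationSubring F} {a b : F} (h : v.valuation (a - b) < 1)
    (hb : v.valuation b = 1) : v.valuation a = 1 := by
  rw [← hb] at h ⊢
  exact v.valuation.map_eq_of_sub_lt h

theorem val_div {v : ValuationSubring F} {a b : F} (ha : a ∈ v) (hb : v.valuation b = 1) :
    a / b ∈ v := by
  rw [div_eq_mul_inv]
  exact mul_mem ha (resb_mem (resb_inv hb))

theorem val_mem_of_sub {v : ValuationSubring F} {a b : F} (h : v.valuation (a - b) < 1)
    (hb : b ∈ v) : a ∈ v := by
  have := add_mem (resb_mem' h) hb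
  rwa [sub_add_cancel] at this

theorem val_lt_comap {E : Type*} [Field E] (f : E →+* F) (v : ValuationSubring F) (a : E) :
    (v.comap f).valuation a < 1 ↔ v.valuation (f a) < 1 := by
  rw [resb_lt_one_iff, resb_lt_one_iff, map_eq_zero, ← map_inv₀, ValuationSubring.mem_comap]

theorem exists_val_at {B : IntermediateField k F} {z : F} (hz : Transcendental B z) (d : k) :
    ∃ v : ValuationSubring F, Sub B v ∧ v.valuation (z - algebraMap k F d) < 1 := by
  have := RingHom.ker_isPrime (Polynomial.evalRingHom (algebraMap k B d))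
  obtain ⟨W, h1, h2⟩ := val_ex (Polynomial.aeval (R := B) z).toRingHom
    (transcendental_iff_injective.1 hz) (RingHom.ker (Polynomial.evalRingHom (algebraMap k B d)))
  refine ⟨W, fun a ha => ?_, ?_⟩
  · simpa using h1 (Polynomial.C ⟨a, ha⟩)
  · have h3 := (h2 (Polynomial.X - Polynomial.C (algebraMap k B d))).2 (by simp [RingHom.mem_ker])
    simpa using h3

theorem val_lin (E₀ : IntermediateField k F) (x : F) (c d : k) :
    algebraMap k F c * x + algebraMap k F d ∈ hf E₀ x :=
  add_mem (mul_mem (IntermediateField.algebraMap_mem _ c) (mem_hf E₀ x))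
    (IntermediateField.algebraMap_mem _ d)

theorem val_not_mem {E₀ : IntermediateField k F} {x y : F} (h : Frame E₀ x y) (c d : k) :
    y - (algebraMap k F c * x + algebraMap k F d) ∉ hf E₀ x := fun hm =>
  h.not_mem (by simpa using add_mem hm (val_lin E₀ x c d))

theorem Frame.exists_lineV {E₀ : IntermediateField k F} {x y : F} (h : Frame E₀ x y) (c d : k) :
    ∃ v, LineV E₀ x y c d v := by
  have ht : Transcendental (hf E₀ x) (y - (algebraMap k F c * x + algebraMap k F d)) := fun ha =>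
    val_not_mem h c d ((mem_acl_iff _ _).2 (ffb_trans (fun b hb => (mem_acl_iff _ _).1 hb) ha))
  obtain ⟨v, h1, h2⟩ := exists_val_at ht 0
  exact ⟨v, h1, by simpa using h2⟩

theorem LineV.ne_top {E₀ : IntermediateField k F} {x y : F} (h : Frame E₀ x y) {c d : k}
    {v : ValuationSubring F} (hv : LineV E₀ x y c d v) : v ≠ ⊤ := by
  rintro rfl
  rcases (resb_lt_one_iff _ _).1 hv.2 with h1 | h1
  · exact val_not_mem h c d (h1 ▸ zero_mem _)
  · exact h1 (ValuationSubring.mem_top _)

theorem LineV.symm {E₀ : IntermediateField k F} {x y : F} (h : Frame E₀ x y) {c d : k}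
    (hc : c ≠ 0) {v : ValuationSubring F} (hv : LineV E₀ x y c d v) :
    LineV E₀ y x c⁻¹ (-(c⁻¹ * d)) v := by
  have hc' : algebraMap k F c ≠ 0 := (map_ne_zero _).2 hc
  have hu := val_lin E₀ x c d
  set u := algebraMap k F c * x + algebraMap k F d with hu'
  have hE : ∀ e : E₀, algebraMap E₀ F e ∈ hf E₀ x := fun e => le_hf E₀ x e.2
  have hE' : ∀ e : E₀, algebraMap E₀ F e ∈ v := fun e => hv.1 _ (hE e)
  have hy : y ∈ v := val_mem_of_sub hv.2 (hv.1 _ hu)
  have ht : Transcendental E₀ u := fun ha => by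
    have hk : ∀ a : k, IsAlgebraic E₀ (algebraMap k F a) := fun a =>
      isAlgebraic_algebraMap (algebraMap k E₀ a)
    have e : x = (u - algebraMap k F d) * algebraMap k F c⁻¹ := by
      rw [hu', map_inv₀]
      field_simp
      ring
    have h1 : IsAlgebraic E₀ x := e ▸ (ha.sub (hk d)).mul (hk c⁻¹)
    exact h.1.transcendental 0 h1
  refine ⟨sub_hf fun a ha => ?_, ?_⟩
  · obtain ⟨p, q, rfl⟩ := (mem_adjoin_simple_iff _ _).1 ha
    by_cases hq : q = 0
    · simp [hq]
    refine val_div (val_aeval_mem v hE' hy p) (val_unit (val_cong hE' hy (hv.1 _ hu) hv.2 q)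
      (hv.1.val_eq_one (val_aeval_mem _ hE hu q) fun h0 => ht ⟨q, hq, h0⟩))
  · have e : x - (algebraMap k F c⁻¹ * y + algebraMap k F (-(c⁻¹ * d))) =
        -algebraMap k F c⁻¹ * (y - u) := by
      rw [hu', map_neg, map_mul, map_inv₀]
      field_simp
      ring
    rw [e, map_mul, Valuation.map_neg,
      hv.1.val_eq_one (IntermediateField.algebraMap_mem _ _) ((map_ne_zero _).2 (inv_ne_zero hc)),
      one_mul]
    exact hv.2

theorem val_rind {v : ValuationSubring F} {ι : Type*} {z : ι → F} (hz : ∀ i, z i ∈ v)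
    (h : ∀ G : MvPolynomial ι k, v.valuation (MvPolynomial.aeval z G) < 1 → G = 0) :
    RInd k v z := by
  refine ⟨hz, algebraicIndependent_iff.2 fun H hH => ?_⟩
  have hs : Function.Surjective (monoPhi k v) := fun r => by
    obtain ⟨c, hc, e⟩ := (mem_resK v r.1).1 r.2
    exact ⟨⟨c, hc⟩, Subtype.ext e.symm⟩
  obtain ⟨H₀, rfl⟩ := MvPolynomial.map_surjective _ hs H
  obtain ⟨h1, h2⟩ := mono_red' v hz H₀
  have h3 := h _ ((res_eq_zero_iff v h1).1 (h2.trans hH))
  have h4 : H₀ = 0 := MvPolynomial.map_injective _ Subtype.val_injective (h3.trans (map_zero _).symm)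
  rw [h4, map_zero]

theorem val_swap {ι ι' : Type*} {x : ι → F} {y : ι' → F}
    (h : AlgebraicIndependent k (Sum.elim x y)) :
    AlgebraicIndependent (adjoin k (Set.range x)) y := by
  have h1 := h.comp Sum.swap Sum.swap_leftInverse.injective
  rw [Sum.elim_swap] at h1
  exact algebraicIndependent_adjoin_iff.2 (AlgebraicIndependent.sumElim_iff.1 h1).2

theorem val_place {ι : Type*} {z : ι → F} {D : IntermediateField k F}
    (hz : AlgebraicIndependent D z) (Q : Place k D) : ∃ w : ValuationSubring F,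
      Sub (acl k (Set.range z)) w ∧ w.comap D.val.toRingHom = Q.1 := by
  have := RingHom.ker_isPrime (MvPolynomial.map (σ := ι) (IsLocalRing.residue Q.1))
  obtain ⟨W, h1, h2⟩ := val_ex
    ((MvPolynomial.aeval (R := D) z).toRingHom.comp (MvPolynomial.map Q.1.subtype))
    (fun _ _ e => MvPolynomial.map_injective _ Subtype.val_injective (hz e))
    (RingHom.ker (MvPolynomial.map (σ := ι) (IsLocalRing.residue Q.1)))
  have hC : ∀ a : Q.1, ((MvPolynomial.aeval (R := D) z).toRingHom.comp
      (MvPolynomial.map Q.1.subtype)) (MvPolynomial.C a) = ((a : D) : F) := fun a => by simp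
  have hC' : ∀ a : Q.1, ((a : D) : F) ∈ W := fun a => hC a ▸ h1 _
  let j : k →+* Q.1 := (algebraMap k D).codRestrict Q.1 Q.2.2
  refine ⟨W, fun a ha => acl_subset_of_RInd (fun c => ?_) (val_rind (fun i => ?_) fun G hG => ?_) ha,
    ?_⟩
  · exact hC' (j c)
  · simpa using h1 (MvPolynomial.X i)
  · have e : ((MvPolynomial.aeval (R := D) z).toRingHom.comp (MvPolynomial.map Q.1.subtype))
        (MvPolynomial.map j G) = MvPolynomial.aeval z G := by
      change MvPolynomial.aeval z (MvPolynomial.map Q.1.subtype (MvPolynomial.map j G)) = _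
      rw [MvPolynomial.map_map]
      exact MvPolynomial.aeval_map_algebraMap D z G
    have h3 := (h2 _).1 (e ▸ hG)
    rw [RingHom.mem_ker, MvPolynomial.map_map] at h3
    exact MvPolynomial.map_injective _ (RingHom.injective _) (h3.trans (map_zero _).symm)
  · ext a
    rw [ValuationSubring.mem_comap]
    refine ⟨fun ha => ?_, fun ha => hC' ⟨a, ha⟩⟩
    by_contra hn
    have h3 : Q.1.valuation a⁻¹ < 1 := (resb_lt_one_iff _ _).2 (Or.inr (by rwa [inv_inv]))
    have h4 := (h2 (MvPolynomial.C ⟨a⁻¹, resb_mem' h3⟩)).2 (by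
      rw [RingHom.mem_ker, MvPolynomial.map_C, ← resb_coe, (res_eq_zero_iff _ (resb_mem' h3)).2 h3,
        map_zero])
    rw [hC] at h4
    rcases (resb_lt_one_iff _ _).1 h4 with h5 | h5
    · refine hn ?_
      have h6 : a = 0 := by simpa using h5
      exact h6 ▸ zero_mem _
    · exact h5 (by simpa using ha)

theorem exists_ext_place [IsAlgClosed k] {n : ℕ} (h : IsPF k F (n + 1))
    {D : IntermediateField k F} (hD : Flat D 1) :
    ∃ B : IntermediateField k F, Flat B n ∧ (∀ t ∈ D, Transcendental k t → t ∉ B) ∧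
      ∀ Q : Place k D, ∃ w : ValuationSubring F, Sub B w ∧ w.comap D.val.toRingHom = Q.1 := by
  obtain ⟨t, ht, hm⟩ := hD.exists_basis
  obtain ⟨F₀, h1, -, h2⟩ := h.model {t 0}
  have h3 : ∀ i, t i ∈ F₀ := fun i => h2 _ (by simp [Subsingleton.elim i 0])
  rw [add_comm] at h1
  obtain ⟨z, hz⟩ := h1.extend (y := fun i => ⟨t i, h3 i⟩) (AlgebraicIndependent.of_comp F₀.val ht)
    (Fintype.card_fin 1)
  have h4 := hz.map' (f := F₀.val) Subtype.val_injective
  rw [Sum.comp_elim] at h4
  have h5 : AlgebraicIndependent D (F₀.val ∘ z) := by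
    obtain rfl := Flat.eq_acl (ι := Fin 1) (by simpa using hD) ht hm
    exact (val_swap h4).algebraicClosure
  refine ⟨acl k (Set.range (F₀.val ∘ z)), ?_, fun s hs hs' hB => ?_, val_place h5⟩
  · simpa using flat_acl (h4.comp _ Sum.inr_injective)
  · have h6 : AlgebraicIndependent k fun _ : Unit => s := algebraicIndependent_unique_type_iff.2 hs'
    have h7 := h6.sumElim_of_tower (by rintro _ ⟨_, rfl⟩; exact ⟨⟨s, hs⟩, rfl⟩) h5
    exact (val_swap h7).transcendental () ((mem_acl_iff _ _).1 hB)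

theorem val_base {κ κ' K : Type*} [Field κ] [Field κ'] [Field K] [Algebra κ κ'] [Algebra κ K]
    [Algebra κ' K] [IsScalarTower κ κ' K] [Algebra.IsAlgebraic κ κ'] {d : ℕ} (h : IsFF κ K d) :
    IsFF κ' K d := by
  have := h.ess
  obtain ⟨d', h', -⟩ := isFF_of_fg (fg_top_iff.2 (Algebra.EssFiniteType.of_comp κ κ' K))
  obtain ⟨y, hy, -⟩ := id h
  obtain ⟨y', hy', -⟩ := id h'
  have h1 := h'.card_le (hy.extendScalars κ')
  have h2 := h.card_le (hy'.restrictScalars (algebraMap κ κ').injective)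
  rw [Fintype.card_fin] at h1 h2
  rwa [le_antisymm h1 h2]

theorem val_transport {κ κ' K K' : Type*} [Field κ] [Field κ'] [Field K] [Field K'] [Algebra κ K]
    [Algebra κ' K'] (e : κ →+* κ') (he : Function.Surjective e) (f : K →+* K')
    (hc : ∀ c, algebraMap κ' K' (e c) = f (algebraMap κ K c)) {d : ℕ} (h : IsFF κ K d) (q : ℕ)
    [ExpChar K q] (hp : ∀ r : K', ∃ j, r ^ q ^ j ∈ f.range) : IsPF κ' K' d := by
  let e' := RingEquiv.ofBijective e ⟨e.injective, he⟩
  let _ : Algebra κ κ' := e.toAlgebra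
  let _ : Algebra κ' K := ((algebraMap κ K).comp e'.symm.toRingHom).toAlgebra
  have h1 : ∀ c, algebraMap κ' K (e c) = algebraMap κ K c := fun c =>
    congrArg (algebraMap κ K) (e'.symm_apply_apply c)
  have : IsScalarTower κ κ' K := IsScalarTower.of_algebraMap_eq fun c => (h1 c).symm
  have : Algebra.IsAlgebraic κ κ' := ⟨fun r => by
    obtain ⟨c, rfl⟩ := he r
    exact isAlgebraic_algebraMap c⟩
  let _ : Algebra K K' := f.toAlgebra
  have : IsScalarTower κ' K K' := IsScalarTower.of_algebraMap_eq fun r => by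
    obtain ⟨c, rfl⟩ := he r
    rw [h1, hc]
    rfl
  have : IsPurelyInseparable K K' := (isPurelyInseparable_iff_pow_mem K q).2 hp
  exact (isPF_of_isFF (val_base h)).of_pi K'

theorem val_resmap {E : Type*} [Field E] (g : E →+* F) (v : ValuationSubring F) :
    ∃ f : Res (v.comap g) →+* Res v, ∀ a ∈ v.comap g, f (res _ a) = res v (g a) := by
  let i : v.comap g →+* v := (g.comp (v.comap g).subtype).codRestrict v fun a => a.2
  have h1 : ∀ a : v.comap g, ((IsLocalRing.residue v).comp i) a = res v (g a) := fun a =>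
    (resb_coe v (i a)).symm
  have : IsLocalHom ((IsLocalRing.residue v).comp i) := ⟨fun a ha => by
    by_contra hn
    refine ha.ne_zero ?_
    rw [h1, res_eq_zero_iff v a.2, ← val_lt_comap]
    exact (ValuationSubring.valuation_lt_one_iff _ a).1 hn⟩
  exact ⟨IsLocalRing.ResidueField.lift ((IsLocalRing.residue v).comp i), fun a ha => by
    rw [← h1 ⟨a, ha⟩]
    exact congrArg _ (resb_coe _ ⟨a, ha⟩)⟩

theorem val_zind {v : ValuationSubring F} (hv : Triv k v) {π : F} (h0 : π ≠ 0)
    (h1 : v.valuation π < 1) : ZInd k v fun _ : Unit => π := by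
  refine ⟨fun _ => h0, fun n c hn => ?_⟩
  rw [Finsupp.prod_fintype _ _ fun _ => zpow_zero _, Fintype.prod_unique] at hn
  have hc : algebraMap k F c ≠ 0 := m2b_ne hn (zpow_ne_zero _ h0)
  have h2 : v.valuation (algebraMap k F c) = 1 := by
    rw [resb_eq_one_iff, resb_lt_one_iff, ← map_inv₀]
    exact ⟨hv c, fun h => h.elim hc fun h => h (hv _)⟩
  rw [h2, map_zpow₀] at hn
  ext
  exact (zpow_eq_one_iff_right₀ zero_le h1.ne).1 hn

theorem res_isPF [IsAlgClosed k] {n : ℕ} (h : IsPF k F (n + 1)) {B : IntermediateField k F}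
    (hB : Flat B n) {v : ValuationSubring F} (hv : Sub B v) (h0 : v ≠ ⊤) :
    IsPF (resK k v) (Res v) n := by
  classical
  obtain ⟨a, ha⟩ : ∃ a, a ∉ v := by
    by_contra hn
    exact h0 (eq_top_iff.2 fun a _ => not_not.1 fun h => hn ⟨a, h⟩)
  have ha0 : a⁻¹ ≠ 0 := inv_ne_zero fun h => ha (h ▸ zero_mem _)
  have ha1 : v.valuation a⁻¹ < 1 := (resb_lt_one_iff _ _).2 (Or.inr (by rwa [inv_inv]))
  obtain ⟨z, hz, hm⟩ := hB.exists_basis
  obtain ⟨F₀, h1, h2, h3⟩ := h.model (insert a⁻¹ (Finset.univ.image z))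
  have hπ : a⁻¹ ∈ F₀ := h3 _ (Finset.mem_insert_self _ _)
  have hz0 : ∀ i, z i ∈ F₀ := fun i => h3 _ (by simp)
  have htr : Triv k (v.comap F₀.val.toRingHom) := fun c => hv.triv c
  have hx := val_zind htr (π := ⟨a⁻¹, hπ⟩) (fun h => ha0 (congrArg Subtype.val h))
    ((val_lt_comap _ _ _).2 ha1)
  have hy : RInd k (v.comap F₀.val.toRingHom) fun i => ⟨z i, hz0 i⟩ := by
    refine val_rind (fun i => hv _ (hm i)) fun G hG => ?_
    rw [val_lt_comap] at hG
    have e : F₀.val.toRingHom (MvPolynomial.aeval (fun i => (⟨z i, hz0 i⟩ : F₀)) G) =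
        MvPolynomial.aeval z G := MvPolynomial.comp_aeval_apply _ F₀.val G
    rw [e] at hG
    by_contra hn
    have h4 : MvPolynomial.aeval z G ∈ B :=
      MvPolynomial.comp_aeval_apply (fun i => (⟨z i, hm i⟩ : B)) B.val G ▸ Subtype.property _
    exact hG.ne (hv.val_eq_one h4 fun h5 => hn (algebraicIndependent_iff.1 hz G h5))
  have h4 := res_isFF h1 hx hy (by simp [add_comm])
  rw [Fintype.card_fin] at h4
  obtain ⟨f, hf⟩ := val_resmap F₀.val.toRingHom v
  obtain ⟨q, hq⟩ := ExpChar.exists k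
  have : ExpChar F₀ q := expChar_of_injective_algebraMap (algebraMap k F₀).injective q
  have : ExpChar (Res (v.comap F₀.val.toRingHom)) q := expChar_of_injective_ringHom
    ((IsLocalRing.residue _).comp ((algebraMap k F₀).codRestrict _ htr)).injective q
  refine val_transport ((f.comp (resK k _).subtype).codRestrict (resK k v) fun r => ?_)
    (fun r => ?_) f (fun _ => rfl) h4 q fun r => ?_
  · obtain ⟨c, hc, e⟩ := (mem_resK _ r.1).1 r.2
    refine (mem_resK _ _).2 ⟨c, hv.triv c, ?_⟩
    change f r.1 = _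
    rw [e, hf _ hc]
    rfl
  · obtain ⟨c, hc, e⟩ := (mem_resK _ r.1).1 r.2
    exact ⟨⟨_, (mem_resK _ _).2 ⟨c, htr c, rfl⟩⟩, Subtype.ext ((hf _ (htr c)).trans e.symm)⟩
  · obtain ⟨b, hb, rfl⟩ := res_surj v r
    obtain ⟨j, u, hu⟩ := IsPurelyInseparable.pow_mem F₀ q b
    have h5 : F₀.val.toRingHom u = b ^ q ^ j := hu
    have h6 : u ∈ v.comap F₀.val.toRingHom := by
      rw [ValuationSubring.mem_comap, h5]
      exact pow_mem hb _
    exact ⟨j, res _ u, by rw [hf u h6, h5, res_pow v hb]⟩

theorem val_fin {B : IntermediateField k F} {Z c : F} (hc : c ∈ B⟮Z⟯) :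
    {β : k | ∃ w : ValuationSubring F, Sub B w ∧ w.valuation (Z - algebraMap k F β) < 1 ∧
      c ∉ w}.Finite := by
  obtain ⟨p, q, rfl⟩ := (mem_adjoin_simple_iff _ _).1 hc
  by_cases hq : q = 0
  · simp [hq]
  refine ((Polynomial.finite_setOfPred_isRoot hq).preimage (algebraMap k B).injective.injOn).subset ?_
  rintro β ⟨w, h1, h2, h3⟩
  by_contra hn
  have hE : ∀ e : B, algebraMap B F e ∈ w := fun e => h1 _ e.2
  have hZ := val_mem_of_sub h2 (h1.triv β)
  refine h3 (val_div (val_aeval_mem w hE hZ p) (val_unit (val_cong hE hZ (h1.triv β) h2 q) ?_))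
  rw [IsScalarTower.algebraMap_apply k B F, Polynomial.aeval_algebraMap_apply_eq_algebraMap_eval]
  exact h1.val_eq_one (Subtype.property _) ((map_ne_zero _).2 hn)

theorem zero_of_inf {n : ℕ} (h : IsPF k F (n + 1)) {B : IntermediateField k F} (hB : Flat B n)
    {Z ξ : F} {S : Set k} (hS : S.Infinite)
    (hw : ∀ β ∈ S, ∃ w : ValuationSubring F, Sub B w ∧
      w.valuation (Z - algebraMap k F β) < 1 ∧ w ≠ ⊤ ∧ w.valuation ξ < 1)
    (hZ : Z ∉ B) : ξ = 0 := by
  have := h.alg_of_not_mem hB hZ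
  obtain ⟨p, hp, hp0⟩ := Algebra.IsIntegral.isIntegral (R := B⟮Z⟯) ξ⁻¹
  obtain ⟨β, hβ, hn⟩ := hS.exists_notMem_finite ((Finset.finite_toSet p.support).biUnion
    fun i _ => val_fin (p.coeff i).2)
  obtain ⟨w, h1, h2, -, h3⟩ := hw β hβ
  refine ((resb_lt_one_iff _ _).1 h3).resolve_right (not_not.2 ?_)
  refine mem_of_monic w (hp.map (algebraMap B⟮Z⟯ F)) (fun i => ?_) (by rwa [Polynomial.eval_map])
  rw [Polynomial.coeff_map]
  by_cases hi : i ∈ p.support
  · by_contra hc
    exact hn (Set.mem_biUnion hi ⟨w, h1, h2, hc⟩)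
  · rw [Polynomial.notMem_support_iff.1 hi, map_zero]
    exact zero_mem _

end P019.E
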