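import Vale.Agent.P019.E.Kum
import Vale.Agent.P019.E.Val

/-!
P019 E/Ind: independence of the classes `[x - a]`.
PLAN. `ind0`: in the field `A(x)` itself (`h : A⟮x⟯ = ⊤`) the `(x - a)`-adic valuation `v`
(`exists_val_at`) has `cl (x - a) ∉ Uv v`: every nonzero element of `A(x)` is `(x - a) ^ j` times a
unit (factor numerator and denominator, `Polynomial.exists_eq_pow_rootMultiplicity_mul_and_not_dvd`).
So `VisAt.lc_mem_iff` and `Sub.Hs_le` give the claim.
`ind`: `A' = A(x)`, the kernel of `V A' → V F` is finite dimensional (`ker_finLe`), `FinLe.of_map`,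
`ind0`, `not_finLe`. `mon`: an element of `A` outside `B` is transcendental over `B`.
`nh`: choose `x` transcendental with value less than one (if `y` is transcendental, `y` or `1 / y`
is in `O`, and `c ≠ 0` is a nonunit of `O`; either `c` is transcendental or it is a constant, then take
`c y`); `S` = the constants which are units of `O` is infinite (roots of `X ^ N + X + 1`, or the
residue field `resK k O` is algebraically closed, `resK_isAlgClosed`); `[x - a] ≡ [-a] = 0` modulo `Nv`.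
`Gen.lc_inj`: `k(x)` is closed under `ℓ`-th roots in `F` (they are separable), so `V k(x) → V F` is
injective; `ind0` with `A = ⊥`. `Gen.range_lc`: for `z` algebraic over `k(x)`, `z ^ q` is separable
for a power `q` of the exponential characteristic, so lies in `k(x)`; rational functions over `k`
factor into linear factors; `q` is invertible modulo `ℓ`.
-/

namespace P019.E

open IntermediateField

variable {ℓ : ℕ} [Fact ℓ.Prime] {k F : Type*} [Field k] [Field F] [Algebra k F] [IsAlgClosed k]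

omit [IsAlgClosed k] in
theorem ind_aeval_mem {A : IntermediateField k F} {v : ValuationSubring F} (hA : Sub A v) {x : F}
    (hx : x ∈ v) (p : Polynomial A) : Polynomial.aeval x p ∈ v := by
  induction p using Polynomial.induction_on' with
  | add p q hp hq =>
    rw [map_add]
    exact add_mem hp hq
  | monomial n c =>
    rw [Polynomial.aeval_monomial]
    exact mul_mem (hA _ c.2) (pow_mem hx n)

omit [IsAlgClosed k] in
theorem ind_poly {A : IntermediateField k F} {v : ValuationSubring F} (hA : Sub A v) {x : F}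
    {a : k} (hv : v.valuation (x - algebraMap k F a) < 1) {p : Polynomial A} (hp : p ≠ 0) :
    ∃ n : ℕ, v.valuation (Polynomial.aeval x p) = v.valuation (x - algebraMap k F a) ^ n := by
  have hx : x ∈ v := by
    have h := add_mem (resb_mem' hv) (hA _ (A.algebraMap_mem a))
    rwa [sub_add_cancel] at h
  obtain ⟨q, hq, hnd⟩ :=
    Polynomial.exists_eq_pow_rootMultiplicity_mul_and_not_dvd p hp (algebraMap k A a)
  have e : Polynomial.aeval x (Polynomial.X - Polynomial.C (algebraMap k A a)) =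
      x - algebraMap k F a := by
    rw [map_sub, Polynomial.aeval_X, Polynomial.aeval_C, ← IsScalarTower.algebraMap_apply]
  have h0 : q.eval (algebraMap k A a) ≠ 0 := fun h => hnd (Polynomial.dvd_iff_isRoot.2 h)
  obtain ⟨r, hr⟩ := Polynomial.X_sub_C_dvd_sub_C_eval (p := q) (a := algebraMap k A a)
  have h1 : v.valuation (algebraMap A F (q.eval (algebraMap k A a))) = 1 :=
    hA.val_eq_one (q.eval (algebraMap k A a)).2 ((map_ne_zero (algebraMap A F)).2 h0)
  have h2 : Polynomial.aeval x q = algebraMap A F (q.eval (algebraMap k A a)) +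
      (x - algebraMap k F a) * Polynomial.aeval x r := by
    have h3 := congrArg (Polynomial.aeval x) hr
    rw [map_sub, map_mul, e, Polynomial.aeval_C] at h3
    rw [← h3, add_sub_cancel]
  have h3 : v.valuation (Polynomial.aeval x q) = 1 := by
    rw [h2, v.valuation.map_add_eq_of_lt_left, h1]
    rw [h1, map_mul]
    exact lt_of_le_of_lt (mul_le_of_le_one_right'
      ((v.valuation_le_one_iff _).2 (ind_aeval_mem hA hx r))) hv
  refine ⟨p.rootMultiplicity (algebraMap k A a), ?_⟩
  conv_lhs => rw [hq]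
  rw [map_mul, map_pow, e, map_mul, map_pow, h3, mul_one]

omit [IsAlgClosed k] in
theorem ind_rat {A : IntermediateField k F} {v : ValuationSubring F} (hA : Sub A v) {x : F}
    {a : k} (hv : v.valuation (x - algebraMap k F a) < 1) (h0 : x - algebraMap k F a ≠ 0) {z : F}
    (hz : z ∈ A⟮x⟯) (hz0 : z ≠ 0) :
    ∃ j : ℤ, v.valuation z = v.valuation (x - algebraMap k F a) ^ j := by
  obtain ⟨p, q, rfl⟩ := (mem_adjoin_simple_iff A z).1 hz
  have hp : p ≠ 0 := fun h => hz0 (by rw [h, map_zero, zero_div])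
  have hq : q ≠ 0 := fun h => hz0 (by rw [h, map_zero, div_zero])
  obtain ⟨n, hn⟩ := ind_poly hA hv hp
  obtain ⟨m, hm⟩ := ind_poly hA hv hq
  exact ⟨(n : ℤ) - m, by
    rw [map_div₀, hn, hm, zpow_sub₀ ((map_ne_zero _).2 h0), zpow_natCast, zpow_natCast]⟩

omit [IsAlgClosed k] in
theorem ind_core {A : IntermediateField k F} {E : Type*} [Field E] [Algebra k E] (f : E →ₐ[k] F)
    {x : E} (hx : Transcendental A (f x)) (hf : ∀ z, f z ∈ A⟮f x⟯)
    {m : k →₀ ZMod ℓ} (hm : lc ℓ k x m ∈ Hs ℓ (A.comap f : Set E)) : m = 0 := by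
  ext a
  obtain ⟨v, hA, hv⟩ := exists_val_at hx a
  have h0 : f x - algebraMap k F a ≠ 0 := fun h => hx (by
    rw [sub_eq_zero.1 h]
    exact isAlgebraic_algebraMap (algebraMap k A a))
  have e : f (x - algebraMap k E a) = f x - algebraMap k F a := by
    rw [map_sub, AlgHom.commutes]
  have hS : Sub (A.comap f) (v.comap f.toRingHom) := fun z hz => hA _ hz
  have hV : VisAt ℓ x (some a) (v.comap f.toRingHom) := by
    refine ⟨?_, fun h => ?_⟩
    · rw [← (v.comap f.toRingHom).valuation.map_one, ← not_le, val_comap, map_one, map_one, not_le]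
      exact e ▸ hv
    · obtain ⟨u, hu, hc⟩ := (mem_Uv_iff _ _).1 h
      have hx0 : x - algebraMap k E a ≠ 0 := fun h => h0 (by rw [← e, h, map_zero])
      obtain ⟨c, hc0, hc⟩ := (cl_eq_iff hx0 (resb_ne hu)).1 hc.symm
      have hu' : v.valuation (f u) = 1 := by
        have h1 := (val_comap f.toRingHom v u 1).1 (by rw [hu, map_one])
        have h2 := (val_comap f.toRingHom v 1 u).1 (by rw [hu, map_one])
        rw [map_one, map_one] at h1 h2
        exact le_antisymm h1 h2
      obtain ⟨j, hj⟩ := ind_rat hA hv h0 (hf c) ((map_ne_zero f).2 hc0)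
      have h3 := congrArg (fun z => v.valuation (f z)) hc
      simp only [e, map_mul, map_pow, hu', hj, one_mul] at h3
      have h4 : v.valuation (f x - algebraMap k F a) ^ (1 : ℤ) =
          v.valuation (f x - algebraMap k F a) ^ (j * ℓ) := by
        rw [zpow_one, zpow_mul, zpow_natCast]
        exact h3
      have h5 : (1 : ℤ) = j * ℓ :=
        zpow_right_injective₀ (zero_lt_iff.2 ((map_ne_zero _).2 h0)) hv.ne h4
      exact (Fact.out : ℓ.Prime).not_dvd_one (Int.natCast_dvd_natCast.1 (Dvd.intro_left j h5.symm))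
  exact (hV.lc_mem_iff hS.triv m).1 (hS.Hs_le hm)

omit [IsAlgClosed k] in
theorem ind_bot {x : F} (hx : Transcendental k x) :
    Transcendental (⊥ : IntermediateField k F) x := hx.extendScalars _

theorem ind_mul_mem {W : Submodule (ZMod ℓ) (V ℓ F)} {a b : F} (ha : cl ℓ a ∈ W)
    (hb : cl ℓ b ∈ W) : cl ℓ (a * b) ∈ W := by
  by_cases h1 : a = 0
  · rw [h1, zero_mul, cl_zero]
    exact zero_mem W
  by_cases h2 : b = 0
  · rw [h2, mul_zero, cl_zero]
    exact zero_mem W
  rw [cl_mul h1 h2]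
  exact add_mem ha hb

theorem ind_range {x z : F} (hz : z ∈ k⟮x⟯) : cl ℓ z ∈ LinearMap.range (lc ℓ k x) := by
  have key : ∀ p : Polynomial k, cl ℓ (Polynomial.aeval x p) ∈ LinearMap.range (lc ℓ k x) := by
    intro p
    have hp : p ∈ Submonoid.closure _ := IsAlgClosed.splits p
    induction hp using Submonoid.closure_induction with
    | mem p hp =>
      rcases hp with ⟨a, rfl⟩ | ⟨a, rfl⟩
      · rw [Polynomial.aeval_C, cl_algebraMap]
        exact zero_mem _
      · refine ⟨Finsupp.single (-a) 1, ?_⟩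
        rw [lc_single, one_smul, map_neg, sub_neg_eq_add, map_add, Polynomial.aeval_X,
          Polynomial.aeval_C]
    | one =>
      rw [map_one, cl_one]
      exact zero_mem _
    | mul p q _ _ hp hq =>
      rw [map_mul]
      exact ind_mul_mem hp hq
  obtain ⟨p, q, rfl⟩ := (mem_adjoin_simple_iff k z).1 hz
  rw [div_eq_mul_inv]
  refine ind_mul_mem (key p) ?_
  rw [cl_inv]
  exact neg_mem (key q)

theorem ind0 {A : IntermediateField k F} {x : F} (hx : Transcendental A x) (h : A⟮x⟯ = ⊤)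
    {m : k →₀ ZMod ℓ} (hm : lc ℓ k x m ∈ Hs ℓ (A : Set F)) : m = 0 :=
  ind_core (AlgHom.id k F) hx (fun z => by
    change z ∈ A⟮x⟯
    rw [h]
    exact mem_top) hm

theorem ind (hℓ : (ℓ : k) ≠ 0) {d : ℕ} (h : IsPF k F d) {A : IntermediateField k F} {x : F}
    (hx : Transcendental A x) {S : Set k} (hS : S.Infinite) {Y : Submodule (ZMod ℓ) (V ℓ F)}
    (hY : ∀ a ∈ S, cl ℓ (x - algebraMap k F a) ∈ Y) : ¬ FinLe Y (Hs ℓ (A : Set F)) := by
  intro hle
  have := hS.to_subtype
  let E : IntermediateField k F := A⟮x⟯.restrictScalars k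
  let x' : E := ⟨x, mem_adjoin_simple_self A x⟩
  let s : S → V ℓ E := fun a => cl ℓ (x' - algebraMap k E a)
  have h1 : LinearIndependent (ZMod ℓ) fun a : k =>
      (Hs ℓ (A.comap E.val : Set E)).mkQ (cl ℓ (x' - algebraMap k E a)) := by
    refine linearIndependent_iff.2 fun m hm => ?_
    refine ind_core (A := A) E.val (x := x') hx (fun z => z.2) ?_
    rw [← Submodule.Quotient.mk_eq_zero, ← Submodule.mkQ_apply, lc,
      Finsupp.apply_linearCombination]
    exact hm
  refine not_finLe (A := Submodule.span (ZMod ℓ) (Set.range s)) s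
    (fun i => Submodule.subset_span ⟨i, rfl⟩) (h1.comp _ Subtype.val_injective) ?_
  refine FinLe.of_map (vmap ℓ E.val.toRingHom) (ker_finLe hℓ h E) ?_
  refine ((FinLe.of_le ?_).trans hle).trans (FinLe.of_le ?_)
  · rw [Submodule.map_le_iff_le_comap, Submodule.span_le]
    rintro _ ⟨a, rfl⟩
    change vmap ℓ E.val.toRingHom (cl ℓ _) ∈ Y
    rw [vmap_cl]
    exact hY a a.2
  · refine Submodule.span_le.2 ?_
    rintro _ ⟨z, hz, rfl⟩
    let z' : E := ⟨z, A⟮x⟯.algebraMap_mem ⟨z, hz⟩⟩
    exact ⟨cl ℓ z', cl_mem_Hs hz, vmap_cl _ z'⟩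

theorem mon (hℓ : (ℓ : k) ≠ 0) {d : ℕ} (h : IsPF k F d) {A B : IntermediateField k F} {b : ℕ}
    (hB : Flat B b) (hle : FinLe (Hs ℓ (A : Set F)) (Hs ℓ (B : Set F))) : A ≤ B := by
  intro x hx
  by_contra hxB
  exact ind hℓ h (fun hh => hxB (hB.1 x hh)) Set.infinite_univ
    (fun a _ => cl_mem_Hs (sub_mem hx (A.algebraMap_mem a))) hle

theorem nh (hℓ : (ℓ : k) ≠ 0) {d : ℕ} (h : IsPF k F d) (hd : 1 ≤ d) {O : ValuationSubring F}
    (hO : O ≠ ⊤) : ¬ FinLe (Nv ℓ O) ⊥ := by
  obtain ⟨n, rfl⟩ : ∃ n, d = n + 1 := ⟨d - 1, by omega⟩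
  obtain ⟨y, hy, hyO⟩ : ∃ y : F, Transcendental k y ∧ y ∈ O := by
    obtain ⟨y, hy⟩ := h.exists_trans
    rcases O.mem_or_inv_mem y with h1 | h1
    · exact ⟨y, hy, h1⟩
    · exact ⟨y⁻¹, fun h2 => hy (IsAlgebraic.inv_iff.1 h2), h1⟩
  obtain ⟨c, hc0, hc⟩ : ∃ c : F, c ≠ 0 ∧ O.valuation c < 1 := by
    by_contra hh
    refine hO (eq_top_iff.2 fun z _ => ?_)
    by_contra hz
    refine hh ⟨z⁻¹, inv_ne_zero fun h0 => hz (h0 ▸ zero_mem O),
      (resb_lt_one_iff O _).2 (Or.inr ?_)⟩
    rwa [inv_inv]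
  obtain ⟨x, hx, hxv⟩ : ∃ x : F, Transcendental k x ∧ O.valuation x < 1 := by
    by_cases h1 : IsAlgebraic k c
    · refine ⟨c * y, fun h2 => hy ?_, ?_⟩
      · have h3 := h1.inv.mul h2
        rwa [inv_mul_cancel_left₀ hc0] at h3
      · rw [map_mul]
        exact lt_of_le_of_lt (mul_le_of_le_one_right' ((O.valuation_le_one_iff y).2 hyO)) hc
    · exact ⟨c, h1, hc⟩
  have hS : {a : k | O.valuation (algebraMap k F a) = 1}.Infinite := by
    intro hfin
    have := resK_isAlgClosed k O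
    have h2 : (resK k O : Set (Res O)).Infinite := Set.infinite_coe_iff.1
      (inferInstanceAs (Infinite (resK k O)))
    refine h2 (((hfin.image fun a => res O (algebraMap k F a)).insert 0).subset fun r hr => ?_)
    obtain ⟨a, ha, rfl⟩ := (mem_resK O r).1 hr
    by_cases h0 : res O (algebraMap k F a) = 0
    · exact Or.inl h0
    · exact Or.inr ⟨a, resb_unit ha h0, rfl⟩
  intro hle
  refine ind hℓ h (ind_bot hx) hS (Y := Nv ℓ O) (fun a ha => ?_)
    (hle.trans (FinLe.of_le bot_le))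
  have h3 := cl_sub_mem_Nv (ℓ := ℓ) (O := O) (a := x - algebraMap k F a)
    (b := algebraMap k F (-a)) (by
      rw [map_neg, sub_neg_eq_add, sub_add_cancel, Valuation.map_neg, ha.out]
      exact hxv)
  rwa [cl_algebraMap, sub_zero] at h3

theorem Gen.lc_inj (hℓ : (ℓ : k) ≠ 0) {x : F} (hx : Gen k x) :
    Function.Injective (lc ℓ k x) := by
  refine (injective_iff_map_eq_zero _).2 fun m hm => ?_
  let x' : k⟮x⟯ := ⟨x, mem_adjoin_simple_self k x⟩
  have hle : k⟮x⟯ ≤ (⊥ : IntermediateField k F)⟮x⟯.restrictScalars k :=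
    adjoin_simple_le_iff.2 (mem_adjoin_simple_self (⊥ : IntermediateField k F) x)
  refine ind_core (A := ⊥) k⟮x⟯.val (x := x') (ind_bot hx.1) (fun z => hle z.2) ?_
  obtain ⟨a, ha0, ha⟩ := cl_surj (lc ℓ k x' m)
  have h1 : cl ℓ (a : F) = 0 := by
    have h2 := vmap_lc (ℓ := ℓ) k⟮x⟯.val x' m
    rw [← ha, vmap_cl] at h2
    exact h2.trans hm
  obtain ⟨b, -, hb⟩ := bas_root (fun h => ha0 (Subtype.ext h)) h1
  have hl : (ℓ : k⟮x⟯) ≠ 0 := by
    rw [← map_natCast (algebraMap k k⟮x⟯)]
    exact (map_ne_zero _).2 hℓ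
  have hs : IsSeparable k⟮x⟯ b :=
    (Polynomial.separable_X_pow_sub_C a hl ha0).of_dvd (minpoly.dvd _ _ (by
      rw [map_sub, map_pow, Polynomial.aeval_X, Polynomial.aeval_C, hb]
      exact sub_self _))
  have h3 : cl ℓ a = 0 := (cl_eq_zero_iff ha0).2 ⟨⟨b, hx.2 b hs⟩, Subtype.ext hb⟩
  rw [← ha, h3]
  exact zero_mem _

theorem Gen.range_lc (hℓ : (ℓ : k) ≠ 0) {x : F} (hx : Gen k x) :
    LinearMap.range (lc ℓ k x) = Hs ℓ (acl k {x} : Set F) := by
  refine le_antisymm ?_ (Submodule.span_le.2 ?_)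
  · rintro _ ⟨m, rfl⟩
    exact lc_mem_Hs x m
  rintro _ ⟨z, hz, rfl⟩
  have hi : IsIntegral k⟮x⟯ z := ((mem_acl_iff _ z).1 hz).isIntegral
  obtain ⟨q, hq⟩ := ExpChar.exists k
  have := expChar_of_injective_algebraMap (algebraMap k k⟮x⟯).injective q
  obtain ⟨g, hg, n, hn⟩ := (minpoly.irreducible hi).hasSeparableContraction q
  have hs : IsSeparable k⟮x⟯ (z ^ q ^ n) := hg.of_dvd (minpoly.dvd _ _ (by
    rw [← Polynomial.expand_aeval, hn, minpoly.aeval]))
  have h1 := ind_range (ℓ := ℓ) (hx.2 _ hs)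
  have h2 : ((q ^ n : ℕ) : ZMod ℓ) ≠ 0 := by
    rw [Nat.cast_pow]
    refine pow_ne_zero _ fun h => ?_
    have hd := (ZMod.natCast_eq_zero_iff q ℓ).1 h
    cases hq with
    | zero => exact (Fact.out : ℓ.Prime).not_dvd_one hd
    | prime hp =>
      rw [(Nat.prime_dvd_prime_iff_eq Fact.out hp).1 hd] at hℓ
      exact hℓ (CharP.cast_eq_zero k q)
  rw [cl_pow] at h1
  exact (Submodule.smul_mem_iff _ h2).1 h1

theorem Gen.shift {x : F} (hx : Gen k x) (a : k) :
    Gen k (x + algebraMap k F a) ∧ acl k {x + algebraMap k F a} = acl k {x} := by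
  have e : k⟮x + algebraMap k F a⟯ = k⟮x⟯ := by
    refine le_antisymm (adjoin_simple_le_iff.2 ?_) (adjoin_simple_le_iff.2 ?_)
    · exact add_mem (mem_adjoin_simple_self k x) (IntermediateField.algebraMap_mem _ a)
    · have h := sub_mem (mem_adjoin_simple_self k (x + algebraMap k F a))
        (IntermediateField.algebraMap_mem _ a)
      rwa [add_sub_cancel_right] at h
  refine ⟨⟨fun h => hx.1 ?_, ?_⟩, ?_⟩
  · have h1 := h.sub (isAlgebraic_algebraMap a)
    rwa [add_sub_cancel_right] at h1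
  · rw [e]
    exact hx.2
  · ext z
    rw [mem_acl_iff, mem_acl_iff, e]

end P019.E
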