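import Vale.Agent.P019.E.Vis
import Vale.Agent.P019.E.Ind
import Vale.Agent.P019.Cv0
import Vale.Agent.P019.Loc4A

/-!
P019 E/Pc: places of a field purely inseparable over the function field of a curve.
PLAN. Take a model `F₀` containing the elements in question (`IsPF.model`). `Q ↦ Q.comap` is an
injective map from places of `D` to places of `F₀` (`u ∈ Q ↔ u ^ q ∈ Q`). Use `cv_res`, `cv_finite`,
`cv_unif`, `cv_sep` (CvA, CvB). `pc_rat`: `u ^ q ≡ c = β ^ q`, `(u - β) ^ q = u ^ q - β ^ q`.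
`pc_unif`: `π` a uniformizer of the place of `F₀`; `u ^ q ~ π ^ j`, `q` invertible modulo `ℓ`.
`pc_vis`: `viscof` with `n = 0`, `B = ⊥`. `pc_aut`: `γ u - u` vanishes at all fixed places where `u` is
finite (`pc_rat`, `γ` is `l`-linear). `pc_gen`: if `D` is purely inseparable over `l(f)`, `u ^ q` is a
rational function in `f`, and `unr_base` decides whether it lies in `Q`.
-/

namespace P019.E

open IntermediateField

variable {ℓ : ℕ} [Fact ℓ.Prime] {l D : Type*} [Field l] [Field D] [Algebra l D] [IsAlgClosed l]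

omit [IsAlgClosed l] in
theorem pc_pw (F₀ : IntermediateField l D) [IsPurelyInseparable F₀ D] (u : D) :
    ∃ (N : ℕ) (y : F₀), N ≠ 0 ∧ (y : D) = u ^ N ∧ ∀ b : D, (u - b) ^ N = u ^ N - b ^ N := by
  obtain ⟨q, hq⟩ := ExpChar.exists F₀
  have := expChar_of_injective_algebraMap (algebraMap F₀ D).injective q
  obtain ⟨n, y, hy⟩ := IsPurelyInseparable.pow_mem F₀ q u
  exact ⟨q ^ n, y, pow_ne_zero _ (expChar_pos F₀ q).ne', hy, fun b => sub_pow_expChar_pow _ _ _⟩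

theorem pc_mem_pow (O : ValuationSubring D) {u : D} {N : ℕ} (hN : N ≠ 0) :
    u ^ N ∈ O ↔ u ∈ O := by
  rw [← O.valuation_le_one_iff, ← O.valuation_le_one_iff, map_pow,
    pow_le_one_iff_of_nonneg zero_le hN]

/-- restriction of a place to a subfield over which `D` is purely inseparable -/
def pcRes (F₀ : IntermediateField l D) [IsPurelyInseparable F₀ D] (Q : Place l D) : Place l F₀ :=
  ⟨Q.1.comap (algebraMap F₀ D), fun e => Q.2.1 (eq_top_iff.2 fun u _ => by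
    obtain ⟨N, y, hN, hy, -⟩ := pc_pw F₀ u
    have h1 : y ∈ Q.1.comap (algebraMap F₀ D) := by
      rw [e]
      trivial
    have h2 : (y : D) ∈ Q.1 := h1
    rw [hy] at h2
    exact (pc_mem_pow _ hN).1 h2), fun c => Q.2.2 c⟩

omit [IsAlgClosed l] in
theorem pcRes_mem (F₀ : IntermediateField l D) [IsPurelyInseparable F₀ D] (Q : Place l D)
    (y : F₀) : y ∈ (pcRes F₀ Q).1 ↔ (y : D) ∈ Q.1 := Iff.rfl

omit [IsAlgClosed l] in
theorem pcRes_inj (F₀ : IntermediateField l D) [IsPurelyInseparable F₀ D] :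
    Function.Injective (pcRes F₀) := by
  intro Q Q' e
  refine Subtype.ext (ValuationSubring.ext _ _ fun u => ?_)
  obtain ⟨N, y, hN, hy, -⟩ := pc_pw F₀ u
  rw [← pc_mem_pow Q.1 hN, ← pc_mem_pow Q'.1 hN, ← hy, ← pcRes_mem, ← pcRes_mem, e]

omit [IsAlgClosed l] in
theorem pcRes_le (F₀ : IntermediateField l D) [IsPurelyInseparable F₀ D] (Q : Place l D)
    (a b : F₀) : (pcRes F₀ Q).1.valuation a ≤ (pcRes F₀ Q).1.valuation b ↔
      Q.1.valuation (a : D) ≤ Q.1.valuation (b : D) := val_comap (algebraMap F₀ D) Q.1 a b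

omit [IsAlgClosed l] in
theorem pcRes_eq (F₀ : IntermediateField l D) [IsPurelyInseparable F₀ D] (Q : Place l D)
    (a b : F₀) : (pcRes F₀ Q).1.valuation a = (pcRes F₀ Q).1.valuation b ↔
      Q.1.valuation (a : D) = Q.1.valuation (b : D) := by
  rw [le_antisymm_iff, le_antisymm_iff, pcRes_le, pcRes_le]

omit [IsAlgClosed l] in
theorem pcRes_one (F₀ : IntermediateField l D) [IsPurelyInseparable F₀ D] (Q : Place l D)
    (a : F₀) : (pcRes F₀ Q).1.valuation a = 1 ↔ Q.1.valuation (a : D) = 1 := by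
  have := pcRes_eq F₀ Q a 1
  rwa [map_one, OneMemClass.coe_one, map_one] at this

omit [IsAlgClosed l] in
theorem pcRes_lt (F₀ : IntermediateField l D) [IsPurelyInseparable F₀ D] (Q : Place l D)
    (a : F₀) : (pcRes F₀ Q).1.valuation a < 1 ↔ Q.1.valuation (a : D) < 1 := by
  have := pcRes_le F₀ Q 1 a
  rw [map_one, OneMemClass.coe_one, map_one] at this
  rw [← not_le, ← not_le, this]

/-- a uniformizer up to index prime to `ℓ` generates `V / U` -/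
theorem pc_key (O : ValuationSubring D) {π : D} (hπ0 : π ≠ 0) (hπ : O.valuation π < 1)
    (H : ∀ u : D, u ≠ 0 → ∃ (N : ℕ) (k : ℤ), (N : ZMod ℓ) ≠ 0 ∧
      O.valuation (u ^ N) = O.valuation (π ^ k)) :
    cl ℓ π ∉ Uv ℓ O ∧ ∀ ξ : V ℓ D, ∃ r : ZMod ℓ, ξ - r • cl ℓ π ∈ Uv ℓ O := by
  have hp : 0 < O.valuation π := zero_lt_iff.2 (by simpa using hπ0)
  constructor
  · intro hm
    obtain ⟨a, ha, e⟩ := (mem_Uv_iff O _).1 hm
    have ha0 : a ≠ 0 := by
      rintro rfl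
      simp at ha
    obtain ⟨c, hc, e'⟩ := (cl_eq_iff hπ0 ha0).1 e.symm
    obtain ⟨N, k, hN, hk⟩ := H c hc
    have h1 : O.valuation π = O.valuation c ^ ℓ := by
      rw [e', map_mul, ha, one_mul, map_pow]
    have h2 : O.valuation π ^ (N : ℤ) = O.valuation π ^ (k * ℓ) := by
      rw [zpow_mul, ← map_zpow₀ O.valuation π k, ← hk, map_pow, zpow_natCast, zpow_natCast,
        ← pow_mul, mul_comm, pow_mul, ← h1]
    have h3 := (zpow_right_strictAnti₀ hp hπ).injective h2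
    apply hN
    have h4 := congrArg (Int.cast : ℤ → ZMod ℓ) h3
    simpa using h4
  · intro ξ
    obtain ⟨u, hu, rfl⟩ := cl_surj ξ
    obtain ⟨N, k, hN, hk⟩ := H u hu
    have hk0 : π ^ k ≠ 0 := zpow_ne_zero _ hπ0
    have h1 : cl ℓ (u ^ N / π ^ k) ∈ Uv ℓ O := by
      refine cl_mem_Hs ?_
      show O.valuation _ = 1
      rw [map_div₀, hk, div_self ((map_ne_zero _).2 hk0)]
    rw [cl_div (pow_ne_zero _ hu) hk0, cl_pow, cl_zpow] at h1
    refine ⟨(N : ZMod ℓ)⁻¹ * k, ?_⟩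
    have h2 := (Uv ℓ O).smul_mem (N : ZMod ℓ)⁻¹ h1
    rwa [smul_sub, inv_smul_smul₀ hN, smul_smul] at h2

omit [Fact ℓ.Prime] [IsAlgClosed l] in
theorem pc_ell (hℓ : (ℓ : l) ≠ 0) (F₀ : IntermediateField l D) : (ℓ : F₀) ≠ 0 := by
  rw [← map_natCast (algebraMap l F₀)]
  exact (map_ne_zero _).2 hℓ

theorem pc_key' (hℓ : (ℓ : l) ≠ 0) {F₀ : IntermediateField l D} [IsPurelyInseparable F₀ D]
    (hF : IsFF l F₀ 1) (Q : Place l D) {π : F₀} (hπ0 : π ≠ 0) (hπ : ord (pcRes F₀ Q) π = 1) :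
    cl ℓ (π : D) ∉ Uv ℓ Q.1 ∧ ∀ ξ : V ℓ D, ∃ r : ZMod ℓ, ξ - r • cl ℓ (π : D) ∈ Uv ℓ Q.1 := by
  refine pc_key Q.1 (by simpa using hπ0)
    ((pcRes_lt F₀ Q π).1 ((ord_val_lt_one hF _ hπ0).2 (by omega))) fun u hu => ?_
  obtain ⟨N, y, hN, hy, -⟩ := bas_pi (pc_ell hℓ F₀) D u
  have hy' : (y : D) = u ^ N := hy
  have hy0 : y ≠ 0 := by
    rintro rfl
    exact pow_ne_zero N hu (by simpa using hy'.symm)
  refine ⟨N, ord (pcRes F₀ Q) y, hN, ?_⟩
  have h1 := (pcRes_eq F₀ Q y (π ^ ord (pcRes F₀ Q) y)).1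
    ((ord_val_eq hF _ hy0 (zpow_ne_zero _ hπ0)).2 (by rw [ord_zpow hF, hπ, mul_one]))
  rw [hy'] at h1
  rw [h1]
  rfl

theorem pc_rat (h : IsPF l D 1) (Q : Place l D) {u : D} (hu : u ∈ Q.1) :
    ∃ β : l, Q.1.valuation (u - algebraMap l D β) < 1 := by
  obtain ⟨F₀, hF, hpi⟩ := h
  obtain ⟨N, y, hN, hy, hs⟩ := pc_pw F₀ u
  have h1 : y ∈ (pcRes F₀ Q).1 := by
    rw [pcRes_mem, hy]
    exact (pc_mem_pow _ hN).2 hu
  obtain ⟨c, hc⟩ := cv_res hF _ h1
  obtain ⟨β, rfl⟩ := IsAlgClosed.exists_pow_nat_eq c (Nat.pos_of_ne_zero hN)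
  refine ⟨β, ?_⟩
  rw [pcRes_lt] at hc
  have h2 : ((y - algebraMap l F₀ (β ^ N) : F₀) : D) = (u - algebraMap l D β) ^ N := by
    rw [hs, ← hy, ← map_pow]
    rfl
  rwa [h2, map_pow, pow_lt_one_iff_of_nonneg zero_le hN] at hc
theorem pc_fin (h : IsPF l D 1) {f : D} (hf : f ≠ 0) :
    {Q : Place l D | Q.1.valuation f ≠ 1}.Finite := by
  obtain ⟨F₀, hF, hpi⟩ := h
  obtain ⟨N, y, hN, hy, -⟩ := pc_pw F₀ f
  have hy0 : y ≠ 0 := by
    rintro rfl
    exact pow_ne_zero N hf (by simpa using hy.symm)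
  refine ((cv_finite hF y).preimage (pcRes_inj F₀).injOn).subset fun Q hQ e => hQ ?_
  have h1 := (pcRes_one F₀ Q y).1 ((cv_val_eq_one hF _ hy0).2 e)
  rw [hy] at h1
  exact val_eq_one_of_pow _ hN h1
theorem pc_zero (h : IsPF l D 1) {f : D} (hf : {Q : Place l D | Q.1.valuation f < 1}.Infinite) :
    f = 0 := by
  by_contra h0
  exact hf ((pc_fin h h0).subset fun Q hQ => ne_of_lt hQ)
theorem pc_unif (hℓ : (ℓ : l) ≠ 0) (h : IsPF l D 1) (Q : Place l D) :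
    ∃ π : D, cl ℓ π ∉ Uv ℓ Q.1 ∧ ∀ ξ : V ℓ D, ∃ r : ZMod ℓ, ξ - r • cl ℓ π ∈ Uv ℓ Q.1 := by
  obtain ⟨F₀, hF, hpi⟩ := h
  obtain ⟨π, h0, h1⟩ := exists_ord hF (pcRes F₀ Q) 1
  exact ⟨π, pc_key' hℓ hF Q h0 h1⟩
theorem pc_sep (hℓ : (ℓ : l) ≠ 0) (h : IsPF l D 1) {Q Q' : Place l D}
    (hQ : Uv ℓ Q.1 ≤ Uv ℓ Q'.1) : Q = Q' := by
  obtain ⟨F₀, hF, hpi⟩ := h
  by_contra hne
  obtain ⟨f, h0, h1, h2⟩ := cv_sep hF (P := pcRes F₀ Q') (Q := pcRes F₀ Q)
    fun e => hne (pcRes_inj F₀ e).symm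
  refine (pc_key' hℓ hF Q' h0 h1).1 (hQ (cl_mem_Hs ?_))
  exact (pcRes_one F₀ Q f).1 ((cv_val_eq_one hF _ h0).2 h2)

omit [IsAlgClosed l] in
theorem pc_ne {t : D} (ht : Transcendental l t) (β : l) : t - algebraMap l D β ≠ 0 := fun e =>
  ht (by rw [sub_eq_zero.1 e]; exact isAlgebraic_algebraMap β)

theorem pc_ex {t : D} (ht : Transcendental l t) (β : l) :
    ∃ Q : Place l D, Q.1.valuation (t - algebraMap l D β) < 1 := by
  have h1 : Transcendental (⊥ : IntermediateField l D) t := ht.extendScalars _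
  obtain ⟨v, hv, h2⟩ := exists_val_at h1 β
  refine ⟨⟨v, ?_, hv.triv⟩, h2⟩
  rintro rfl
  rcases (resb_lt_one_iff _ _).1 h2 with e | e
  · exact pc_ne ht β e
  · exact e trivial
theorem pc_vis (hℓ : (ℓ : l) ≠ 0) (h : IsPF l D 1) {t : D} (ht : Transcendental l t) :
    {a : l | ∃ Q : Place l D, Q.1.valuation (t - algebraMap l D a) < 1 ∧
      cl ℓ (t - algebraMap l D a) ∈ Uv ℓ Q.1}.Finite := by
  have hB : Flat (⊥ : IntermediateField l D) 0 := by
    refine ⟨fun z hz => ?_, by simpa using trdeg_eq_zero⟩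
    by_contra hn
    have h1 : Transcendental l z := (cv_trans_iff z).2 fun ⟨c, hc⟩ => hn (mem_bot.2 ⟨c, hc.symm⟩)
    exact (h1.extendScalars _) hz
  have hz : t ∉ (⊥ : IntermediateField l D) := fun hm => by
    obtain ⟨c, rfl⟩ := mem_bot.1 hm
    exact ht (isAlgebraic_algebraMap c)
  refine (viscof hℓ (n := 0) h hB hz).subset ?_
  rintro a ⟨Q, h1, h2⟩
  refine ⟨Q.1, fun b hb => ?_, h1, h2⟩
  obtain ⟨c, rfl⟩ := mem_bot.1 hb
  exact Q.2.2 c
theorem pc_val_unique (Q : Place l D) {u : D} {β β' : l}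
    (h : Q.1.valuation (u - algebraMap l D β) < 1)
    (h' : Q.1.valuation (u - algebraMap l D β') < 1) : β = β' := by
  by_contra hne
  have h1 := Q.1.valuation.map_sub_lt h' h
  rw [sub_sub_sub_cancel_left, ← map_sub, cv_val_const Q (sub_ne_zero.2 hne)] at h1
  exact lt_irrefl _ h1
theorem pc_move {D' : Type*} [Field D'] [Algebra l D'] (γ : D ≃ₐ[l] D') (Q : Place l D) :
    ∃ Q' : Place l D', Mov γ Q Q' := by
  refine ⟨⟨Q.1.comap (γ.symm : D' →+* D), fun e => Q.2.1 (eq_top_iff.2 fun u _ => ?_),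
    fun c => ?_⟩, fun u => ?_⟩
  · have h1 : γ u ∈ Q.1.comap (γ.symm : D' →+* D) := by
      rw [e]
      trivial
    simpa using h1
  · simpa using Q.2.2 c
  · simp
theorem Mov.val_lt {D' : Type*} [Field D'] [Algebra l D'] {γ : D ≃ₐ[l] D'} {Q : Place l D}
    {Q' : Place l D'} (h : Mov γ Q Q') (u : D) :
    Q'.1.valuation (γ u) < 1 ↔ Q.1.valuation u < 1 := by
  rw [resb_lt_one_iff, resb_lt_one_iff, ← map_inv₀, ← h, map_eq_zero]

theorem pc_mov_symm {D' : Type*} [Field D'] [Algebra l D'] {γ : D ≃ₐ[l] D'} {Q : Place l D}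
    {Q' : Place l D'} (h : Mov γ Q Q') : Mov γ.symm Q' Q := fun u => by
  rw [h, AlgEquiv.apply_symm_apply]

theorem pc_mov_cl {D' : Type*} [Field D'] [Algebra l D'] {γ : D ≃ₐ[l] D'} {Q : Place l D}
    {Q' : Place l D'} (h : Mov γ Q Q') {u : D} (hu : cl ℓ u ∈ Uv ℓ Q.1) :
    cl ℓ (γ u) ∈ Uv ℓ Q'.1 := by
  obtain ⟨a, ha, e⟩ := (mem_Uv_iff _ _).1 hu
  refine (mem_Uv_iff _ _).2 ⟨γ a, ?_, ?_⟩
  · rw [resb_eq_one_iff] at ha ⊢
    rwa [h.val_lt, ← h]
  · have h1 := congrArg (vmap ℓ (γ : D →+* D')) e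
    rwa [vmap_cl, vmap_cl] at h1

theorem Mov.cl_mem {D' : Type*} [Field D'] [Algebra l D'] {γ : D ≃ₐ[l] D'} {Q : Place l D}
    {Q' : Place l D'} (h : Mov γ Q Q') (u : D) :
    cl ℓ (γ u) ∈ Uv ℓ Q'.1 ↔ cl ℓ u ∈ Uv ℓ Q.1 := by
  refine ⟨fun h1 => ?_, pc_mov_cl h⟩
  have h2 := pc_mov_cl (pc_mov_symm h) h1
  rwa [AlgEquiv.symm_apply_apply] at h2
theorem pc_aut (h : IsPF l D 1) (γ : D ≃ₐ[l] D) (hγ : {Q : Place l D | Mov γ Q Q}.Infinite) :
    γ = AlgEquiv.refl := by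
  ext u
  by_cases hu : u = 0
  · simp [hu]
  refine sub_eq_zero.1 (pc_zero h ((hγ.sdiff (pc_fin h hu)).mono ?_))
  rintro Q ⟨h1, h2⟩
  have h3 : Q.1.valuation u = 1 := not_not.1 h2
  obtain ⟨β, hβ⟩ := pc_rat h Q ((Q.1.valuation_le_one_iff u).1 h3.le)
  have h4 := (Mov.val_lt h1 _).2 hβ
  rw [map_sub, AlgEquiv.commutes] at h4
  have h5 := Q.1.valuation.map_sub_lt h4 hβ
  rwa [sub_sub_sub_cancel_right] at h5
/-- a rational curve : general coordinate, all finite points visible -/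
theorem pc_gen (hℓ : (ℓ : l) ≠ 0) {f : D} (hf : Transcendental l f)
    (hD : PIo l⟮f⟯.toSubfield) : Gen l f ∧ acl l {f} = ⊤ ∧ ∀ (Q : Place l D) (β : l),
      Q.1.valuation (f - algebraMap l D β) < 1 → VisAt ℓ f (some β) Q.1 := by
  have hq : ExpChar D (ringExpChar D) := ringExpChar.expChar D
  have hq' : ExpChar l⟮f⟯ (ringExpChar D) :=
    (algebraMap l⟮f⟯ D).expChar (algebraMap l⟮f⟯ D).injective _
  have hpi : IsPurelyInseparable l⟮f⟯ D :=
    (isPurelyInseparable_iff_pow_mem l⟮f⟯ (ringExpChar D)).2 fun u => by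
      obtain ⟨j, hj⟩ := hD u
      exact ⟨j, ⟨_, hj⟩, rfl⟩
  refine ⟨⟨hf, fun z hz => ?_⟩, eq_top_iff.2 fun u _ => ?_, fun Q β hβ => ⟨hβ, ?_⟩⟩
  · obtain ⟨y, rfl⟩ := IsPurelyInseparable.inseparable l⟮f⟯ z hz
    exact y.2
  · exact mem_algebraicClosure_iff.2 (Algebra.IsAlgebraic.isAlgebraic (R := l⟮f⟯) u)
  · have h0 := pc_ne hf β
    refine (pc_key Q.1 h0 hβ fun u hu => ?_).1
    obtain ⟨N, y, hN, hy, -⟩ := bas_pi (pc_ell hℓ l⟮f⟯) D u
    have hE : ∀ a ∈ (algebraMap l D).fieldRange, a ∈ Q.1 := by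
      rintro _ ⟨c, rfl⟩
      exact Q.2.2 c
    have hle : l⟮f⟯.toSubfield ≤ Subfield.closure
        (insert (f - algebraMap l D β) ((algebraMap l D).fieldRange : Set D)) := by
      rw [adjoin_toSubfield, Subfield.closure_le]
      have hc : ∀ c : l, algebraMap l D c ∈ Subfield.closure
          (insert (f - algebraMap l D β) ((algebraMap l D).fieldRange : Set D)) := fun c =>
        Subfield.subset_closure (Or.inr ⟨c, rfl⟩)
      rintro x (⟨c, rfl⟩ | hx)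
      · exact hc c
      · rw [Set.mem_singleton_iff.1 hx]
        have h1 := add_mem (Subfield.subset_closure (Set.mem_insert _ _)) (hc β)
        rwa [sub_add_cancel] at h1
    have hy' : (y : D) = u ^ N := hy
    obtain ⟨j, e, ⟨c, rfl⟩, he0, he⟩ := unr_base hE h0 hβ (hle y.2)
      (by rw [hy']; exact pow_ne_zero _ hu)
    refine ⟨N, j, hN, ?_⟩
    have h1 : Q.1.valuation (algebraMap l D c) = 1 := cv_val_const Q (by simpa using he0)
    have h2 := Q.1.valuation.map_eq_of_sub_lt (h1.symm ▸ he)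
    have hj : Q.1.valuation ((f - algebraMap l D β) ^ j) ≠ 0 :=
      (map_ne_zero _).2 (zpow_ne_zero j h0)
    rwa [h1, map_div₀, div_eq_one_iff_eq hj, hy'] at h2

end P019.E
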