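import Vale.Agent.P019.E.Aff2
import Vale.Agent.P019.E.Pc
import Vale.Agent.P019.CvRR

/-!
P019 E/Aff1: a curve with an action of the affine group, two-transitive on almost all places, is
rational.
PLAN. `F₀` a model of `D`, `P = Q none`, `𝓡 = {u ∈ D | u ∈ Q' for all places Q' ≠ P}`; `γ 𝓡 = 𝓡`.
Places of `D` and `F₀` correspond (`comap`, `exists_ext`). By Riemann-Roch (`exists_isRR`, needs a
separating element: `cv_root`, `cv_separating`; characteristic zero is automatic; then `ldim_neg`)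
`𝓡 ∩ F₀` contains a nonconstant element; take `f` with minimal pole order `N = pdeg f`. It is not a
`p`-th power in `F₀`, so separating. `aff_min`: for nonconstant `u ∈ 𝓡` some Frobenius twist `u'` of
`u` (`u' ^ p ^ i = u ^ p ^ j`) lies in `F₀` and is not a `p`-th power; `pdeg u' = [F₀ : l(u')]` is the
degree of the separable closure of `l(u)` in `D`, a number `sd u` invariant under `γ` and under
Frobenius twists (`sd u = Field.finSepDegree`-like; `l(u ^ p) ⊆ l(u)` is purely inseparable since `l` is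
perfect). So for `u = γ f`, `u'` has pole order `N` and `u' = A f + B` (`OS_step` and minimality).
Let `s a` be the value of `f` at `Q (some a)` (`pc_rat`); `γ f - s x` vanishes at `Q (some (c x + d))`,
which gives the hypothesis of `aff2`. `s` is injective: if `s a = s a'`, the homotheties with centre `a`
show `s a'' = s a` for all `a'' ≠ a`, so `f - s a` has infinitely many zeros. Every `β` is a value
of `f` at a place `≠ P` (`pc_ex`), so the range of `s` is cofinite, and for almost all `β` the function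
`f - β` has exactly one zero in `F₀`, of order `N` (`ddeg_dv`). The Riemann-Hurwitz inequality in
`exists_isRR` for arbitrarily large finite sets of such places forces `N = 1`, so `F₀ = l(f)`
(`cv_pdeg_eq`). Replace `f` by `(f - B) / A`.
-/

namespace P019.E

open IntermediateField

section curve
variable {l F : Type*} [Field l] [Field F] [Algebra l F] [IsAlgClosed l]

theorem aff1_ne {x : F} (hx : Transcendental l x) (β : l) : x - algebraMap l F β ≠ 0 :=
  fun h => (cv_trans_iff x).1 hx ⟨β, sub_eq_zero.1 h⟩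

theorem aff1_pdeg_sub (h : IsFF l F 1) (x : F) (β : l) :
    pdeg l (x - algebraMap l F β) = pdeg l x := by
  have h1 := cv_pdeg_add h x (algebraMap l F (-β))
  have h2 := cv_pdeg_add h (x - algebraMap l F β) (algebraMap l F β)
  rw [cv_pdeg_const h, map_neg, ← sub_eq_add_neg] at h1
  rw [cv_pdeg_const h, sub_add_cancel] at h2
  omega

theorem aff1_sum (h : IsFF l F 1) (y : F) :
    pdeg l y = ∑ P ∈ (cvb_zeros h y).toFinset, (ord P y).toNat := by
  rw [← cv_pdeg_inv h, pdeg, finsum_eq_sum_of_support_subset (s := (cvb_zeros h y).toFinset)]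
  · simp only [ord_inv h, neg_neg]
  · intro P hP
    have : (-ord P y⁻¹).toNat ≠ 0 := hP
    rw [ord_inv h] at this
    simp only [Set.Finite.coe_toFinset, Set.mem_ofPred_eq]
    omega

theorem aff1_set (h : IsFF l F 1) {x : F} (hx : Transcendental l x) (β : l) :
    {P : Place l F | P.1.valuation (x - algebraMap l F β) < 1} =
      {P | 0 < ord P (x - algebraMap l F β)} :=
  Set.ext fun P => ord_val_lt_one h P (aff1_ne hx β)

theorem aff1_le (h : IsFF l F 1) {x : F} (hx : Transcendental l x) (β : l) :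
    {P : Place l F | P.1.valuation (x - algebraMap l F β) < 1}.ncard ≤ pdeg l x := by
  rw [aff1_set h hx, ← aff1_pdeg_sub h x β, aff1_sum h, Set.ncard_eq_toFinset_card _ (cvb_zeros h _),
    Finset.card_eq_sum_ones]
  refine Finset.sum_le_sum fun P hP => ?_
  have : 0 < ord P (x - algebraMap l F β) := by simpa using hP
  omega

theorem aff1_unram (h : IsFF l F 1) {x : F} (hx : Transcendental l x)
    [Algebra.IsSeparable l⟮x⟯ F] :
    {β | {P : Place l F | P.1.valuation (x - algebraMap l F β) < 1}.ncard ≠ pdeg l x}.Finite := by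
  obtain ⟨g, W, -, hRH⟩ := exists_isRR h hx
  have hc : ∀ P : Place l F, ∃ c : l, ∀ β, 1 < ord P (x - algebraMap l F β) → β = c := by
    intro P
    by_cases hP : ∃ c, 1 < ord P (x - algebraMap l F c)
    · obtain ⟨c, hc⟩ := hP
      refine ⟨c, fun β hβ => pc_val_unique P (u := x) ?_ ?_⟩ <;>
        rw [ord_val_lt_one h P (aff1_ne hx _)] <;> omega
    · exact ⟨0, fun β hβ => absurd ⟨β, hβ⟩ hP⟩
  choose c hc using hc
  have hR : {P : Place l F | 1 < ord P (x - algebraMap l F (c P))}.Finite := by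
    by_contra hinf
    obtain ⟨s, hs, hcard⟩ := Set.Infinite.exists_subset_card_eq hinf (2 * g + 2 * pdeg l x)
    have h1 : ∀ P ∈ s, 1 < ord P (x - algebraMap l F (c P)) := fun P hP => hs hP
    have h2 := hRH s c fun P hP => by have := h1 P hP; omega
    have h3 := Finset.card_nsmul_le_sum s (fun P => ord P (x - algebraMap l F (c P)) - 1) 1
      fun P hP => by have := h1 P hP; omega
    rw [hcard, nsmul_one] at h3
    push_cast at h3
    omega
  refine (hR.image c).subset fun β hβ => ?_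
  by_contra hn
  refine hβ ?_
  rw [aff1_set h hx, ← aff1_pdeg_sub h x β, aff1_sum h, Set.ncard_eq_toFinset_card _ (cvb_zeros h _),
    Finset.card_eq_sum_ones]
  refine Finset.sum_congr rfl fun P hP => ?_
  have h1 : 0 < ord P (x - algebraMap l F β) := by simpa using hP
  have h2 : ¬ 1 < ord P (x - algebraMap l F β) := fun h2 =>
    hn ⟨P, by rw [Set.mem_ofPred_eq, ← hc P β h2]; exact h2, (hc P β h2).symm⟩
  omega

theorem aff1_twist (h : IsFF l F 1) (p : ℕ) [hp : ExpChar l p] {v : F} (hv : Transcendental l v) :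
    ∃ (j : ℕ) (g : F), g ^ p ^ j = v ∧ Transcendental l g ∧ Algebra.IsSeparable l⟮g⟯ F := by
  cases hp with
  | zero =>
    have := cv_fin h hv
    have : CharZero l⟮v⟯ := charZero_of_injective_algebraMap (algebraMap l l⟮v⟯).injective
    exact ⟨0, v, by simp, hv, inferInstance⟩
  | prime hq =>
    have := Fact.mk hq
    obtain ⟨j, g, h1, h2⟩ := cv_root h p hv
    exact ⟨j, g, h1, cv_separating h p h2⟩

theorem aff1_pdeg (h : IsFF l F 1) {P₀ : Place l F} {x : F} (hx : ∀ P, P ≠ P₀ → x ∈ P.1) :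
    pdeg l x = (-ord P₀ x).toNat := by
  refine finsum_eq_single _ P₀ fun P hP => ?_
  have := (rr_mem_iff h P x).1 (hx P hP)
  omega

theorem aff1_pos (h : IsFF l F 1) {x : F} (hx : Transcendental l x) : 0 < pdeg l x := by
  obtain ⟨h1, h2⟩ := cv_pdeg_eq h hx
  rw [h1]
  exact Module.finrank_pos

/-- a function of minimal degree with a pole only at `P₀` -/
theorem aff1_min (h : IsFF l F 1) (P₀ : Place l F) : ∃ f : F, Transcendental l f ∧
    (∀ P, P ≠ P₀ → f ∈ P.1) ∧ ∀ g : F, Transcendental l g → (∀ P, P ≠ P₀ → g ∈ P.1) →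
      pdeg l f ≤ pdeg l g ∧ (pdeg l g ≤ pdeg l f →
        ∃ A B : l, A ≠ 0 ∧ g = algebraMap l F A * f + algebraMap l F B) := by
  classical
  have hex : ∃ n, ∃ f : F, Transcendental l f ∧ (∀ P, P ≠ P₀ → f ∈ P.1) ∧ pdeg l f = n := by
    obtain ⟨x, hx0, hx1⟩ := cv_exists_lt P₀
    obtain ⟨g, c, hR, -⟩ := rr_riemann h (cv_trans_of_lt P₀ hx0 hx1)
    have h1 := hR (Finsupp.single P₀ (g + 1))
    rw [ddeg_single] at h1
    have h2 : ¬ LSp (Finsupp.single P₀ ((g : ℤ) + 1)) ≤ LSp (0 : Dvs l F) := fun hle => by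
      have := LSp_finite h (0 : Dvs l F)
      have h3 : ldim (Finsupp.single P₀ ((g : ℤ) + 1)) ≤ ldim (0 : Dvs l F) :=
        Submodule.finrank_mono hle
      rw [ldim_zero h] at h3
      omega
    obtain ⟨f, hf, hf'⟩ := SetLike.not_le_iff_exists.1 h2
    refine ⟨_, f, (cv_trans_iff f).2 ?_, fun P hP => ?_, rfl⟩
    · rintro ⟨c, rfl⟩
      exact hf' ((rr_mem_LSp h).2 (Or.inr fun P => by simp [ord_const h]))
    · rcases (rr_mem_LSp h).1 hf with h0 | h0
      · simp [h0]
      · simpa [rr_mem_iff h, hP] using h0 P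
  obtain ⟨f, h1, h2, h3⟩ := Nat.find_spec hex
  have hmin : ∀ g : F, Transcendental l g → (∀ P, P ≠ P₀ → g ∈ P.1) → pdeg l f ≤ pdeg l g :=
    fun g a b => h3 ▸ Nat.find_min' hex ⟨g, a, b, rfl⟩
  refine ⟨f, h1, h2, fun g hg hg' => ⟨hmin g hg hg', fun hle => ?_⟩⟩
  have h4 := aff1_pos h h1
  have h5 := aff1_pdeg h h2
  have h6 := aff1_pdeg h hg'
  have h0 : f ≠ 0 := by simpa using aff1_ne h1 0
  obtain ⟨A, hA⟩ := OS_step h P₀ (f := g) (Or.inr (by omega)) h0 rfl
  have h7 : ¬ Transcendental l (g - A • f) := fun ht => by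
    have h8 : ∀ P, P ≠ P₀ → g - A • f ∈ P.1 := fun P hP => by
      rw [Algebra.smul_def]
      exact sub_mem (hg' P hP) (mul_mem (P.2.2 A) (h2 P hP))
    have h9 := hmin _ ht h8
    have h10 := aff1_pdeg h h8
    have h11 := hA.resolve_left (by simpa using aff1_ne ht 0)
    omega
  obtain ⟨B, hB⟩ := not_not.1 (mt (cv_trans_iff _).2 h7)
  refine ⟨A, B, ?_, by rw [← hB, Algebra.smul_def]; ring⟩
  rintro rfl
  exact (cv_trans_iff g).1 hg ⟨B, by simpa using hB⟩

end curve

section perf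
variable {l D : Type*} [Field l] [Field D] [Algebra l D]

theorem aff1_pow_mem (W : ValuationSubring D) (u : D) {n : ℕ} (hn : n ≠ 0) : u ^ n ∈ W ↔ u ∈ W := by
  rw [← W.valuation_le_one_iff, ← W.valuation_le_one_iff, map_pow, pow_le_one_iff hn]

theorem aff1_places (F₀ : IntermediateField l D) [IsPurelyInseparable F₀ D] :
    ∃ ρ : Place l D ≃ Place l F₀, ∀ Q, (ρ Q).1 = Q.1.comap (algebraMap F₀ D) := by
  obtain ⟨p, hp⟩ := ExpChar.exists F₀
  have hq : ∀ u : D, ∃ (n : ℕ) (a : F₀), n ≠ 0 ∧ algebraMap F₀ D a = u ^ n := fun u => by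
    obtain ⟨n, a, ha⟩ := IsPurelyInseparable.pow_mem F₀ p u
    exact ⟨_, a, (expChar_pow_pos F₀ p n).ne', ha⟩
  let r : Place l D → Place l F₀ := fun Q => ⟨Q.1.comap (algebraMap F₀ D), fun h => Q.2.1 (by
    refine eq_top_iff.2 fun u _ => ?_
    obtain ⟨n, a, hn, ha⟩ := hq u
    rw [← aff1_pow_mem _ _ hn, ← ha, ← ValuationSubring.mem_comap, h]
    trivial), fun c => Q.2.2 c⟩
  refine ⟨Equiv.ofBijective r ⟨fun Q Q' h => Subtype.ext (SetLike.ext fun u => ?_), fun P => ?_⟩,
    fun Q => rfl⟩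
  · obtain ⟨n, a, hn, ha⟩ := hq u
    have e : Q.1.comap (algebraMap F₀ D) = Q'.1.comap (algebraMap F₀ D) := congrArg Subtype.val h
    rw [← aff1_pow_mem _ _ hn, ← aff1_pow_mem Q'.1 _ hn, ← ha, ← ValuationSubring.mem_comap, e,
      ValuationSubring.mem_comap]
  · obtain ⟨W, hW⟩ := exists_ext (K := D) P.1
    refine ⟨⟨W, fun h => P.2.1 ?_, fun c => ?_⟩, Subtype.ext hW⟩
    · rw [← hW, h]
      exact eq_top_iff.2 fun _ _ => trivial
    · have := P.2.2 c
      rwa [← hW] at this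

theorem aff1_comap_lt {E : Type*} [Field E] (f : E →+* D) (W : ValuationSubring D) (a : E) :
    (W.comap f).valuation a < 1 ↔ W.valuation (f a) < 1 := by
  rw [← ValuationSubring.mem_nonunits_iff, ← ValuationSubring.mem_nonunits_iff,
    ValuationSubring.mem_nonunits_iff_or, ValuationSubring.mem_nonunits_iff_or,
    ValuationSubring.mem_comap, map_inv₀, map_eq_zero]

theorem aff1_frob (p : ℕ) [ExpChar l p] [PerfectRing l p] (n : ℕ) (x : l) :
    (frobeniusEquiv l p ^ n) x = x ^ p ^ n := by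
  induction n with
  | zero => simp
  | succ n ih => rw [pow_succ', RingAut.mul_apply, ih, frobeniusEquiv_apply, frobenius_def,
      ← pow_mul, ← pow_succ]

theorem aff1_val_pow (p : ℕ) [ExpChar l p] (W : ValuationSubring D) (u : D) (β : l) (n : ℕ) :
    W.valuation (u ^ p ^ n - algebraMap l D (β ^ p ^ n)) < 1 ↔
      W.valuation (u - algebraMap l D β) < 1 := by
  have := expChar_of_injective_algebraMap (algebraMap l D).injective p
  rw [map_pow, ← sub_pow_expChar_pow, map_pow, pow_lt_one_iff (expChar_pow_pos l p n).ne']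

theorem aff1_val_twist (p : ℕ) [ExpChar l p] [PerfectRing l p] (W : ValuationSubring D) {u g : D}
    {i j : ℕ} (h : g ^ p ^ j = u ^ p ^ i) (β : l) :
    W.valuation (g - algebraMap l D ((frobeniusEquiv l p ^ ((i : ℤ) - j)) β)) < 1 ↔
      W.valuation (u - algebraMap l D β) < 1 := by
  rw [← aff1_val_pow p W g _ j, ← aff1_val_pow p W u _ i, h, ← aff1_frob (l := l) p j,
    ← RingAut.mul_apply,
    ← zpow_natCast (frobeniusEquiv l p), ← zpow_add, add_sub_cancel, zpow_natCast, aff1_frob]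

theorem aff1_mov_eq {γ : D ≃ₐ[l] D} {Q Q₁ Q₂ : Place l D} (h₁ : Mov γ Q Q₁) (h₂ : Mov γ Q Q₂) :
    Q₁ = Q₂ := Subtype.ext (SetLike.ext fun u => by
  rw [← γ.apply_symm_apply u, ← h₁, ← h₂])

end perf

theorem aff1 {k l D : Type*} [Field k] [Field l] [Field D] [Algebra l D] [IsAlgClosed k]
    [IsAlgClosed l] [PerfectField D] (h : IsPF l D 1) (Q : Option k → Place l D)
    (hQ : Function.Injective Q) (hc : (Set.range Q)ᶜ.Finite)
    (hγ : ∀ c d : k, c ≠ 0 → ∃ γ : D ≃ₐ[l] D, Mov γ (Q none) (Q none) ∧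
      ∀ a, Mov γ (Q (some a)) (Q (some (c * a + d)))) :
    ∃ (f : D) (σ : k ≃+* l), Transcendental l f ∧ PIo l⟮f⟯.toSubfield ∧
      ∀ a, (Q (some a)).1.valuation (f - algebraMap l D (σ a)) < 1 := by
  classical
  obtain ⟨F₀, hF, hpi⟩ := id h
  obtain ⟨p, hp⟩ := ExpChar.exists l
  have hpD := expChar_of_injective_algebraMap (algebraMap l D).injective p
  have hpF := expChar_of_injective_algebraMap (algebraMap l F₀).injective p
  obtain ⟨ρ, hρ⟩ := aff1_places F₀
  have hm : ∀ (Q' : Place l D) (a : F₀), a ∈ (ρ Q').1 ↔ (a : D) ∈ Q'.1 := fun Q' a => by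
    rw [hρ]; rfl
  have htr : ∀ a : F₀, Transcendental l a ↔ Transcendental l (a : D) := fun a =>
    (transcendental_algebraMap_iff (algebraMap F₀ D).injective).symm
  let Z : D → l → Set (Place l D) := fun u β => {Q' | Q'.1.valuation (u - algebraMap l D β) < 1}
  have hZ : ∀ (a : F₀) (β : l), (Z a β).ncard =
      {P : Place l F₀ | P.1.valuation (a - algebraMap l F₀ β) < 1}.ncard := fun a β => by
    rw [← Set.ncard_preimage_of_injective_subset_range ρ.injective (by simp)]
    congr 1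
    ext Q'
    show _ ↔ (ρ Q').1.valuation (a - algebraMap l F₀ β) < 1
    rw [hρ, aff1_comap_lt]
    rfl
  obtain ⟨f, hf, hreg, hmin⟩ := aff1_min hF (ρ (Q none))
  have hfin : ∀ β, (Z f β).Finite := fun β => by
    by_contra hinf
    exact aff1_ne ((htr f).1 hf) β (pc_zero h hinf)
  have key : ∀ γ : D ≃ₐ[l] D, Mov γ (Q none) (Q none) → ∃ (g : F₀) (j : ℤ), Transcendental l g ∧
      (∀ P, P ≠ ρ (Q none) → g ∈ P.1) ∧
      (∀ Q₁ Q₂ β, Mov γ Q₁ Q₂ → (Q₂ ∈ Z g ((frobeniusEquiv l p ^ j) β) ↔ Q₁ ∈ Z f β)) ∧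
      ∀ T : Set l, T.Finite → ∃ β, β ∉ T ∧ pdeg l g ≤ (Z f β).ncard := by
    intro γ hγ0
    obtain ⟨i, v, hv⟩ := IsPurelyInseparable.pow_mem F₀ p (γ f)
    have hv' : (v : D) = γ f ^ p ^ i := hv
    have h1 : Transcendental l (γ f) := fun ha => (htr f).1 hf (by
      simpa using ha.algHom γ.symm.toAlgHom)
    obtain ⟨j, g, h2, h3, h4⟩ := aff1_twist hF p (v := v) ((htr v).2 (by
      rw [hv']; exact h1.pow (expChar_pow_pos l p i)))
    have h5 : (g : D) ^ p ^ j = γ f ^ p ^ i := by rw [← hv', ← h2]; rfl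
    choose mv hmv using fun Q' => pc_move γ.symm Q'
    have hmv' : ∀ Q', Mov γ (mv Q') Q' := fun Q' u => by rw [hmv Q', γ.symm_apply_apply]
    have h6 : ∀ Q₁ Q₂ β, Mov γ Q₁ Q₂ →
        (Q₂ ∈ Z g ((frobeniusEquiv l p ^ ((i : ℤ) - j)) β) ↔ Q₁ ∈ Z f β) := fun Q₁ Q₂ β hM => by
      refine (aff1_val_twist p Q₂.1 h5 β).trans (Iff.trans ?_ (hM.val_lt _))
      rw [map_sub γ, AlgEquiv.commutes]
    refine ⟨g, i - j, h3, fun P hP => ?_, h6, fun T hT => ?_⟩
    · obtain ⟨Q', rfl⟩ := ρ.surjective P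
      rw [hm, ← aff1_pow_mem _ _ (expChar_pow_pos l p j).ne', h5,
        aff1_pow_mem _ _ (expChar_pow_pos l p i).ne', ← hmv' Q', ← hm]
      refine hreg _ fun e => hP (congrArg ρ (aff1_mov_eq (hmv' Q') ?_))
      rw [ρ.injective e]
      exact hγ0
    · obtain ⟨β, hβ⟩ := (hT.union ((aff1_unram hF h3).preimage
        (frobeniusEquiv l p ^ ((i : ℤ) - j)).injective.injOn)).exists_notMem
      rw [Set.mem_union, not_or, Set.mem_preimage, Set.mem_ofPred_eq, not_not, ← hZ] at hβ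
      refine ⟨β, hβ.1, hβ.2 ▸ Set.ncard_le_ncard_of_injOn mv
        (fun Q' hQ' => (h6 _ _ β (hmv' Q')).1 hQ') (fun Q₁ _ Q₂ _ e => ?_) (hfin β)⟩
      exact aff1_mov_eq (hmv' Q₁) (e ▸ hmv' Q₂)
  have hv : ∀ Q' : Place l D, ∃ c : l, ∀ β, Q' ∈ Z f β → β = c := fun Q' => by
    by_cases hQ' : ∃ c, Q' ∈ Z f c
    · obtain ⟨c, hc⟩ := hQ'
      exact ⟨c, fun β hβ => pc_val_unique Q' hβ hc⟩
    · exact ⟨0, fun β hβ => absurd ⟨β, hβ⟩ hQ'⟩
  choose v hv using hv
  choose s hs using fun a : k => pc_rat h (Q (some a)) (u := f)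
    ((hm _ f).1 (hreg _ fun e => absurd (hQ (ρ.injective e)) (Option.some_ne_none a)))
  have hpole : ∀ β, Q none ∉ Z f β := fun β hβ => by
    have h1 : (f : D) ∈ (Q none).1 := by
      rw [← sub_add_cancel (f : D) (algebraMap l D β)]
      exact add_mem (((Q none).1.valuation_le_one_iff _).1 (le_of_lt hβ)) ((Q none).2.2 β)
    have h2 := (rr_mem_iff hF _ f).1 ((hm _ f).2 h1)
    have h3 := aff1_pdeg hF hreg
    have h4 := aff1_pos hF hf
    omega
  have hcase : ∀ β, β ∉ v '' (Set.range Q)ᶜ → ∀ Q' ∈ Z f β, ∃ a, Q' = Q (some a) ∧ s a = β := by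
    intro β hβ Q' hQ'
    obtain ⟨a, rfl⟩ : Q' ∈ Set.range Q := by
      by_contra hn
      exact hβ ⟨Q', hn, (hv Q' β hQ').symm⟩
    rcases a with _ | a
    · exact absurd hQ' (hpole β)
    · exact ⟨a, rfl, pc_val_unique _ (hs a) hQ'⟩
  have haff : ∀ c d : k, c ≠ 0 → ∃ (j : ℤ) (A B : l), A ≠ 0 ∧
      ∀ x, (frobeniusEquiv l p ^ j) (s x) = A * s (c * x + d) + B := by
    intro c d hc0
    obtain ⟨γ, h0, h1⟩ := hγ c d hc0
    obtain ⟨g, j, h2, h3, h4, h5⟩ := key γ h0
    obtain ⟨β, -, hβ⟩ := h5 ∅ Set.finite_empty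
    obtain ⟨A, B, hA, e⟩ := (hmin g h2 h3).2 (hβ.trans ((hZ f β).trans_le (aff1_le hF hf β)))
    refine ⟨j, A, B, hA, fun x => pc_val_unique _ ((h4 _ _ _ (h1 x)).2 (hs x)) ?_⟩
    have e2 : (g : D) - algebraMap l D (A * s (c * x + d) + B) =
        algebraMap l D A * (f - algebraMap l D (s (c * x + d))) := by
      have : (g : D) = algebraMap l D A * f + algebraMap l D B := by rw [e]; rfl
      rw [this, map_add, map_mul]
      ring
    rw [e2, map_mul, cv_val_const _ hA, one_mul]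
    exact hs _
  have hinj : Function.Injective s := by
    intro a a' e
    by_contra hne
    have h1 : ∀ x, s x = s a := fun x => by
      by_cases hx : x = a
      · rw [hx]
      have h2 : a' - a ≠ 0 := sub_ne_zero.2 (Ne.symm hne)
      obtain ⟨j, A, B, hA, h3⟩ := haff ((x - a) / (a' - a)) (a - (x - a) / (a' - a) * a)
        (div_ne_zero (sub_ne_zero.2 hx) h2)
      have h4 := h3 a
      have h5 := h3 a'
      rw [add_sub_cancel] at h4
      rw [show (x - a) / (a' - a) * a' + (a - (x - a) / (a' - a) * a) = x by field_simp; ring,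
        ← e, h4] at h5
      exact (mul_left_cancel₀ hA (add_right_cancel h5)).symm
    refine Set.infinite_of_injective_forall_mem (f := fun x => Q (some x))
      (hQ.comp (Option.some_injective k)) (fun x => ?_) (hfin (s a))
    rw [← h1 x]
    exact hs x
  have hcof : (Set.range s)ᶜ.Finite := (hc.image v).subset fun β hβ => by
    by_contra hn
    obtain ⟨Q', hQ'⟩ := pc_ex ((htr f).1 hf) β
    obtain ⟨a, -, ha⟩ := hcase β hn Q' hQ'
    exact hβ ⟨a, ha⟩
  have hN : pdeg l f = 1 := by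
    obtain ⟨g, j, h2, h3, -, h5⟩ := key AlgEquiv.refl fun _ => Iff.rfl
    obtain ⟨β, hβ, hβ'⟩ := h5 _ (hc.image v)
    have h6 : (Z f β).ncard ≤ 1 := (Set.ncard_le_one (hfin β)).2 fun Q₁ h₁ Q₂ h₂ => by
      obtain ⟨a, rfl, ha⟩ := hcase β hβ Q₁ h₁
      obtain ⟨a', rfl, ha'⟩ := hcase β hβ Q₂ h₂
      rw [hinj (ha.trans ha'.symm)]
    have h7 := (hmin g h2 h3).1
    have h8 := aff1_pos hF hf
    omega
  have htop : l⟮f⟯ = ⊤ := finrank_eq_one_iff_eq_top.1 (by rw [← (cv_pdeg_eq hF hf).1, hN])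
  obtain ⟨σ, A, B, hA, hσ⟩ := aff2 p s hinj hcof haff
  have hA' : algebraMap l D A ≠ 0 := (map_ne_zero _).2 hA
  set f' : D := (f - algebraMap l D B) / algebraMap l D A with hf'
  have e : (f : D) = algebraMap l D A * f' + algebraMap l D B := by
    rw [hf', mul_div_cancel₀ _ hA', sub_add_cancel]
  refine ⟨f', σ, (cv_trans_iff _).2 ?_, fun u => ?_, fun a => ?_⟩
  · rintro ⟨c, hc⟩
    exact (cv_trans_iff _).1 ((htr f).1 hf) ⟨A * c + B, by rw [e, hc, map_add, map_mul]⟩
  · obtain ⟨i, w, hw⟩ := IsPurelyInseparable.pow_mem F₀ p u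
    refine ⟨i, ?_⟩
    have h1 : l⟮f⟯ ≤ l⟮f'⟯.comap F₀.val := adjoin_simple_le_iff.2 (by
      show (f : D) ∈ l⟮f'⟯
      rw [e]
      exact add_mem (mul_mem (l⟮f'⟯.algebraMap_mem A) (mem_adjoin_simple_self l f'))
        (l⟮f'⟯.algebraMap_mem B))
    rw [ringExpChar.eq D p, ← hw]
    exact h1 (htop ▸ mem_top)
  · have e2 : (f : D) - algebraMap l D (s a) = algebraMap l D A * (f' - algebraMap l D (σ a)) := by
      rw [e, hσ, map_add, map_mul]
      ring
    have := hs a
    rwa [e2, map_mul, cv_val_const _ hA, one_mul] at this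

end P019.E
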