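import Vale.Agent.P019.E.Line
import Vale.Agent.P019.E.Aff1

/-!
P019 E/Act: the affine group acts on the curve of a nice element; the base point of the
construction.
PLAN. `act_at`: given `g a = c a + d` and a point `a`, choose `b` with `G a b`, `G (g a) b`
(`Zar.vert`, `k` infinite). Lines `x = 1 (t - a) + b` and `x = c⁻¹ (t - g a) + b`; `exists_line` gives
`γ₁ γ₂ : Dx ≃ D`; `γ = γ₁.symm.trans γ₂` satisfies `Ex Θ t t γ (g s) s` for `s = a` and for almost all
`s` (`Zar.line`; use `exists_co` for `γ₁.symm e`). `act_unique`: two `γ, γ'` with `Ex .. (g s) s` for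
almost all `s` move `Q s` to `Q (g s)` (`mov_of_ex`, `match_cof`, `match_inj`), so
`γ.trans γ'.symm` fixes infinitely many places: `pc_aut`. Hence `act`.
`base`: all points are matched (`Nice`, `Dat.prime`, `match_of_prime`; `v ≠ ⊤` since
`Uv ⊤ = ⊤`), `Q : Option k → Place l D`
is injective with cofinite range (`match_inj`, `match_cof'`, `match_unique`). For `γ` from `act` the
coordinates of `γ e` are `mapDomain g m`, so `pt none` is preserved and `γ` fixes `Q none`. `D` is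
perfect (flat in `M`). `aff1` gives `f, σ`. By `pc_gen`, `Gen.range_lc` in the field `D`, an
`e ∈ D` with `Co Θ t e (single a 1)` has `cl e = lc f m'`, and `m' (σ a') = 0` for `a' ≠ a`
(`VisAt.lc_mem_iff`), so `cl e = r a • cl (f - σ a)` with `r a ≠ 0`. For the translation `γ_b`:
`γ_b (f - σ a) = f - σ (a + b)` (`pc_zero`, `Mov.val_lt`), apply `vmap γ_b`: `r (a + b) = r a`
(`Gen.lc_inj` in `D`, `vmap_inj_of_flat`).
-/

namespace P019.E

open IntermediateField

variable {ℓ : ℕ} [Fact ℓ.Prime] {k K l M : Type*} [Field k] [Field K] [Algebra k K] [Field l]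
  [Field M] [Algebra l M] [IsAlgClosed k] [IsAlgClosed l] {Θ : V ℓ K ≃ₗ[ZMod ℓ] V ℓ M} {n : ℕ}

omit [IsAlgClosed k] in
theorem act_ne_top {t : K} {a : Option k} {v : ValuationSubring K} (hv : VisAt ℓ t a v) :
    v ≠ ⊤ := by
  rintro rfl
  cases a with
  | none => exact absurd hv.1 (not_lt.2 ((ValuationSubring.valuation_le_one_iff _ t).2 trivial))
  | some a =>
    by_cases h0 : t - algebraMap k K a = 0
    · exact hv.2 (by rw [h0, cl_zero]; exact zero_mem _)
    · exact hv.1.ne (Sub.val_eq_one (A := (⊤ : IntermediateField k K)) (O := ⊤)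
        (fun _ _ => trivial) mem_top h0)

theorem act_match (h : Dat k l Θ n) {E₀ : IntermediateField k K} {t x : K}
    (ht : Nice ℓ n E₀ t x) {D : IntermediateField l M} (hD : LC k Θ t D) :
    ∃ Q : Option k → Place l D, Function.Injective Q ∧ ∀ a, Match Θ t D a (Q a) := by
  have h1 : ∀ a : Option k, ∃ Q : Place l D, Match Θ t D a Q := fun a => by
    obtain ⟨v, B, hB, hv, ha⟩ := ht.2.2.2 a
    obtain ⟨w, hw⟩ := h.prime v B hB hv (act_ne_top ha)
    obtain ⟨Q, -, hQ⟩ := match_of_prime h hD hw hB hv ha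
    exact ⟨Q, hQ⟩
  choose Q hQ using h1
  exact ⟨Q, fun a a' e => match_inj hD (hQ a) (e ▸ hQ a'), hQ⟩

theorem act_at [PerfectField M] (h : Dat k l Θ n) {E₀ : IntermediateField k K} {t x : K}
    (ht : Nice ℓ n E₀ t x) (hx : Gen k x) {D : IntermediateField l M} (hD : LC k Θ t D)
    {c : k} (hc : c ≠ 0) (d a : k) : ∃ γ : D ≃ₐ[l] D, Ex Θ t t γ (c * a + d) a ∧
      {s | ¬ Ex Θ t t γ (c * s + d) s}.Finite := by
  obtain ⟨hg, hf, ⟨G, hZ, hG, hG'⟩, -⟩ := ht
  obtain ⟨Dx, hDx⟩ := exists_LC h hx.1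
  obtain ⟨b₁, h1⟩ := hG a
  obtain ⟨b₂, h2⟩ := hG (c * a + d)
  obtain ⟨b, hb⟩ := ((hZ.vert _ _ h1).union (hZ.vert _ _ h2)).exists_notMem
  have h3 : G a b := by_contra fun e => hb (Or.inl e)
  have h4 : G (c * a + d) b := by_contra fun e => hb (Or.inr e)
  obtain ⟨γ₁, e1⟩ := exists_line h hf hg hx hG' one_ne_zero (b - a) hD hDx
  obtain ⟨γ₂, e2⟩ := exists_line h hf hg hx hG' (inv_ne_zero hc) (b - c⁻¹ * (c * a + d)) hD hDx
  have key : ∀ s, G s (b + 1 * (s - a)) → G (c * s + d) (b + c⁻¹ * (c * s + d - (c * a + d))) →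
      Ex Θ t t (γ₁.symm.trans γ₂) (c * s + d) s := fun s a1 a2 e m m' b1 b2 => by
    have r1 : b + 1 * (s - a) = 1 * s + (b - a) := by ring
    have r2 : b + c⁻¹ * (c * s + d - (c * a + d)) =
        c⁻¹ * (c * s + d) + (b - c⁻¹ * (c * a + d)) := by ring
    have r3 : c⁻¹ * (c * s + d) + (b - c⁻¹ * (c * a + d)) = 1 * s + (b - a) := by
      field_simp
      ring
    obtain ⟨m₀, b0⟩ := exists_co h hx hDx (γ₁.symm e)
    rw [e2 _ (r2 ▸ a2) _ m₀ m' b0 b2, r3,
      e1 _ (r1 ▸ a1) _ m₀ m b0 (by rwa [AlgEquiv.apply_symm_apply])]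
  refine ⟨_, key a (by simpa using h3) (by simpa using h4), ?_⟩
  have hi : Function.Injective fun s : k => c * s + d := fun s s' e =>
    mul_left_cancel₀ hc (add_right_cancel e)
  refine ((hZ.line _ _ 1 h3).union ((hZ.line _ _ c⁻¹ h4).preimage hi.injOn)).subset fun s hs => ?_
  by_contra hn
  exact hs (key s (by_contra fun e => hn (Or.inl e)) (by_contra fun e => hn (Or.inr e)))

theorem act_unique (h : Dat k l Θ n) {E₀ : IntermediateField k K} {t x : K}
    (ht : Nice ℓ n E₀ t x) {D : IntermediateField l M} (hD : LC k Θ t D) {g : k → k}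
    {γ γ' : D ≃ₐ[l] D} (h1 : {s | ¬ Ex Θ t t γ (g s) s}.Finite)
    (h2 : {s | ¬ Ex Θ t t γ' (g s) s}.Finite) : γ = γ' := by
  obtain ⟨Q, hi, hQ⟩ := act_match h ht hD
  have h3 := pc_aut (hD.isPF h) (γ.trans γ'.symm)
    (((h1.union h2).infinite_compl.image (f := fun s => Q (some s))
      (hi.comp (Option.some_injective k)).injOn).mono (by
        rintro _ ⟨s, hs, rfl⟩ u
        have a1 := mov_of_ex h ht.1 ht.1 hD hD (by_contra fun e => hs (Or.inl e))
          (hQ (some (g s))) (hQ (some s))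
        have a2 := mov_of_ex h ht.1 ht.1 hD hD (by_contra fun e => hs (Or.inr e))
          (hQ (some (g s))) (hQ (some s))
        rw [a1 u, a2, AlgEquiv.trans_apply, AlgEquiv.apply_symm_apply]))
  ext u
  have h4 : γ'.symm (γ u) = u := congrArg (fun φ : D ≃ₐ[l] D => φ u) h3
  rw [← γ'.apply_symm_apply (γ u), h4]

omit [IsAlgClosed l] in
theorem act_perf [PerfectField M] {D : IntermediateField l M} {a : ℕ} (hD : Flat D a) :
    PerfectField D := by
  obtain ⟨p, hp⟩ := ExpChar.exists D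
  have := expChar_of_injective_algebraMap (algebraMap D M).injective p
  have : PerfectRing D p := PerfectRing.ofSurjective D p fun u => by
    obtain ⟨y, hy⟩ := surjective_frobenius M p u
    have h1 : IsAlgebraic D y := IsAlgebraic.of_pow (expChar_pos D p)
      (by rw [← frobenius_def, hy]; exact isAlgebraic_algebraMap u)
    exact ⟨⟨y, hD.1 y h1⟩, Subtype.ext hy⟩
  exact PerfectRing.toPerfectField D p

omit [IsAlgClosed k] in
theorem act_pt {c : k} (hc : c ≠ 0) (d : k) {m m' : k →₀ ZMod ℓ}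
    (hm : ∀ a, m' (c * a + d) = m a) : pt none m' = pt none m := by
  have h1 : m' = m.equivMapDomain ((Equiv.mulLeft₀ c hc).trans (Equiv.addRight d)) := by
    ext b
    obtain ⟨a, rfl⟩ := ((Equiv.mulLeft₀ c hc).trans (Equiv.addRight d)).surjective b
    rw [Finsupp.equivMapDomain_apply, Equiv.symm_apply_apply]
    exact hm a
  rw [h1]
  exact Finsupp.sum_equivMapDomain _ m fun _ (r : ZMod ℓ) => r

theorem act [PerfectField M] (h : Dat k l Θ n) {E₀ : IntermediateField k K} {t x : K}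
    (ht : Nice ℓ n E₀ t x) (hx : Gen k x) {D : IntermediateField l M} (hD : LC k Θ t D)
    {c : k} (hc : c ≠ 0) (d : k) : ∃ γ : D ≃ₐ[l] D, ∀ a, Ex Θ t t γ (c * a + d) a := by
  obtain ⟨γ, -, h1⟩ := act_at h ht hx hD hc d 0
  refine ⟨γ, fun a => ?_⟩
  obtain ⟨γ', h2, h3⟩ := act_at h ht hx hD hc d a
  rwa [act_unique h ht hD h1 h3]

theorem base [PerfectField M] (h : Dat k l Θ n) {E₀ : IntermediateField k K} {t x : K}
    (ht : Nice ℓ n E₀ t x) (hx : Gen k x) :
    ∃ (σ : k ≃+* l) (f : M) (r : ZMod ℓ), r ≠ 0 ∧ Rel Θ σ t f ∧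
      ∀ a : k, Θ (cl ℓ (t - algebraMap k K a)) = r • cl ℓ (f - algebraMap l M (σ a)) := by
  classical
  obtain ⟨D, hD⟩ := exists_LC h ht.1.1
  obtain ⟨Q, hi, hQ⟩ := act_match h ht hD
  have := act_perf hD.1
  have hP := hD.isPF h
  have hmov : ∀ {c d : k} {γ : D ≃ₐ[l] D}, (∀ a, Ex Θ t t γ (c * a + d) a) →
      ∀ a, Mov γ (Q (some a)) (Q (some (c * a + d))) := fun hγ a =>
    mov_of_ex h ht.1 ht.1 hD hD (hγ a) (hQ _) (hQ _)
  obtain ⟨f, σ, hf, hpi, hv⟩ := aff1 hP Q hi
    ((match_cof' h ht.1 hD).subset fun Q' hQ' ⟨a, ha⟩ =>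
      hQ' ⟨a, match_unique h ht.1 hD (hQ a) ha⟩)
    fun c d hc => by
      obtain ⟨γ, hγ⟩ := act h ht hx hD hc d
      refine ⟨γ, ?_, hmov hγ⟩
      obtain ⟨Q₁, h1⟩ := pc_move γ (Q none)
      have h2 : Match Θ t D none Q₁ := fun e m he => by
        obtain ⟨e, rfl⟩ := γ.surjective e
        obtain ⟨m₀, h3⟩ := exists_co h ht.1 hD e
        rw [h1.cl_mem, hQ none e m₀ h3, act_pt hc d fun a => hγ a e m₀ m h3 he]
      rwa [match_unique h ht.1 hD h2 (hQ none)] at h1
  obtain ⟨hg, ha, hvis⟩ := pc_gen h.hl hf hpi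
  obtain ⟨e, -, he⟩ := exists_co' hD (Finsupp.single (0 : k) 1)
  obtain ⟨m, hm⟩ : cl ℓ e ∈ LinearMap.range (lc ℓ l f) := by
    rw [hg.range_lc h.hl, ha]
    exact cl_mem_Hs mem_top
  have h1 : ∀ a, m (σ a) = 0 ↔ Finsupp.single (0 : k) (1 : ZMod ℓ) a = 0 := fun a => by
    have h2 := (hvis _ _ (hv a)).lc_mem_iff (Q (some a)).2.2 m
    rw [hm, hQ (some a) e _ he] at h2
    exact h2.symm
  have h2 : m = Finsupp.single (σ 0) (m (σ 0)) := by
    ext β
    obtain ⟨a, rfl⟩ := σ.surjective β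
    by_cases h0 : a = 0
    · rw [h0, Finsupp.single_eq_same]
    · rw [Finsupp.single_eq_of_ne fun e => h0 (σ.injective e),
        (h1 a).2 (Finsupp.single_eq_of_ne h0)]
  rw [h2, lc_single] at hm
  refine ⟨σ, f, m (σ 0), fun h0 => by simpa using (h1 0).1 h0,
    ⟨D, hD, f.2, Set.finite_empty.subset ?_⟩, fun a => ?_⟩
  · rintro a ⟨Q', a1, a2⟩
    rw [match_unique h ht.1 hD a1 (hQ _)] at a2
    exact a2 (hv a)
  obtain ⟨γ, hγ⟩ := act h ht hx hD one_ne_zero a
  have h3 : γ f - f + algebraMap l D (σ a) = 0 := by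
    refine pc_zero hP ((Set.infinite_range_of_injective (f := fun s => Q (some (1 * s + a)))
      fun s s' e => mul_left_cancel₀ one_ne_zero
        (add_right_cancel (Option.some_injective k (hi e)))).mono ?_)
    rintro _ ⟨s, rfl⟩
    have a1 := ((hmov hγ s).val_lt _).2 (hv s)
    have a2 := Valuation.map_sub_lt _ a1 (hv (1 * s + a))
    have a3 : γ (f - algebraMap l D (σ s)) - (f - algebraMap l D (σ (1 * s + a))) =
        γ f - f + algebraMap l D (σ a) := by
      rw [map_sub, AlgEquiv.commutes, one_mul, map_add σ, map_add]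
      ring
    rw [a3] at a2
    exact a2
  have h4 : γ (f - algebraMap l D (σ 0)) = f - algebraMap l D (σ a) := by
    rw [map_zero, map_zero, sub_zero]
    linear_combination h3
  obtain ⟨m', h5⟩ := exists_co h ht.1 hD (γ e)
  have h6 : m' = Finsupp.single a 1 := by
    ext b
    have a1 := hγ (b - a) e _ m' he h5
    rw [one_mul, sub_add_cancel] at a1
    rw [a1, Finsupp.single_apply, Finsupp.single_apply]
    exact if_congr (by rw [eq_comm, sub_eq_zero, eq_comm]) rfl rfl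
  have h7 := congrArg (vmap ℓ (D.val.toRingHom.comp γ.toAlgHom.toRingHom)) hm
  rw [map_smul, vmap_cl, vmap_cl] at h7
  have h8 : Θ (lc ℓ k t m') = cl ℓ (γ e : M) := h5
  rw [h6, lc_single, one_smul] at h8
  refine h8.trans (h7.symm.trans (congrArg (fun z => m (σ 0) • cl ℓ z) ?_))
  exact congrArg Subtype.val h4

end P019.E
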