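import Vale.Agent.P019.E.Defs

/-!
P019 E/Aff2: pure algebra. An injective map `s : k → l` with cofinite image, on which the affine
group acts through maps `β ↦ (β ^ (p ^ j) - B) / A`, is an affine image of a field isomorphism.
PLAN. `φ = frobeniusEquiv l p` (an automorphism of `l`; the identity if `p = 1`), `φ ^ j`, `j : ℤ`.
Step 1: `j(c, d) = 0` may be assumed. If `p = 1` trivial. Otherwise the triple `(j, A, B)` is unique:
if `(φ ^ j) β = A β + B` for all `β` in an infinite set with `j > 0` we get a nonzero polynomial with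
infinitely many roots (for `j < 0` apply to the inverse); so `j` is additive under composition of
affine maps. A homomorphism from `kˣ` (divisible, `k` algebraically closed) to `ℤ` vanishes: scalings
have `j = 0`. Translations by nonzero elements are conjugate under scalings, so `j` is a constant `j₀`
on them and `j₀ + j₀ = j₀` (choose `b + b' ≠ 0`).
Step 2: normalise `s 0 = 0`, `s 1 = 1`. Scalings give `s (c x) = s c * s x`. The finite complement of
the range is stable under multiplication by `s c` (`c ≠ 0`; if `s c * β = s y` then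
`β = s (y / c)`), infinitely many multipliers, `0` is in the range; so `s` is onto. For a translation
`s (x + d) = A' s x + s d`; if `A' ≠ 1` the affine map has a fixed point `s x₀`, so `x₀ + d = x₀`.
-/

namespace P019.E

/-- step 2, normalised form -/
theorem aff2_b {k l : Type*} [Field k] [Field l] [Infinite k] (t : k → l)
    (ht : Function.Injective t) (hc : (Set.range t)ᶜ.Finite) (h0 : t 0 = 0) (h1 : t 1 = 1)
    (h : ∀ c d : k, c ≠ 0 → ∃ a b : l, ∀ x, t (c * x + d) = a * t x + b) :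
    ∃ σ : k ≃+* l, ∀ x, σ x = t x := by
  have hm : ∀ c x, t (c * x) = t c * t x := by
    intro c x
    by_cases c0 : c = 0
    · rw [c0, zero_mul, h0, zero_mul]
    obtain ⟨a, b, hab⟩ := h c 0 c0
    have e0 := hab 0
    have e1 := hab 1
    have e2 := hab x
    rw [mul_zero, add_zero, h0, mul_zero, zero_add] at e0
    rw [mul_one, add_zero, h1, mul_one, ← e0, add_zero] at e1
    rw [add_zero, ← e0, add_zero, ← e1] at e2
    exact e2
  have hn : ∀ c, c ≠ 0 → t c ≠ 0 := fun c c0 e => c0 (ht (e.trans h0.symm))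
  have hsur : Function.Surjective t := by
    intro β
    by_contra hβ
    have β0 : β ≠ 0 := fun e => hβ ⟨0, h0.trans e.symm⟩
    have inf : ({0}ᶜ : Set k).Infinite := (Set.finite_singleton 0).infinite_compl
    refine (inf.image (f := fun c => t c * β) fun c _ c' _ e =>
      ht (mul_right_cancel₀ β0 e)) (hc.subset ?_)
    rintro _ ⟨c, c0, rfl⟩ ⟨y, hy⟩
    have c1 : c ≠ 0 := c0
    refine hβ ⟨y / c, mul_left_cancel₀ (hn c c1) ?_⟩
    rw [← hm, mul_div_cancel₀ _ c1]
    exact hy
  have ha : ∀ x d, t (x + d) = t x + t d := by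
    intro x d
    by_cases d0 : d = 0
    · rw [d0, add_zero, h0, add_zero]
    obtain ⟨a, b, hab⟩ := h 1 d one_ne_zero
    have e0 := hab 0
    rw [mul_zero, zero_add, h0, mul_zero, zero_add] at e0
    have a1 : a = 1 := by
      by_contra a1
      obtain ⟨y, hy⟩ := hsur (b / (1 - a))
      have e1 := hab y
      have e2 : a * t y + b = t y := by
        have : 1 - a ≠ 0 := sub_ne_zero.mpr (Ne.symm a1)
        rw [hy]
        field_simp
        ring
      rw [e2, one_mul] at e1
      exact d0 (add_eq_left.mp (ht e1))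
    have e3 := hab x
    rwa [one_mul, a1, one_mul, ← e0] at e3
  exact ⟨RingEquiv.ofBijective
    ({ toFun := t, map_one' := h1, map_mul' := hm, map_zero' := h0, map_add' := ha } : k →+* l)
    ⟨ht, hsur⟩, fun _ => rfl⟩

/-- the affine map `c x + d` acts with Frobenius exponent `j` -/
def aff2T {k l : Type*} [Field k] [Field l] (φ : l ≃+* l) (s : k → l) (c d : k) (j : ℤ) : Prop :=
  ∃ A B : l, A ≠ 0 ∧ ∀ x, (φ ^ j) (s x) = A * s (c * x + d) + B

theorem aff2_comp {k l : Type*} [Field k] [Field l] {φ : l ≃+* l} {s : k → l} {c d c' d' : k}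
    {j j' : ℤ} (h : aff2T φ s c d j) (h' : aff2T φ s c' d' j') :
    aff2T φ s (c' * c) (c' * d + d') (j' + j) := by
  obtain ⟨A, B, hA, h⟩ := h
  obtain ⟨A', B', hA', h'⟩ := h'
  refine ⟨(φ ^ j') A * A', (φ ^ j') A * B' + (φ ^ j') B,
    mul_ne_zero ((map_ne_zero _).mpr hA) hA', fun x => ?_⟩
  have e : c' * c * x + (c' * d + d') = c' * (c * x + d) + d' := by ring
  rw [zpow_add, RingAut.mul_apply, h, map_add, map_mul, h', e]
  ring

theorem aff2_id {k l : Type*} [Field k] [Field l] (φ : l ≃+* l) (s : k → l) :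
    aff2T φ s 1 0 0 :=
  ⟨1, 0, one_ne_zero, fun x => by rw [zpow_zero, one_mul, one_mul, add_zero, add_zero]; rfl⟩

theorem aff2_lt {k l : Type*} [Field k] [Field l] [Infinite k] [IsAlgClosed l] {p : ℕ}
    [ExpChar l p] (hp : 1 < p) {s : k → l} (hs : Function.Injective s) {c d : k} {j j' : ℤ}
    (h : aff2T (frobeniusEquiv l p) s c d j) (h' : aff2T (frobeniusEquiv l p) s c d j') :
    ¬ j < j' := by
  intro hj
  obtain ⟨A, B, hA, h⟩ := h
  obtain ⟨A', B', -, h'⟩ := h'
  obtain ⟨n, hn⟩ : ∃ n : ℕ, j' = (n + 1 : ℕ) + j := ⟨(j' - j - 1).toNat, by omega⟩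
  have hpow : ∀ (m : ℕ) (y : l), (frobeniusEquiv l p ^ m) y = y ^ p ^ m := by
    intro m
    induction m with
    | zero => intro y; rw [pow_zero, pow_zero, pow_one]; rfl
    | succ m ih =>
      intro y
      rw [pow_succ, RingAut.mul_apply, ih, frobeniusEquiv_def, ← pow_mul, pow_succ']
  have h2 : 1 < p ^ (n + 1) := Nat.one_lt_pow (Nat.succ_ne_zero n) hp
  obtain ⟨f, hf⟩ : ∃ f : Polynomial l, f = Polynomial.X ^ p ^ (n + 1) -
      (Polynomial.C (A' / A) * Polynomial.X + Polynomial.C (B' - A' / A * B)) := ⟨_, rfl⟩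
  have f0 : f ≠ 0 := by
    rw [hf]
    refine (Polynomial.monic_X_pow_sub ?_).ne_zero
    exact lt_of_le_of_lt Polynomial.degree_linear_le (by exact_mod_cast h2)
  refine f0 (Polynomial.eq_zero_of_infinite_isRoot f ?_)
  refine (Set.infinite_range_of_injective
    ((frobeniusEquiv l p ^ j).injective.comp hs)).mono ?_
  rintro _ ⟨x, rfl⟩
  have e1 := h' x
  rw [hn, zpow_add, RingAut.mul_apply, zpow_natCast, hpow] at e1
  show f.eval ((frobeniusEquiv l p ^ j) (s x)) = 0
  rw [hf]
  simp only [Polynomial.eval_sub, Polynomial.eval_pow, Polynomial.eval_X, Polynomial.eval_add,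
    Polynomial.eval_mul, Polynomial.eval_C]
  rw [e1, h]
  field_simp
  ring

theorem aff2_zero {k l : Type*} [Field k] [Field l] [IsAlgClosed k] {φ : l ≃+* l} {s : k → l}
    (hu : ∀ (c d : k) (j j' : ℤ), aff2T φ s c d j → aff2T φ s c d j' → j = j')
    (h : ∀ c d : k, c ≠ 0 → ∃ j, aff2T φ s c d j) (c d : k) (hc : c ≠ 0) : aff2T φ s c d 0 := by
  classical
  have hpow : ∀ (e : k) (j : ℤ), aff2T φ s e 0 j → ∀ n : ℕ, aff2T φ s (e ^ n) 0 (n * j) := by
    intro e j he n
    induction n with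
    | zero =>
      rw [pow_zero, Nat.cast_zero, zero_mul]
      exact aff2_id φ s
    | succ n ih =>
      have := aff2_comp he ih
      rw [mul_zero, add_zero, ← pow_succ] at this
      rwa [Nat.cast_succ, add_mul, one_mul]
  have hsc : ∀ e : k, e ≠ 0 → aff2T φ s e 0 0 := by
    intro e he
    obtain ⟨j, hj⟩ := h e 0 he
    obtain ⟨z, hz⟩ := IsAlgClosed.exists_pow_nat_eq e (Nat.succ_pos j.natAbs)
    have z0 : z ≠ 0 := fun c => he (by rw [← hz, c, zero_pow (Nat.succ_ne_zero _)])
    obtain ⟨i, hi⟩ := h z 0 z0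
    have h1 := hpow z i hi (j.natAbs + 1)
    rw [hz] at h1
    have h2 := hu _ _ _ _ hj h1
    have h3 : j = 0 := Int.eq_zero_of_dvd_of_natAbs_lt_natAbs ⟨i, h2⟩ (by
      rw [Int.natAbs_natCast]
      exact Nat.lt_succ_self _)
    rwa [h3] at hj
  have htr : aff2T φ s 1 d 0 := by
    by_cases d0 : d = 0
    · rw [d0]
      exact aff2_id φ s
    obtain ⟨j, hj⟩ := h 1 d one_ne_zero
    have h1 : ∀ e : k, e ≠ 0 → aff2T φ s 1 e j := by
      intro e he
      have e0 : e / d ≠ 0 := div_ne_zero he d0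
      have := aff2_comp (aff2_comp (hsc _ (inv_ne_zero e0)) hj) (hsc _ e0)
      rwa [one_mul, mul_inv_cancel₀ e0, mul_zero, zero_add, add_zero, div_mul_cancel₀ _ d0,
        add_zero, zero_add] at this
    obtain ⟨e, he⟩ := Infinite.exists_notMem_finset ({0, -1} : Finset k)
    rw [Finset.mem_insert, Finset.mem_singleton, not_or] at he
    have h2 := aff2_comp (h1 e he.1) (h1 1 one_ne_zero)
    rw [one_mul, one_mul] at h2
    have h3 := hu _ _ _ _ h2 (h1 (e + 1) fun c => he.2 (eq_neg_of_add_eq_zero_left c))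
    have h4 : j = 0 := by omega
    rwa [h4] at hj
  have := aff2_comp (hsc c hc) htr
  rwa [one_mul, mul_zero, zero_add, add_zero] at this

theorem aff2 {k l : Type*} [Field k] [Field l] [IsAlgClosed k] [IsAlgClosed l] (p : ℕ)
    [ExpChar l p] (s : k → l) (hs : Function.Injective s) (hc : (Set.range s)ᶜ.Finite)
    (h : ∀ c d : k, c ≠ 0 → ∃ (j : ℤ) (A B : l), A ≠ 0 ∧
      ∀ x, (frobeniusEquiv l p ^ j) (s x) = A * s (c * x + d) + B) :
    ∃ (σ : k ≃+* l) (A B : l), A ≠ 0 ∧ ∀ x, s x = A * σ x + B := by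
  have h0 : ∀ c d : k, c ≠ 0 → aff2T (frobeniusEquiv l p) s c d 0 := by
    rcases eq_or_lt_of_le (show 1 ≤ p from expChar_pos l p) with hp | hp
    · intro c d c0
      obtain ⟨j, A, B, hA, hj⟩ := h c d c0
      have e : frobeniusEquiv l p = 1 := by
        ext y
        rw [frobeniusEquiv_def, ← hp, pow_one]
        rfl
      refine ⟨A, B, hA, fun x => ?_⟩
      rw [← hj, e, one_zpow, one_zpow]
    · exact aff2_zero (fun c d j j' a b =>
        le_antisymm (not_lt.mp (aff2_lt hp hs b a)) (not_lt.mp (aff2_lt hp hs a b))) h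
  have n0 : s 1 - s 0 ≠ 0 := sub_ne_zero.mpr fun e => one_ne_zero (hs e)
  obtain ⟨σ, hσ⟩ := aff2_b (fun x => (s x - s 0) / (s 1 - s 0))
    (fun x y e => hs (sub_left_injective ((div_left_inj' n0).mp e)))
    ((hc.image fun β => (β - s 0) / (s 1 - s 0)).subset fun y hy => by
      refine ⟨(s 1 - s 0) * y + s 0, ?_, ?_⟩
      · rintro ⟨x, hx⟩
        refine hy ⟨x, ?_⟩
        show (s x - s 0) / (s 1 - s 0) = y
        rw [hx, add_sub_cancel_right, mul_div_cancel_left₀ _ n0]
      · show ((s 1 - s 0) * y + s 0 - s 0) / (s 1 - s 0) = y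
        rw [add_sub_cancel_right, mul_div_cancel_left₀ _ n0])
    (by simp only [sub_self, zero_div]) (div_self n0) (fun c d c0 => by
      obtain ⟨A, B, hA, hx⟩ := h0 c d c0
      refine ⟨A⁻¹, (A⁻¹ * (s 0 - B) - s 0) / (s 1 - s 0), fun x => ?_⟩
      have e : s x = A * s (c * x + d) + B := hx x
      rw [e]
      field_simp
      ring)
  refine ⟨σ, s 1 - s 0, s 0, n0, fun x => ?_⟩
  rw [hσ, mul_div_cancel₀ _ n0, sub_add_cancel]

end P019.E
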