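import Vale.Agent.P019.E.RT

/-!
P019 E/GenL: simultaneous choice of general elements; extension of a generically defined
homomorphism.
PLAN. `exists_gen`: choose `s'` with `v s'` transcendental for all pairs `(v, u)` (avoid finitely many
proper `k`-subspaces `v⁻¹ k`; `Subspace.biUnion_ne_univ_of_top_notMem`). Choose `s` with
`v s + u ∉ acl (v s')` for all pairs (finitely many proper affine subspaces do not cover `F`: work in
`k × F` or use `exists_finiteIndex_of_leftCoset_cover`; or: take `s₀` outside all the proper subspaces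
`v⁻¹ acl (v s')`, then `s = e s₀` works for all but finitely many `e`). `y = s + c s'`;
`v y + u = (v s + u) + c (v s')` is general for almost all `c` (`gen_comb`), and lies in `acl w` for
at most one `c`.
`ext_hom`: define `α u = α₀ (u + y) - α₀ y` for `y` with `P y`, `P (u + y)`, `I y (u + y)`... Cleaner:
call `y` admissible for `u` if `P y` and `P (u + y)`. For admissible `y, y'` choose `s` (from `hgen`)
with `P s`, `P (y + s)`, .. to compare: `f(u, y) = α₀ (u + y) - α₀ y`. If `s` is generic then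
`α₀ (u + y + s) = α₀ (u + y) + α₀ s`, `α₀ (y + s) = α₀ y + α₀ s`, so `f(u, y) = f(u, y + s)`. Given
`y, y'` pick `t` generic and `s = t - y`, `s' = t - y'`: `f(u, y) = f(u, t) = f(u, y')`. Additivity:
`f(u + u', y) = f(u, u' + y) + f(u', y)` with `y` generic. `α x = α₀ x` for `P x`. Multiplicativity:
for `P y` and any `u`, with `s` generic, `u y = (u + s) y - s y`; then `u' = (u' + y) - y`.
-/

namespace P019.E

open IntermediateField

theorem genl_line {k F : Type*} [Field k] [Field F] [Algebra k F] (A : IntermediateField k F)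
    {a b : F} (h : ¬ (a ∈ A ∧ b ∈ A)) : {c : k | a + algebraMap k F c * b ∈ A}.Finite := by
  refine Set.Subsingleton.finite fun c hc c' hc' => by_contra fun hne => h ?_
  have h1 : algebraMap k F (c - c') ≠ 0 := (map_ne_zero _).2 (sub_ne_zero.2 hne)
  have h2 : b ∈ A := by
    have h3 := A.mul_mem (A.inv_mem (A.algebraMap_mem (c - c'))) (A.sub_mem hc hc')
    rwa [add_sub_add_left_eq_sub, ← sub_mul, ← map_sub, inv_mul_cancel_left₀ h1] at h3
  refine ⟨?_, h2⟩
  have h3 := A.sub_mem hc (A.mul_mem (A.algebraMap_mem c) h2)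
  rwa [add_sub_cancel_right] at h3

theorem genl_avoid {k F : Type*} [Field k] [Field F] [Algebra k F] [IsAlgClosed k] {n : ℕ}
    (h : IsPF k F (n + 1)) (hn : 1 ≤ n) (s : Finset (F × F)) (hs : ∀ p ∈ s, p.1 ≠ 0)
    (w : Finset F) (hw : ∀ a ∈ w, Transcendental k a) :
    ∃ y : F, ∀ p ∈ s, ∀ a ∈ w, p.1 * y + p.2 ∉ acl k {a} := by
  obtain ⟨y, hy⟩ := Submodule.exists_forall_notMem_of_forall_ne_top (K := k)
    (fun i : s × w => (acl k {i.2.1}).toSubalgebra.toSubmodule.comap (LinearMap.mulLeft k i.1.1.1))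
    fun i hi => by
      obtain ⟨z, hz⟩ := h.exists_ind hn (hw _ i.2.2)
      have h1 : i.1.1.1 * (i.1.1.1⁻¹ * z) ∈ acl k {i.2.1} :=
        (Submodule.eq_top_iff'.1 hi (i.1.1.1⁻¹ * z))
      rw [mul_inv_cancel_left₀ (hs _ i.1.2)] at h1
      exact (indep_pair_iff.1 hz).2 h1
  obtain ⟨c, hc⟩ := (Set.finite_iUnion fun i : s × w =>
    genl_line (acl k {i.2.1}) (a := i.1.1.2) (b := i.1.1.1 * y) fun h => hy i h.2).exists_notMem
  refine ⟨algebraMap k F c * y, fun p hp a ha h1 => hc (Set.mem_iUnion.2 ⟨(⟨p, hp⟩, ⟨a, ha⟩), ?_⟩)⟩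
  rwa [add_comm, mul_left_comm] at h1

theorem exists_gen {k F : Type*} [Field k] [Field F] [Algebra k F] [IsAlgClosed k] {n : ℕ}
    (h : IsPF k F (n + 1)) (hn : 1 ≤ n) (s : Finset (F × F)) (hs : ∀ p ∈ s, p.1 ≠ 0)
    (w : Finset F) (hw : ∀ a ∈ w, Transcendental k a) :
    ∃ y : F, ∀ p ∈ s, Gen k (p.1 * y + p.2) ∧ ∀ a ∈ w, Ind k a (p.1 * y + p.2) := by
  classical
  obtain ⟨x, hx⟩ := h.exists_trans
  obtain ⟨y, hy⟩ := genl_avoid h hn (s.image fun p => (p.1, 0))
    (fun p hp => by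
      obtain ⟨q, hq, rfl⟩ := Finset.mem_image.1 hp
      exact hs q hq) {x} fun a ha => Finset.mem_singleton.1 ha ▸ hx
  have h1 : ∀ p ∈ s, Transcendental k (p.1 * y) := fun p hp => by
    have h2 := hy _ (Finset.mem_image_of_mem _ hp) x (Finset.mem_singleton_self x)
    rw [add_zero] at h2
    exact (indep_pair_iff.1 (indep_pair_symm (indep_pair_iff.2 ⟨hx, h2⟩))).1
  obtain ⟨z, hz⟩ := genl_avoid h hn s hs (w ∪ s.image fun p => p.1 * y) fun a ha => by
    rcases Finset.mem_union.1 ha with ha | ha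
    · exact hw a ha
    · obtain ⟨q, hq, rfl⟩ := Finset.mem_image.1 ha
      exact h1 q hq
  have h2 : ∀ p : s, Ind k (p.1.1 * z + p.1.2) (p.1.1 * y) := fun p =>
    indep_pair_symm (indep_pair_iff.2 ⟨h1 _ p.2,
      hz _ p.2 _ (Finset.mem_union_right _ (Finset.mem_image_of_mem _ p.2))⟩)
  obtain ⟨c, hc⟩ := ((Set.finite_iUnion fun p : s => gen_comb h (h2 p)).union
    (Set.finite_iUnion fun i : s × w => genl_line (acl k {i.2.1}) (a := i.1.1.1 * z + i.1.1.2)
      (b := i.1.1.1 * y) fun h => hz _ i.1.2 _ (Finset.mem_union_left _ i.2.2) h.1)).exists_notMem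
  refine ⟨z + algebraMap k F c * y, fun p hp => ?_⟩
  have e : p.1 * (z + algebraMap k F c * y) + p.2 = p.1 * z + p.2 + algebraMap k F c * (p.1 * y) := by
    ring
  rw [e]
  exact ⟨by_contra fun h3 => hc (Or.inl (Set.mem_iUnion.2 ⟨⟨p, hp⟩, h3⟩)), fun a ha =>
    indep_pair_iff.2 ⟨hw a ha, fun h3 => hc (Or.inr (Set.mem_iUnion.2 ⟨(⟨p, hp⟩, ⟨a, ha⟩), h3⟩))⟩⟩

theorem ext_hom {K M : Type*} [Field K] [Field M] (P : K → Prop) (I : K → K → Prop)
    (α₀ : K → M)
    (hgen : ∀ (s : Finset (K × K)), (∀ p ∈ s, p.1 ≠ 0) → ∀ w : Finset K, (∀ a ∈ w, P a) →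
      ∃ y : K, ∀ p ∈ s, P (p.1 * y + p.2) ∧ ∀ a ∈ w, I a (p.1 * y + p.2))
    (h0 : ¬ P 0)
    (hadd : ∀ x y, P x → P y → P (x + y) → I x y → α₀ (x + y) = α₀ x + α₀ y)
    (hmul : ∀ x y, P x → P y → P (x * y) → I x y → α₀ (x * y) = α₀ x * α₀ y)
    (hone : ∃ x, P x ∧ P (x + 1) ∧ α₀ (x + 1) = α₀ x + 1) :
    ∃ α : K →+* M, ∀ x, P x → α x = α₀ x := by
  classical
  have g3 : ∀ u v x, P x → ∃ y, P y ∧ P (u + y) ∧ P (v + y) ∧ I x y := fun u v x hx => by
    obtain ⟨y, hy⟩ := hgen {(1, 0), (1, u), (1, v)} (by simp) {x} (by simpa using hx)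
    have h1 := hy (1, 0) (by simp)
    have h2 := hy (1, u) (by simp)
    have h3 := hy (1, v) (by simp)
    simp only [one_mul, zero_add, Finset.mem_singleton, forall_eq, add_comm y] at h1 h2 h3
    exact ⟨y, h1.1, h2.1, h3.1, h1.2⟩
  obtain ⟨x₀, hx₀, hx₁, hx₂⟩ := hone
  have key : ∀ u y y', P y → P (u + y) → P y' → P (u + y') →
      α₀ (u + y) - α₀ y = α₀ (u + y') - α₀ y' := fun u y y' h1 h2 h3 h4 => by
    obtain ⟨t, ht⟩ := hgen {(1, 0), (1, u), (1, -y), (1, -y')} (by simp) {y, u + y, y', u + y'}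
      (by simp [h1, h2, h3, h4])
    have a1 := (ht (1, 0) (by simp)).1
    have a2 := (ht (1, u) (by simp)).1
    have a3 := ht (1, -y) (by simp)
    have a4 := ht (1, -y') (by simp)
    simp only [one_mul, add_zero] at a1 a2 a3 a4
    have e : ∀ z, P z → P (u + z) → P (t + -z) → I z (t + -z) → I (u + z) (t + -z) →
        α₀ (u + z) - α₀ z = α₀ (t + u) - α₀ t := fun z b1 b2 b3 b4 b5 => by
      have e1 : z + (t + -z) = t := by ring
      have e2 : u + z + (t + -z) = t + u := by ring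
      have c1 := hadd _ _ b1 b3 (e1.symm ▸ a1) b4
      have c2 := hadd _ _ b2 b3 (e2.symm ▸ a2) b5
      rw [e1] at c1
      rw [e2] at c2
      rw [c1, c2]
      ring
    rw [e y h1 h2 a3.1 (a3.2 _ (by simp)) (a3.2 _ (by simp)),
      e y' h3 h4 a4.1 (a4.2 _ (by simp)) (a4.2 _ (by simp))]
  choose Y hY1 hY2 using fun u => (g3 u u x₀ hx₀).imp fun y hy => And.intro hy.1 hy.2.1
  obtain ⟨α, hα⟩ : ∃ α : K → M, ∀ u y, P y → P (u + y) → α u = α₀ (u + y) - α₀ y :=
    ⟨fun u => α₀ (u + Y u) - α₀ (Y u), fun u y h1 h2 => key u _ _ (hY1 u) (hY2 u) h1 h2⟩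
  have hA : ∀ u v, α (u + v) = α u + α v := fun u v => by
    obtain ⟨y, h1, h2, h3, -⟩ := g3 v (u + v) x₀ hx₀
    rw [hα (u + v) y h1 h3, hα v y h1 h2, hα u (v + y) h2 (add_assoc u v y ▸ h3), add_assoc u v y]
    ring
  have hE : ∀ x, P x → α x = α₀ x := fun x hx => by
    obtain ⟨y, h1, h2, -, h3⟩ := g3 x x x hx
    rw [hα x y h1 h2, hadd x y hx h1 h2 h3, add_sub_cancel_right]
  have hM : ∀ y u, P y → α (y * u) = α y * α u := fun y u hy => by
    have y0 : y ≠ 0 := fun e => h0 (e ▸ hy)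
    obtain ⟨t, ht⟩ := hgen {(1, 0), (1, u), (y, 0), (y, y * u)} (by simp [y0]) {y}
      (by simpa using hy)
    have a1 := ht (1, 0) (by simp)
    have a2 := ht (1, u) (by simp)
    have a3 := (ht (y, 0) (by simp)).1
    have a4 := (ht (y, y * u) (by simp)).1
    simp only [one_mul, add_zero, Finset.mem_singleton, forall_eq, ← mul_add] at a1 a2 a3 a4
    have c1 := hmul _ _ hy a1.1 a3 a1.2
    have c2 := hmul _ _ hy a2.1 a4 a2.2
    rw [← hE _ a3, ← hE _ hy, ← hE _ a1.1] at c1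
    rw [← hE _ a4, ← hE _ hy, ← hE _ a2.1, mul_add, hA, hA, c1, mul_add] at c2
    exact add_left_cancel c2
  have hM' : ∀ v u, α (v * u) = α v * α u := fun v u => by
    obtain ⟨y, h1, h2, -⟩ := g3 v v x₀ hx₀
    have c := hM _ u h2
    rw [add_mul, hA, hA, hM _ u h1, add_mul] at c
    exact add_right_cancel c
  have h1 : α 1 = 1 := by
    rw [hα 1 x₀ hx₀ (add_comm x₀ 1 ▸ hx₁), add_comm 1 x₀, hx₂, add_sub_cancel_left]
  have hz : α 0 = 0 := by
    have c := hA 0 0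
    rw [add_zero] at c
    exact left_eq_add.1 c
  exact ⟨⟨⟨⟨α, h1⟩, hM'⟩, hz, hA⟩, hE⟩

end P019.E
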