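import Vale.Agent.P019.E.Rel
import Vale.Agent.P019.E.GenL

/-!
P019 E/Alpha: `Rel` is additive and multiplicative; the homomorphism `α`.
PLAN. `Rel.add`: frame `E₀`, `G` from `Frame.exists_good`, `B = hf E₀ x`, `B'` from `Dat.hyp`,
`z = x + y ∉ B`. For almost all `d` (`Zar.par`, `Rel.val`) take `v` over the line `y = - x + d`, `w`
corresponding: `Y + X ≡ σ d` (`Rel.tr`), `Z ≡ σ d`. `zero_of_inf` in `M` with `ξ = Z - X - Y`,
`S = σ '' ..`; `Z ∉ B'` because `Z ≡ σ d` for two values of `d` (`Sub.val_eq_one`), `prime_sub`.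
`Rel.mul`: frame for `(x, x y)`; lines `x y = c x` (`Zar.org`); `y - c` is a nonunit as `x` is a
unit; `X ∈ B' ⊆ w` (`Rel.mem`, `FC.le`); `ξ = Z - X Y`, the role of `Z` in `zero_of_inf` is played by
`Y`. `exists_alpha`: every general `x` has a partner (`Rel.transfer` via a general `y` independent of
`x` and of `t`, `exists_gen`); `ext_hom` with `P = Gen k`, `I = Ind k`; `Rel.shift`, `Rel.unique` for the
constants: `α a = α (t + a) - α t`.
-/

namespace P019.E

open IntermediateField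

variable {ℓ : ℕ} [Fact ℓ.Prime] {k K l M : Type*} [Field k] [Field K] [Algebra k K] [Field l]
  [Field M] [Algebra l M] [IsAlgClosed k] [IsAlgClosed l] {Θ : V ℓ K ≃ₗ[ZMod ℓ] V ℓ M} {n : ℕ}
  {σ : k ≃+* l}

omit [IsAlgClosed k] [IsAlgClosed l] in
theorem alpha_zero (h : Dat k l Θ n) {B : IntermediateField l M} (hB : Flat B n) {Z ξ : M}
    {S : Set k} (hS : S.Infinite) (hw : ∀ d ∈ S, ∃ w : ValuationSubring M, Sub B w ∧
      w.valuation (Z - algebraMap l M (σ d)) < 1 ∧ w ≠ ⊤ ∧ w.valuation ξ < 1) : ξ = 0 := by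
  refine zero_of_inf h.pfM hB (Z := Z) (hS.image σ.injective.injOn) ?_ fun hZ => ?_
  · rintro _ ⟨d, hd, rfl⟩
    exact hw d hd
  · have key : ∀ d ∈ S, Z = algebraMap l M (σ d) := fun d hd => by
      obtain ⟨w, h1, h2, -⟩ := hw d hd
      by_contra ne
      exact h2.ne (h1.val_eq_one (sub_mem hZ (B.algebraMap_mem _)) (sub_ne_zero.2 ne))
    obtain ⟨a, ha, b, hb, ne⟩ := hS.nontrivial
    exact ne (σ.injective ((algebraMap l M).injective ((key a ha).symm.trans (key b hb))))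

theorem Rel.add [PerfectField M] (h : Dat k l Θ n) {x y : K} (hx : Gen k x) (hy : Gen k y)
    (hz : Gen k (x + y)) (hxy : Ind k x y) {X Y Z : M} (hX : Rel Θ σ x X) (hY : Rel Θ σ y Y)
    (hZ : Rel Θ σ (x + y) Z) : Z = X + Y := by
  obtain ⟨E₀, hf⟩ := h.pfK.exists_frame hxy
  obtain ⟨G, hG, hg⟩ := hf.exists_good h.hk h.pfK
  have hB := hf.flat h.pfK
  obtain ⟨B', hB', hc⟩ := h.hyp _ hB
  have hzB : x + y ∉ E.hf E₀ x := fun e => hf.not_mem (by simpa using sub_mem e (mem_hf E₀ x))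
  refine sub_eq_zero.1 (alpha_zero (σ := σ) h hB' (Z := Z)
    ((hG.par (-1)).union (hZ.val h hz hB hzB)).infinite_compl fun d hd => ?_)
  rw [Set.mem_compl_iff, Set.mem_union, not_or] at hd
  obtain ⟨v, hv⟩ := hf.exists_lineV (-1) d
  obtain ⟨w, hw⟩ := line_corr h hf hv
  have a1 := Rel.tr h hf hx hy hG hg (neg_ne_zero.2 one_ne_zero) (not_not.1 hd.1) hv hw hX hY
  have e : x + y - algebraMap k K d = y - (algebraMap k K (-1) * x + algebraMap k K d) := by
    rw [map_neg, map_one]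
    ring
  have a2 : w.valuation (Z - algebraMap l M (σ d)) < 1 :=
    by_contra fun c => hd.2 ⟨v, w, hv.1, e ▸ hv.2, hw, c⟩
  obtain ⟨a3, a4⟩ := prime_sub h hw hB hB' hc hv.1 (hv.ne_top hf)
  refine ⟨w, a3, a2, a4, ?_⟩
  have e2 : Z - (X + Y) = Z - algebraMap l M (σ d) -
      (Y - (algebraMap l M (σ (-1)) * X + algebraMap l M (σ d))) := by
    rw [map_neg, map_one, map_neg, map_one]
    ring
  rw [e2]
  exact Valuation.map_sub_lt _ a2 a1

theorem Rel.mul [PerfectField M] (h : Dat k l Θ n) {x y : K} (hx : Gen k x) (hy : Gen k y)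
    (hz : Gen k (x * y)) (hxy : Ind k x y) {X Y Z : M} (hX : Rel Θ σ x X) (hY : Rel Θ σ y Y)
    (hZ : Rel Θ σ (x * y) Z) : Z = X * Y := by
  obtain ⟨E₀, hf₀⟩ := h.pfK.exists_frame hxy
  have x0 : x ≠ 0 := fun e => hx.1 (e ▸ isAlgebraic_zero)
  have hf := hf₀.change (mem_hf E₀ x) x0 (zero_mem _)
  rw [add_zero] at hf
  obtain ⟨G, hG, hg⟩ := hf.exists_good h.hk h.pfK
  have hB := hf.flat h.pfK
  obtain ⟨B', hB', hc⟩ := h.hyp _ hB
  have XB : X ∈ B' := by
    obtain ⟨D, hD, hXD, -⟩ := hX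
    exact FC.le h hD.2 hc hB' (acl_le_hf E₀ x) hXD
  refine sub_eq_zero.1 (alpha_zero (σ := σ) h hB' (Z := Y)
    ((hG.org.union (hY.val h hy hB hf₀.not_mem)).union (Set.finite_singleton 0)).infinite_compl
    fun c hd => ?_)
  rw [Set.mem_compl_iff, Set.mem_union, Set.mem_union, not_or, not_or] at hd
  obtain ⟨v, hv⟩ := hf.exists_lineV c 0
  obtain ⟨w, hw⟩ := line_corr h hf hv
  have a1 := Rel.tr h hf hx hz hG hg hd.2 (d := 0) (by simpa using hd.1.1) hv hw hX hZ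
  have e : x * y - (algebraMap k K c * x + algebraMap k K 0) = x * (y - algebraMap k K c) := by
    rw [map_zero]
    ring
  have b1 := hv.2
  rw [e, map_mul, hv.1.val_eq_one (mem_hf E₀ x) x0, one_mul] at b1
  have a2 : w.valuation (Y - algebraMap l M (σ c)) < 1 :=
    by_contra fun c => hd.1.2 ⟨v, w, hv.1, b1, hw, c⟩
  obtain ⟨a3, a4⟩ := prime_sub h hw hB hB' hc hv.1 (hv.ne_top hf)
  refine ⟨w, a3, a2, a4, ?_⟩
  have e2 : Z - X * Y = Z - (algebraMap l M (σ c) * X + algebraMap l M (σ 0)) -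
      X * (Y - algebraMap l M (σ c)) := by
    rw [map_zero, map_zero]
    ring
  rw [e2]
  refine Valuation.map_sub_lt _ a1 ?_
  rw [map_mul]
  exact lt_of_le_of_lt (mul_le_of_le_one_left' ((w.valuation_le_one_iff X).2 (a3 X XB))) a2

theorem exists_alpha [PerfectField M] (h : Dat k l Θ n) {t : K} (ht : Gen k t) {f : M}
    (hf : Rel Θ σ t f) : ∃ α : K →+* M, (∀ x, Gen k x → Rel Θ σ x (α x)) ∧
      ∀ a : k, α (algebraMap k K a) = algebraMap l M (σ a) := by
  classical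
  have ex : ∀ x, Gen k x → ∃ Z, Rel Θ σ x Z := fun x hx => by
    obtain ⟨y, hy⟩ := exists_gen h.pfK h.one_le {(1, 0)} (by simp) {x, t} (by simp [hx.1, ht.1])
    have h1 := hy (1, 0) (by simp)
    simp only [one_mul, add_zero] at h1
    obtain ⟨Y, hY⟩ := Rel.transfer h h1.1 ht (h1.2 t (by simp)).symm hf
    exact Rel.transfer h hx h1.1 (h1.2 x (by simp)) hY
  choose! α₀ hα using ex
  have sh : ∀ a : k, α₀ (t + algebraMap k K a) = α₀ t + algebraMap l M (σ a) := fun a =>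
    Rel.unique h (ht.shift a).1 (hα _ (ht.shift a).1) ((hα t ht).shift ht a)
  obtain ⟨α, hα'⟩ := ext_hom (Gen k) (Ind k) α₀
    (fun s hs w hw => exists_gen h.pfK h.one_le s hs w fun a ha => (hw a ha).1)
    (fun h0 => h0.1 isAlgebraic_zero)
    (fun x y hx hy hz hxy => Rel.add h hx hy hz hxy (hα x hx) (hα y hy) (hα _ hz))
    (fun x y hx hy hz hxy => Rel.mul h hx hy hz hxy (hα x hx) (hα y hy) (hα _ hz))
    ⟨t, ht, by simpa using (ht.shift 1).1, by simpa using sh 1⟩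
  refine ⟨α, fun x hx => hα' x hx ▸ hα x hx, fun a => ?_⟩
  have e := hα' _ (ht.shift a).1
  rw [map_add, sh, hα' t ht] at e
  exact add_left_cancel e

end P019.E
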