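import Vale.Agent.P019.Mono2

/-!
P019 part E (helper36): from the correspondence of flats and prime divisors to the field
isomorphism. Definitions. DO NOT change. Overview in notes/P019E.md.
-/

namespace P019.E

open IntermediateField

/-- `F` is purely inseparable over a function field of dimension `d` -/
def IsPF (k F : Type*) [Field k] [Field F] [Algebra k F] (d : ℕ) : Prop :=
  ∃ F₀ : IntermediateField k F, IsFF k F₀ d ∧ IsPurelyInseparable F₀ F

/-- `A` is contained in `B` up to a finite dimensional space -/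
def FinLe {ℓ : ℕ} {W : Type*} [AddCommGroup W] [Module (ZMod ℓ) W]
    (A B : Submodule (ZMod ℓ) W) : Prop :=
  ∃ s : Finset W, A ≤ B ⊔ Submodule.span (ZMod ℓ) (s : Set W)

section one
variable {k F : Type*} [Field k] [Field F] [Algebra k F]

/-- the valuation is trivial on `A` -/
def Sub (A : IntermediateField k F) (O : ValuationSubring F) : Prop := ∀ a ∈ A, a ∈ O

/-- general element : transcendental and `k(x)` separably closed in `F` -/
def Gen (k : Type*) [Field k] [Algebra k F] (x : F) : Prop :=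
  Transcendental k x ∧ ∀ z : F, IsSeparable k⟮x⟯ z → z ∈ k⟮x⟯

/-- algebraically independent pair -/
def Ind (k : Type*) [Field k] [Algebra k F] (x y : F) : Prop := AlgebraicIndependent k ![x, y]

/-- `m ↦ ∑ m a • [x - a]` -/
noncomputable def lc (ℓ : ℕ) (k : Type*) [Field k] [Algebra k F] (x : F) :
    (k →₀ ZMod ℓ) →ₗ[ZMod ℓ] V ℓ F :=
  Finsupp.linearCombination (ZMod ℓ) fun a => cl ℓ (x - algebraMap k F a)

/-- order at a point of the projective line (up to sign at infinity) -/
noncomputable def pt {ℓ : ℕ} {k : Type*} (a : Option k) (m : k →₀ ZMod ℓ) : ZMod ℓ :=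
  match a with
  | some a => m a
  | none => m.sum fun _ r => r

/-- `x, y` is a transcendence basis of `F` over `E₀` -/
def Frame (E₀ : IntermediateField k F) (x y : F) : Prop :=
  AlgebraicIndependent E₀ ![x, y] ∧ Algebra.IsAlgebraic (adjoin E₀ {x, y}) F

/-- the hyperflat spanned by `E₀` and `x` -/
noncomputable def hf (E₀ : IntermediateField k F) (x : F) : IntermediateField k F :=
  acl k (insert x (E₀ : Set F))

/-- `v` is a prime divisor over the line `y = c x + d` -/
def LineV (E₀ : IntermediateField k F) (x y : F) (c d : k) (v : ValuationSubring F) : Prop :=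
  Sub (hf E₀ x) v ∧ v.valuation (y - (algebraMap k F c * x + algebraMap k F d)) < 1

/-- the point `(a, b)` is unramified for all lines through it -/
def Good (ℓ : ℕ) (E₀ : IntermediateField k F) (x y : F) (a b : k) : Prop :=
  ∀ (c : k) (v : ValuationSubring F), LineV E₀ x y c (b - c * a) v →
    ∀ m, lc ℓ k x m ∈ Nv ℓ v → m a = 0

/-- `v` sees the point `a` of the `x`-line with multiplicity prime to `ℓ` -/
def VisAt (ℓ : ℕ) (x : F) (a : Option k) (v : ValuationSubring F) : Prop :=
  match a with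
  | some a => v.valuation (x - algebraMap k F a) < 1 ∧ cl ℓ (x - algebraMap k F a) ∉ Uv ℓ v
  | none => 1 < v.valuation x ∧ cl ℓ x ∉ Uv ℓ v

/-- combinatorial properties of the complement of a plane curve -/
structure Zar {k : Type*} [Field k] (G : k → k → Prop) : Prop where
  line : ∀ a b c, G a b → {s | ¬ G s (b + c * (s - a))}.Finite
  vert : ∀ a b, G a b → {b' | ¬ G a b'}.Finite
  fst : {a | ¬ ∃ b, G a b}.Finite
  par : ∀ c, {d | ¬ ∃ a, G a (c * a + d)}.Finite
  org : {c | ¬ ∃ a, G a (c * a)}.Finite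

/-- `t` is general, no vertical line of the `(t, x)` plane is bad, all points of the `t`-line
are visible -/
def Nice (ℓ n : ℕ) (E₀ : IntermediateField k F) (t x : F) : Prop :=
  Gen k t ∧ Frame E₀ t x ∧
    (∃ G : k → k → Prop, Zar G ∧ (∀ a, ∃ b, G a b) ∧ ∀ a b, G a b → Good ℓ E₀ t x a b) ∧
    ∀ a : Option k, ∃ (v : ValuationSubring F) (B : IntermediateField k F),
      Flat B n ∧ Sub B v ∧ VisAt ℓ t a v

/-- `F` is purely inseparable over `S` -/
def PIo (S : Subfield F) : Prop := ∀ u : F, ∃ j : ℕ, u ^ ringExpChar F ^ j ∈ S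

/-- standard etale presentation of the separable part of `F` over `R`, away from `δ` -/
def EtD (R : Subring F) (θ δ : F) : Prop :=
  PIo (Subfield.closure (insert θ (R : Set F))) ∧
    ∃ m : Polynomial F, m.Monic ∧ (∀ j, m.coeff j ∈ R) ∧ m.eval θ = 0 ∧
      ∃ b ∈ Subring.closure (insert θ (R : Set F)), b * m.derivative.eval θ = δ

/-- `γ` moves the place `Q` to `Q'` -/
def Mov {D D' : Type*} [Field D] [Field D'] [Algebra k D] [Algebra k D'] (γ : D ≃ₐ[k] D')
    (Q : Place k D) (Q' : Place k D') : Prop := ∀ u : D, u ∈ Q.1 ↔ γ u ∈ Q'.1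

end one

section two
variable {ℓ : ℕ} {k K l M : Type*} [Field k] [Field K] [Algebra k K] [Field l] [Field M]
  [Algebra l M]

/-- corresponding subfields -/
def FC (Θ : V ℓ K ≃ₗ[ZMod ℓ] V ℓ M) (E : IntermediateField k K) (D : IntermediateField l M) :
    Prop := (Hs ℓ (E : Set K)).map Θ.toLinearMap = Hs ℓ (D : Set M)

/-- the data used in part E -/
structure Dat (k l : Type*) [Field k] [Algebra k K] [Field l] [Algebra l M]
    (Θ : V ℓ K ≃ₗ[ZMod ℓ] V ℓ M) (n : ℕ) : Prop where
  pfK : IsPF k K (n + 1)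
  pfM : IsPF l M (n + 1)
  one_le : 1 ≤ n
  hk : (ℓ : k) ≠ 0
  hl : (ℓ : l) ≠ 0
  line : ∀ E : IntermediateField k K, Flat E 1 → ∃ D : IntermediateField l M, Flat D 1 ∧ FC Θ E D
  line' : ∀ D : IntermediateField l M, Flat D 1 → ∃ E : IntermediateField k K, Flat E 1 ∧ FC Θ E D
  hyp : ∀ E : IntermediateField k K, Flat E n → ∃ D : IntermediateField l M, Flat D n ∧ FC Θ E D
  hyp' : ∀ D : IntermediateField l M, Flat D n → ∃ E : IntermediateField k K, Flat E n ∧ FC Θ E D
  prime : ∀ (v : ValuationSubring K) (B : IntermediateField k K), Flat B n → Sub B v → v ≠ ⊤ →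
    ∃ w, Corr ℓ Θ v w
  prime' : ∀ (w : ValuationSubring M) (B : IntermediateField l M), Flat B n → Sub B w → w ≠ ⊤ →
    ∃ v, Corr ℓ Θ v w

/-- `D` is the line of `M` corresponding to `x` -/
def LC (k : Type*) [Field k] [Algebra k K] (Θ : V ℓ K ≃ₗ[ZMod ℓ] V ℓ M) (x : K)
    (D : IntermediateField l M) : Prop := Flat D 1 ∧ FC Θ (acl k {x}) D

/-- the class of `e ∈ D` has coordinates `m` on the `x`-line -/
def Co (Θ : V ℓ K ≃ₗ[ZMod ℓ] V ℓ M) (x : K) (e : M) (m : k →₀ ZMod ℓ) : Prop :=
  Θ (lc ℓ k x m) = cl ℓ e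

/-- the point `a` of the `x`-line matches the place `Q` of `D` -/
def Match (Θ : V ℓ K ≃ₗ[ZMod ℓ] V ℓ M) (x : K) (D : IntermediateField l M) (a : Option k)
    (Q : Place l D) : Prop :=
  ∀ (e : D) (m : k →₀ ZMod ℓ), Co Θ x (e : M) m → (cl ℓ e ∈ Uv ℓ Q.1 ↔ pt a m = 0)

/-- `γ` transforms the coordinate at `b` on the `y`-line into the coordinate at `a` on the
`x`-line -/
def Ex (Θ : V ℓ K ≃ₗ[ZMod ℓ] V ℓ M) (x y : K) {Dx Dy : IntermediateField l M}
    (γ : Dy ≃ₐ[l] Dx) (a b : k) : Prop :=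
  ∀ (e : Dy) (m m' : k →₀ ZMod ℓ), Co Θ y (e : M) m → Co Θ x (γ e : M) m' → m' a = m b

/-- `Z` takes the value `σ a` at almost all places matched with `a` -/
def Rel (Θ : V ℓ K ≃ₗ[ZMod ℓ] V ℓ M) (σ : k ≃+* l) (x : K) (Z : M) : Prop :=
  ∃ D : IntermediateField l M, LC k Θ x D ∧ ∃ hZ : Z ∈ D,
    {a : k | ∃ Q : Place l D, Match Θ x D (some a) Q ∧
      ¬ Q.1.valuation (⟨Z, hZ⟩ - algebraMap l D (σ a)) < 1}.Finite

end two

end P019.E
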