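import Vale.Agent.P019.E.PF

/-!
P019 E/RT: separably closed subfields and transcendental extensions; generic linear combinations.
PLAN. `rt`: `E ⊆ E'` subfields of `Ω`, `E` separably closed in `E'`, `t` transcendental over `E'`.
Let `z ∈ E'(t)` be separable over `E(t)`. Multiply by a nonzero element of `E[t]` to make it integral
over `E[t]`, hence over `E'[t]`, which is integrally closed: `z = g(t)`, `g ∈ E'[X]` integral over
`E[X]`. Its coefficients are integral over `E` (Mathlib `RingTheory/Polynomial/IsIntegral`,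
`IsIntegral.coeff`), hence purely inseparable over `E` (a power `q` of an algebraic element is
separable, so in `E`). So `z ^ q ∈ E(t)` and `z` is separable, so `z ∈ E(t)`.
`gen_comb`: let `N` be the separable closure of `k(x, y)` in `F` (finite, `IsPF.finite_sep`), it has
finitely many intermediate fields (`Field.finite_intermediateField_of_exists_primitive_element`).
For `c ∈ k` let `E_c` be the separable closure of `k(x + c y)` in `F`, and `N_c = k(x, y) E_c ⊆ N`.
If `c ≠ c'` and `N_c = N_c'` then `x + c y` is general: `N_c' = E_c'(x + c y)`, `k` is separably closed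
in `E_c'` (algebraically closed), `x + c y` is transcendental over `E_c'`, and `rt` applies to the
elements of `E_c`. So `c ↦ N_c` is injective on the bad set.
-/

namespace P019.E

open IntermediateField Polynomial

theorem rt_sep {E Ω : Type*} [Field E] [Field Ω] [Algebra E Ω] (q : ℕ) [ExpChar E q] {c : Ω}
    (hc : IsIntegral E c) : ∃ n, IsSeparable E (c ^ q ^ n) := by
  obtain ⟨g, hg, n, hn⟩ := (minpoly.irreducible hc).hasSeparableContraction q
  refine ⟨n, hg.of_dvd (minpoly.dvd E _ ?_)⟩
  rw [← Polynomial.expand_aeval, hn, minpoly.aeval]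

/-- an element of `A(t)` integral over `A[t]` is a polynomial in `t` -/
theorem rt_int {A Ω : Type*} [Field A] [Field Ω] [Algebra A Ω] [Algebra A[X] Ω]
    [FaithfulSMul A[X] Ω] {w : Ω} (r s : A[X])
    (hw : w = algebraMap A[X] Ω r / algebraMap A[X] Ω s) (hi : IsIntegral A[X] w) :
    ∃ g : A[X], algebraMap A[X] Ω g = w := by
  let : Algebra (FractionRing A[X]) Ω := FractionRing.liftAlgebra A[X] Ω
  have : IsScalarTower A[X] (FractionRing A[X]) Ω := FractionRing.isScalarTower_liftAlgebra _ _
  set u : FractionRing A[X] := algebraMap A[X] _ r / algebraMap A[X] _ s with hu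
  have h1 : algebraMap (FractionRing A[X]) Ω u = w := by
    rw [hu, map_div₀, ← IsScalarTower.algebraMap_apply, ← IsScalarTower.algebraMap_apply, hw]
  rw [← h1, isIntegral_algebraMap_iff (algebraMap (FractionRing A[X]) Ω).injective,
    IsIntegrallyClosed.isIntegral_iff] at hi
  obtain ⟨g, hg⟩ := hi
  exact ⟨g, by rw [← h1, ← hg, ← IsScalarTower.algebraMap_apply]⟩

theorem rt_poly {E Ω : Type*} [Field E] [Field Ω] [Algebra E Ω] (E' : IntermediateField E Ω)
    {t : Ω} (ht : Transcendental E' t) {z : Ω} (hz : z ∈ E'⟮t⟯) (ha : IsAlgebraic E⟮t⟯ z) :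
    ∃ (y : Ω) (g : E'[X]), y ∈ E⟮t⟯ ∧ y ≠ 0 ∧ aeval t g = y * z ∧
      ∀ i, IsIntegral E (g.coeff i) := by
  obtain ⟨y, hy0, hy⟩ := (isAlgebraic_adjoin_iff.1 ha).exists_integral_multiple
  let : Algebra E[X] Ω := (aeval t : E[X] →ₐ[E] Ω).toRingHom.toAlgebra
  let : Algebra E'[X] Ω := (aeval t : E'[X] →ₐ[E'] Ω).toRingHom.toAlgebra
  let : Algebra E[X] E'[X] := Polynomial.algebra E E'
  have : IsScalarTower E[X] E'[X] Ω := IsScalarTower.of_algebraMap_eq fun p =>
    (aeval_map_algebraMap E' t p).symm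
  let : Algebra E[X] (Algebra.adjoin E {t}) :=
    ((aeval t : E[X] →ₐ[E] Ω).codRestrict (Algebra.adjoin E {t})
      fun p => aeval_mem_adjoin_singleton E t).toRingHom.toAlgebra
  have : IsScalarTower E[X] (Algebra.adjoin E {t}) Ω :=
    IsScalarTower.of_algebraMap_eq fun _ => rfl
  have : Algebra.IsIntegral E[X] (Algebra.adjoin E {t}) := ⟨fun a => by
    have h1 := a.2
    simp only [Algebra.adjoin_singleton_eq_range_aeval, AlgHom.mem_range] at h1
    obtain ⟨p, hp⟩ := h1
    have : a = algebraMap E[X] _ p := Subtype.ext hp.symm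
    rw [this]
    exact isIntegral_algebraMap⟩
  have hinj : Function.Injective (algebraMap E'[X] Ω) := transcendental_iff_injective.1 ht
  have : FaithfulSMul E'[X] Ω := (faithfulSMul_iff_algebraMap_injective _ _).2 hinj
  have h1 : IsIntegral E[X] (y • z) := isIntegral_trans _ hy
  have hyt : (y : Ω) ∈ E⟮t⟯ := algebra_adjoin_le_adjoin E {t} y.2
  have h2 : (y • z) ∈ E'⟮t⟯ := by
    refine mul_mem ?_ hz
    have : E⟮t⟯ ≤ (E'⟮t⟯).restrictScalars E :=
      adjoin_le_iff.2 (Set.singleton_subset_iff.2 (mem_adjoin_simple_self E' t))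
    exact this hyt
  obtain ⟨r, s, hrs⟩ := (mem_adjoin_simple_iff E' _).1 h2
  obtain ⟨g, hg⟩ := rt_int r s hrs h1.tower_top
  refine ⟨y, g, hyt, fun h => hy0 (Subtype.ext h), hg, fun i => IsIntegral.coeff ?_ i⟩
  rw [← isIntegral_algebraMap_iff hinj, hg]
  exact h1

theorem rt {E Ω : Type*} [Field E] [Field Ω] [Algebra E Ω] (E' : IntermediateField E Ω)
    (hE : ∀ z ∈ E', IsSeparable E z → z ∈ (⊥ : IntermediateField E Ω)) {t : Ω}
    (ht : Transcendental E' t) {z : Ω} (hz : z ∈ E'⟮t⟯) (hs : IsSeparable E⟮t⟯ z) :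
    z ∈ E⟮t⟯ := by
  obtain ⟨y, g, hy, hy0, hg, hc⟩ := rt_poly E' ht hz hs.isIntegral.isAlgebraic
  obtain ⟨q, hq⟩ := ExpChar.exists E
  have : ExpChar E⟮t⟯ q := expChar_of_injective_algebraMap (algebraMap E E⟮t⟯).injective q
  have h0 : ∀ a ∈ E⟮t⟯, a ∈ perfectClosure E⟮t⟯ Ω := fun a ha =>
    (perfectClosure E⟮t⟯ Ω).algebraMap_mem ⟨a, ha⟩
  have h1 : ∀ i, (g.coeff i : Ω) ∈ perfectClosure E⟮t⟯ Ω := fun i => by
    obtain ⟨n, hn⟩ := rt_sep q ((hc i).map E'.val)
    obtain ⟨e, he⟩ := mem_bot.1 (hE _ (pow_mem (g.coeff i).2 _) hn)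
    exact (mem_perfectClosure_iff_pow_mem q).2 ⟨n, algebraMap E E⟮t⟯ e, he⟩
  have h2 : y * z ∈ perfectClosure E⟮t⟯ Ω := by
    rw [← hg, aeval_eq_sum_range]
    refine sum_mem fun i _ => ?_
    rw [Algebra.smul_def]
    exact mul_mem (h1 i) (pow_mem (h0 t (mem_adjoin_simple_self E t)) i)
  have h3 : z ∈ perfectClosure E⟮t⟯ Ω := by
    have := mul_mem (inv_mem (h0 y hy)) h2
    rwa [inv_mul_cancel_left₀ hy0] at this
  have h4 : z ∈ separableClosure E⟮t⟯ Ω ⊓ perfectClosure E⟮t⟯ Ω :=
    ⟨mem_separableClosure_iff.2 hs, h3⟩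
  rw [separableClosure_inf_perfectClosure] at h4
  obtain ⟨e, he⟩ := mem_bot.1 h4
  exact he ▸ e.2

variable {k F : Type*} [Field k] [Field F] [Algebra k F] [IsAlgClosed k]

omit [IsAlgClosed k] in
theorem rt_mono {A B : IntermediateField k F} (h : A ≤ B) {z : F} (hz : IsSeparable A z) :
    IsSeparable B z := by
  let : Algebra A B := (inclusion h).toRingHom.toAlgebra
  have : IsScalarTower A B F := IsScalarTower.of_algebraMap_eq fun _ => rfl
  exact hz.tower_top B

omit [IsAlgClosed k] in
theorem rt_mem {B : IntermediateField k F} {x y : F} {c c' : k} (hc : c ≠ c')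
    (h1 : x + algebraMap k F c * y ∈ B) (h2 : x + algebraMap k F c' * y ∈ B) :
    x ∈ B ∧ y ∈ B := by
  have h3 : algebraMap k F c - algebraMap k F c' ≠ 0 :=
    sub_ne_zero.2 fun h => hc ((algebraMap k F).injective h)
  have hy : y ∈ B := by
    have := mul_mem (inv_mem (sub_mem (B.algebraMap_mem c) (B.algebraMap_mem c'))) (sub_mem h1 h2)
    convert this using 1
    field_simp
    ring
  refine ⟨?_, hy⟩
  have := sub_mem h1 (mul_mem (B.algebraMap_mem c) hy)
  rwa [add_sub_cancel_right] at this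

omit [IsAlgClosed k] in
theorem rt_ind {x y : F} (hxy : Ind k x y) {c c' : k} (hc : c ≠ c') :
    Ind k (x + algebraMap k F c * y) (x + algebraMap k F c' * y) := by
  have h1 : Transcendental k (x + algebraMap k F c * y) := fun h => by
    refine (indep_pair_iff.1 (indep_pair_symm hxy)).2 ?_
    have h2 : x + algebraMap k F c * y ∈ acl k {y} := (mem_acl_iff _ _).2 (h.tower_top _)
    have := sub_mem h2 (mul_mem ((acl k {y}).algebraMap_mem c) (subset_acl {y} rfl))
    rwa [add_sub_cancel_right] at this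
  refine indep_pair_iff.2 ⟨h1, fun h => ?_⟩
  obtain ⟨hx, hy⟩ := rt_mem hc (subset_acl {x + algebraMap k F c * y} rfl) h
  have := ffb_card_le (flat_acl_one h1).2 hxy fun i => by
    fin_cases i
    · exact hx
    · exact hy
  simp at this

theorem rt_gen {u v : F} (huv : Ind k v u)
    (H : ∀ z, IsSeparable k⟮u⟯ z → z ∈ ((separableClosure k⟮v⟯ F).restrictScalars k)⟮u⟯) :
    Gen k u := by
  refine ⟨(indep_pair_iff.1 (indep_pair_symm huv)).1, fun z hz =>
    rt ((separableClosure k⟮v⟯ F).restrictScalars k) (fun w _ hw => ?_) (fun h => ?_) (H z hz) hz⟩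
  · exact mem_bot.2 (minpoly.mem_range_of_degree_eq_one k w
      (IsAlgClosed.degree_eq_one_of_irreducible k (minpoly.irreducible hw.isIntegral)))
  · refine (indep_pair_iff.1 huv).2 ((mem_acl_iff _ _).2 (ffb_trans (fun b hb => ?_) h))
    exact (mem_separableClosure_iff (F := k⟮v⟯).1 hb).isIntegral.isAlgebraic

theorem gen_comb {d : ℕ} (h : IsPF k F d) {x y : F} (hxy : Ind k x y) :
    {c : k | ¬ Gen k (x + algebraMap k F c * y)}.Finite := by
  let A : IntermediateField k F := adjoin k {x, y}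
  have hx : x ∈ A := subset_adjoin k _ (by simp)
  have hy : y ∈ A := subset_adjoin k _ (by simp)
  have := h.finite_sep A
  have : Finite (IntermediateField A (separableClosure A F)) :=
    Field.finite_intermediateField_of_exists_primitive_element _ _
      (Field.exists_primitive_element _ _)
  let Ec : k → IntermediateField k F := fun c =>
    (separableClosure k⟮x + algebraMap k F c * y⟯ F).restrictScalars k
  have hu : ∀ c, x + algebraMap k F c * y ∈ Ec c := fun c =>
    (separableClosure k⟮x + algebraMap k F c * y⟯ F).algebraMap_mem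
      ⟨_, mem_adjoin_simple_self k _⟩
  have hle : ∀ c, adjoin A (Ec c : Set F) ≤ separableClosure A F := fun c =>
    adjoin_le_iff.2 fun z hz => mem_separableClosure_iff.2 (rt_mono
      (adjoin_le_iff.2 (Set.singleton_subset_iff.2
        (add_mem hx (mul_mem (A.algebraMap_mem c) hy)))) (mem_separableClosure_iff.1 hz))
  refine Set.Finite.of_finite_image (f := fun c => IntermediateField.restrict (hle c))
    (Set.toFinite _) fun c hc c' _ he => ?_
  by_contra hne
  have he' : adjoin A (Ec c : Set F) = adjoin A (Ec c' : Set F) := by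
    rw [← lift_restrict (hle c), ← lift_restrict (hle c')]
    exact congrArg _ he
  refine hc (rt_gen (rt_ind hxy (Ne.symm hne)) fun z hz => ?_)
  let B : IntermediateField k F := ((Ec c')⟮x + algebraMap k F c * y⟯).restrictScalars k
  have hEB : ∀ w ∈ Ec c', w ∈ B := fun w hw =>
    ((Ec c')⟮x + algebraMap k F c * y⟯).algebraMap_mem ⟨w, hw⟩
  have hAB : A ≤ B := by
    obtain ⟨h1, h2⟩ := rt_mem (B := B) hne (mem_adjoin_simple_self (Ec c') _) (hEB _ (hu c'))
    refine adjoin_le_iff.2 ?_
    rintro w (rfl | rfl)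
    · exact h1
    · exact h2
  have h1 : adjoin A (Ec c' : Set F) ≤ extendScalars hAB := adjoin_le_iff.2 hEB
  have h2 : z ∈ adjoin A (Ec c : Set F) := subset_adjoin A _ (mem_separableClosure_iff.2 hz)
  rw [he'] at h2
  exact h1 h2

end P019.E
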