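import Vale.Agent.P019.E.Vis
import Vale.Agent.P019.E.RT

/-!
P019 E/Nice: pencils of lines through an unramified point.
PLAN. Take `θ, P` from `Frame.exists_etD`, `G a b := P(a, b) ≠ 0`. Fix `(a₀, b₀)` with `G a₀ b₀`,
`t = (y - b₀) / (x - a₀)`, so `y = b₀ + t (x - a₀)`; `Frame E₀ t x` by `Frame.change`, `Frame.symm`.
`R = E₀[x, y] ⊆ R' = E₀[t, x]` (`EtD.mono`), `δ = P'(t, x)` with `P'(T, X) = P(X, b₀ + T (X - a₀))`,
`P'(s, a) = P(a, b₀ + s (a - a₀))`, `P'(s, a₀) = P(a₀, b₀) ≠ 0`; `zar`, `good_of_etD`.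
Visible primes: for `some s` take `v` with `Sub (hf E₀ x) v`, `t ≡ s` (`exists_val_at`), `vis` with
`E₁ = E₀(x)`, `π = t - s`, `δ ≡ P'(s, x) ≠ 0`. For `none` take `Sub (hf E₀ y) v`, `x ≡ a₀`,
`E₁ = E₀(y)`, `π = x - a₀`, `δ ≡ P(a₀, y) ≠ 0`; `cl t = cl (y - b₀) - cl π`.
`Gen k t`: `v₀` with `Sub (hf E₀ t) v₀`, `x ≡ a₀`; `E₁ = E₀(t)`, `π = x - a₀`, `δ ≡ P(a₀, b₀)`.
`res_pio`: `Res v₀` is purely inseparable over `E'(t̄)`, `E' = Ē₀(θ̄)`, and `θ̄` is algebraic over `Ē₀`
(coefficients of `m` lie in `R`, whose residues lie in `Ē₀`), so `t̄` is transcendental over `E'`.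
If `z` is separable over `k(t)` then `z ∈ hf E₀ t ⊆ v₀`; `res` is an injective ring hom on `hf E₀ t`;
`z̄` is separable over `k̄(t̄)`, so over `E'(t̄)`, so lies in `E'(t̄)`; `rt` over the algebraically
closed field `resK k v₀` gives `z̄ ∈ k̄(t̄)`, so `z ∈ k(t)`.
-/

namespace P019.E

open IntermediateField Polynomial

section ev
variable {A B C' : Type*} [CommRing A] [CommRing B] [CommRing C']

/-- evaluation of a polynomial in two variables along a ring homomorphism -/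
noncomputable def nice_ev (f : A →+* B) (u w : B) : A[X][X] →+* B :=
  eval₂RingHom (eval₂RingHom f u) w

theorem nice_comp (g : B →+* C') (f : A →+* B) (u w : B) (P : A[X][X]) :
    g (nice_ev f u w P) = nice_ev (g.comp f) (g u) (g w) P := by
  have : g.comp (nice_ev f u w) = nice_ev (g.comp f) (g u) (g w) := by
    ext <;> simp [nice_ev]
  exact DFunLike.congr_fun this P

theorem nice_map (f : A →+* B) (u w : B) (P : A[X][X]) :
    (P.map (mapRingHom f)).evalEval u w = nice_ev f u w P := by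
  have : (evalEvalRingHom u w).comp (mapRingHom (mapRingHom f)) = nice_ev f u w := by
    ext <;> simp [nice_ev]
  exact DFunLike.congr_fun this P

theorem nice_id (u w : A) (P : A[X][X]) : P.evalEval u w = nice_ev (RingHom.id A) u w P := by
  rw [← nice_map]; simp

theorem nice_mem (f : A →+* B) (S : Subring B) (hf : ∀ c, f c ∈ S) {u w : B} (hu : u ∈ S)
    (hw : w ∈ S) (P : A[X][X]) : nice_ev f u w P ∈ S := by
  have := nice_comp S.subtype (f.codRestrict S hf) ⟨u, hu⟩ ⟨w, hw⟩ P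
  exact this ▸ (nice_ev (f.codRestrict S hf) ⟨u, hu⟩ ⟨w, hw⟩ P).2

/-- the substitution `P (X, b + T (X - a))` -/
noncomputable def nice_sub (a b : A) (P : A[X][X]) : A[X][X] :=
  nice_ev ((C : A[X] →+* A[X][X]).comp C) Polynomial.X
    (C (C b) + C Polynomial.X * (Polynomial.X - C (C a))) P

theorem nice_ev_sub (f : A →+* B) (a b : A) (u w : B) (P : A[X][X]) :
    nice_ev f u w (nice_sub a b P) = nice_ev f w (f b + u * (w - f a)) P := by
  have : (nice_ev f u w).comp ((C : A[X] →+* A[X][X]).comp C) = f := by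
    ext; simp [nice_ev]
  rw [nice_sub, nice_comp, this]
  simp [nice_ev]

theorem nice_ne [Algebra A B] {z : B} (hz : Transcendental A z) (r₁ r₂ : A[X]) (c : A)
    {P : A[X][X]} (h : P.evalEval (r₁.eval c) (r₂.eval c) ≠ 0) :
    nice_ev (algebraMap A B) (aeval z r₁) (aeval z r₂) P ≠ 0 := by
  intro h0
  have e1 := nice_comp (aeval z : A[X] →ₐ[A] B).toRingHom C r₁ r₂ P
  have e2 := nice_comp (evalRingHom c) C r₁ r₂ P
  have f1 : (aeval z : A[X] →ₐ[A] B).toRingHom.comp C = algebraMap A B := by ext; simp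
  have f2 : (evalRingHom c).comp C = RingHom.id A := by ext; simp
  rw [f1] at e1
  rw [f2, transcendental_iff.1 hz _ (e1.trans h0), map_zero] at e2
  exact h ((nice_id _ _ P).trans e2.symm)

end ev

theorem nice_sep {K Ω κ : Type*} [Field K] [Field Ω] [Field κ] [Algebra κ Ω]
    (L : IntermediateField κ Ω) (g : K →+* Ω) (hg : ∀ c, g c ∈ L) {p : K[X]} (hp : p.Separable)
    {w : Ω} (hw : eval₂ g w p = 0) : IsSeparable L w := by
  refine (hp.map (f := g.codRestrict L hg)).of_dvd (minpoly.dvd L w ?_)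
  rw [aeval_def, eval₂_map]
  exact hw

variable {ℓ : ℕ} [Fact ℓ.Prime] {k F : Type*} [Field k] [Field F] [Algebra k F]

/-- the residue map on a subring of the valuation ring -/
noncomputable def nice_rho {S : Type*} [SetLike S F] [SubringClass S F] (B : S)
    (v : ValuationSubring F) (h : ∀ a ∈ B, a ∈ v) : B →+* Res v :=
  (IsLocalRing.residue v).comp ((SubringClass.subtype B).codRestrict v fun a => h a a.2)

theorem nice_rho_apply {S : Type*} [SetLike S F] [SubringClass S F] (B : S)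
    (v : ValuationSubring F) (h : ∀ a ∈ B, a ∈ v) (a : B) : nice_rho B v h a = res v a :=
  (resb_coe v ⟨a, h a a.2⟩).symm

theorem nice_img {s : Set F} {v : ValuationSubring F} (h : Sub (adjoin k s) v) (r : Res v) :
    r ∈ adjoin (resK k v) (res v '' s) ↔ ∃ w ∈ adjoin k s, res v w = r := by
  have hk : ∀ c : k, res v (algebraMap k F c) ∈ resK k v := fun c =>
    (mem_resK v _).2 ⟨c, h.triv c, rfl⟩
  constructor
  · intro hr
    have : (adjoin (resK k v) (res v '' s)).toSubfield ≤ (nice_rho _ v h).fieldRange := by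
      rw [adjoin_toSubfield, Subfield.closure_le]
      rintro _ (⟨c, rfl⟩ | ⟨a, ha, rfl⟩)
      · obtain ⟨d, -, hd⟩ := (mem_resK v _).1 c.2
        exact ⟨⟨_, _root_.algebraMap_mem _ d⟩, (nice_rho_apply _ v h _).trans hd.symm⟩
      · exact ⟨⟨a, subset_adjoin _ _ ha⟩, nice_rho_apply _ v h _⟩
    obtain ⟨w, hw⟩ := this hr
    exact ⟨w, w.2, (nice_rho_apply _ v h w).symm.trans hw⟩
  · rintro ⟨w, hw, rfl⟩
    rw [← nice_rho_apply _ v h ⟨w, hw⟩]
    induction hw using adjoin_induction with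
    | mem x hx => exact subset_adjoin _ _ ⟨x, hx, (nice_rho_apply _ v h ⟨x, _⟩).symm⟩
    | algebraMap c =>
      exact (nice_rho_apply _ v h ⟨_, _⟩).symm ▸ _root_.algebraMap_mem _ (⟨_, hk c⟩ : resK k v)
    | add x y hx hy ix iy => exact map_add (nice_rho _ v h) ⟨x, hx⟩ ⟨y, hy⟩ ▸ add_mem ix iy
    | inv x hx ix => exact map_inv₀ (nice_rho _ v h) ⟨x, hx⟩ ▸ inv_mem ix
    | mul x y hx hy ix iy => exact map_mul (nice_rho _ v h) ⟨x, hx⟩ ⟨y, hy⟩ ▸ mul_mem ix iy

theorem nice_trans {E₀ : IntermediateField k F} {x y : F} (h : Frame E₀ x y) :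
    Transcendental (hf E₀ x) y := fun ha =>
  h.not_mem ((mem_acl_iff _ _).2 (ffb_trans (fun b hb => (mem_acl_iff _ b).1 hb) ha))

theorem nice_tr0 {E₀ : IntermediateField k F} {x y : F} (h : Frame E₀ x y) :
    Transcendental E₀ x := h.1.transcendental 0

theorem nice_data {E₀ B : IntermediateField k F} (hB : E₀ ≤ B) {v : ValuationSubring F}
    (hv : Sub B v) {π x y x₀ y₀ : F} (hπ : v.valuation π < 1) (hx₀ : x₀ ∈ B) (hy₀ : y₀ ∈ B)
    {c d : F} (hc : c ∈ B) (hd : d ∈ B) (hx : x = x₀ + c * π) (hy : y = y₀ + d * π) {P : E₀[X][X]}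
    (h0 : nice_ev (algebraMap E₀ F) x₀ y₀ P ≠ 0) :
    (∀ r ∈ Subring.closure (insert x (insert y (E₀ : Set F))), r ∈ v) ∧
      (∀ r ∈ Subring.closure (insert x (insert y (E₀ : Set F))),
        r ∈ Subfield.closure (insert π (B.toSubfield : Set F))) ∧
      v.valuation ((P.map (mapRingHom (algebraMap E₀ F))).evalEval x y) = 1 ∧
      res v x = res v x₀ ∧ res v y = res v y₀ := by
  have key : ∀ S : Subring F, π ∈ S → (∀ a ∈ B, a ∈ S) →
      ∀ r ∈ Subring.closure (insert x (insert y (E₀ : Set F))), r ∈ S := fun S h1 h2 => by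
    refine Subring.closure_le.2 ?_
    rintro a (rfl | rfl | ha)
    · rw [hx]; exact add_mem (h2 _ hx₀) (mul_mem (h2 _ hc) h1)
    · rw [hy]; exact add_mem (h2 _ hy₀) (mul_mem (h2 _ hd) h1)
    · exact h2 a (hB ha)
  have h1 := key v.toSubring (resb_mem' hπ) hv
  have hxv : x ∈ v := h1 x (Subring.subset_closure (Or.inl rfl))
  have hyv : y ∈ v := h1 y (Subring.subset_closure (Or.inr (Or.inl rfl)))
  have hs : ∀ {u u₀ e : F}, u ∈ v → u₀ ∈ B → e ∈ B → u = u₀ + e * π → res v u = res v u₀ :=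
    fun {u u₀ e} hu hu₀ he e1 => (res_eq_iff v hu (hv _ hu₀)).2 (by
      rw [e1, add_sub_cancel_left, map_mul]
      exact mul_lt_one_of_nonneg_of_lt_one_right ((v.valuation_le_one_iff e).2 (hv e he))
        zero_le hπ)
  have hE : ∀ c : E₀, algebraMap E₀ F c ∈ v := fun c => hv _ (hB c.2)
  have hr : ∀ {u w : F} (hu : u ∈ v) (hw : w ∈ v), res v (nice_ev (algebraMap E₀ F) u w P) =
      nice_ev ((IsLocalRing.residue v).comp ((algebraMap E₀ F).codRestrict v hE)) (res v u)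
        (res v w) P := fun {u w} hu hw => by
    have e1 := nice_comp v.subtype ((algebraMap E₀ F).codRestrict v hE) ⟨u, hu⟩ ⟨w, hw⟩ P
    have e2 := nice_comp (IsLocalRing.residue v) ((algebraMap E₀ F).codRestrict v hE)
      ⟨u, hu⟩ ⟨w, hw⟩ P
    rw [← resb_coe, ← resb_coe, ← resb_coe] at e2
    exact (congrArg (res v) e1.symm).trans e2
  refine ⟨h1, key (Subfield.closure _).toSubring (Subfield.subset_closure (Or.inl rfl))
    fun a ha => Subfield.subset_closure (Or.inr ha), ?_, hs hxv hx₀ hc hx, hs hyv hy₀ hd hy⟩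
  rw [nice_map]
  refine resb_unit (nice_mem _ v.toSubring hE hxv hyv P) ?_
  rw [hr hxv hyv, hs hxv hx₀ hc hx, hs hyv hy₀ hd hy, ← hr (hv _ hx₀) (hv _ hy₀)]
  exact resb_res_ne (hv.val_eq_one
    (nice_mem _ B.toSubring (fun c => hB c.2) hx₀ hy₀ P) h0)

theorem nice_frame {E₀ : IntermediateField k F} {x y : F} (h : Frame E₀ x y) (a b : k) :
    x - algebraMap k F a ≠ 0 ∧
      Frame E₀ x ((y - algebraMap k F b) / (x - algebraMap k F a)) := by
  have h0 : x - algebraMap k F a ≠ 0 := fun e =>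
    h.ind.left (sub_eq_zero.1 e ▸ isAlgebraic_algebraMap a)
  have h1 : (x - algebraMap k F a)⁻¹ ∈ hf E₀ x :=
    inv_mem (sub_mem (mem_hf E₀ x) (_root_.algebraMap_mem _ a))
  have := h.change h1 (inv_ne_zero h0) (neg_mem (mul_mem h1 (_root_.algebraMap_mem _ b)))
  refine ⟨h0, ?_⟩
  rwa [← sub_eq_add_neg, ← mul_sub, mul_comm, ← div_eq_mul_inv] at this

theorem nice_alg {v : ValuationSubring F} {R : Subring F} {θ δ : F} (hD : EtD R θ δ)
    (hRO : ∀ r ∈ R, r ∈ v) {κ : Type*} [Field κ] [Algebra κ (Res v)]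
    (L : IntermediateField κ (Res v)) (hL : ∀ r ∈ R, res v r ∈ L) : IsAlgebraic L (res v θ) := by
  obtain ⟨-, m, hm, hc, h0, -⟩ := hD
  have hθ : θ ∈ v := mem_of_monic v hm (fun i => hRO _ (hc i)) h0
  obtain ⟨p, rfl, -, hp⟩ := lifts_and_natDegree_eq_and_monic (f := R.subtype)
    ((lifts_iff_coeff_lifts m).2 fun i => ⟨⟨_, hc i⟩, rfl⟩) hm
  have hL' : ∀ r : R, nice_rho R v hRO r ∈ L := fun r => by
    rw [nice_rho_apply]; exact hL r r.2
  refine IsIntegral.isAlgebraic ⟨p.map ((nice_rho R v hRO).codRestrict L hL'), hp.map _, ?_⟩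
  have e1 : eval₂ (R.subtype.codRestrict v fun a => hRO a a.2) ⟨θ, hθ⟩ p = 0 := by
    apply v.subtype_injective
    rw [hom_eval₂, map_zero, ← h0, eval_map]
    rfl
  have e2 := hom_eval₂ p (R.subtype.codRestrict v fun a => hRO a a.2) (IsLocalRing.residue v) ⟨θ, hθ⟩
  rw [e1, map_zero, ← resb_coe] at e2
  rw [eval₂_map]
  exact e2.symm

variable [IsAlgClosed k]

theorem gen_of_etD {E₀ : IntermediateField k F} {x y : F}
    (hf : Frame E₀ x y) {θ : F} {P : E₀[X][X]}
    (hD : EtD (Subring.closure (insert x (insert y (E₀ : Set F)))) θ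
      ((P.map (mapRingHom (algebraMap E₀ F))).evalEval x y)) {a b : k}
    (hab : P.evalEval (algebraMap k E₀ a) (algebraMap k E₀ b) ≠ 0) :
    Gen k ((y - algebraMap k F b) / (x - algebraMap k F a)) := by
  obtain ⟨h0, hxt⟩ := nice_frame hf a b
  set t := (y - algebraMap k F b) / (x - algebraMap k F a) with ht
  have htx := hxt.symm
  refine ⟨htx.ind.left, fun z hz => ?_⟩
  obtain ⟨v, hv, hπ⟩ := exists_val_at (nice_trans htx) a
  have hle : adjoin k (insert t (E₀ : Set F)) ≤ P019.E.hf E₀ t := adjoin_le_iff.2 (subset_acl _)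
  have hv1 : Sub (adjoin k (insert t (E₀ : Set F))) v := fun c hc => hv c (hle hc)
  have hv2 : Sub (adjoin k (E₀ : Set F)) v := fun c hc =>
    hv1 c (adjoin.mono _ _ _ (Set.subset_insert _ _) hc)
  have hl3 : k⟮t⟯ ≤ adjoin k (insert t (E₀ : Set F)) :=
    adjoin.mono _ _ _ (Set.singleton_subset_iff.2 (Set.mem_insert _ _))
  have hv3 : Sub k⟮t⟯ v := fun c hc => hv1 c (hl3 hc)
  obtain ⟨hRO, hR, hδ, rx, ry⟩ := nice_data (B := adjoin k (insert t (E₀ : Set F))) (x := x) (y := y)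
    (fun c hc => subset_adjoin _ _ (Or.inr hc)) hv1 hπ (_root_.algebraMap_mem _ a) (_root_.algebraMap_mem _ b)
    (one_mem _) (subset_adjoin _ _ (Or.inl rfl)) (by ring) (by rw [ht]; field_simp; ring) (P := P)
    (by
      have := nice_comp (algebraMap E₀ F) (RingHom.id E₀) (algebraMap k E₀ a) (algebraMap k E₀ b) P
      rw [← nice_id, RingHom.comp_id] at this
      exact fun h => hab ((_root_.map_eq_zero _).1 (this.trans h)))
  have hP := res_pio (E₁ := (adjoin k (insert t (E₀ : Set F))).toSubfield) hv1 h0 hπ hD hRO hR hδ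
  haveI := resK_isAlgClosed k v
  have hE0 : ∀ c ∈ E₀, res v c ∈ adjoin (resK k v) (res v '' (E₀ : Set F)) := fun c hc =>
    subset_adjoin _ _ ⟨c, hc, rfl⟩
  have hθ : res v θ ∈ acl (resK k v) (res v '' (E₀ : Set F)) := by
    refine (mem_acl_iff _ _).2 (nice_alg hD hRO _ fun r hr => ?_)
    rw [← nice_rho_apply _ v hRO ⟨r, hr⟩]
    induction hr using Subring.closure_induction with
    | mem c hc =>
      rw [nice_rho_apply]
      rcases hc with rfl | rfl | hc
      · exact rx ▸ hE0 _ (_root_.algebraMap_mem _ a)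
      · exact ry ▸ hE0 _ (_root_.algebraMap_mem _ b)
      · exact hE0 c hc
    | zero => exact map_zero (nice_rho _ v hRO) ▸ zero_mem _
    | one => exact map_one (nice_rho _ v hRO) ▸ one_mem _
    | add c d hc hd ic id => exact map_add (nice_rho _ v hRO) ⟨c, hc⟩ ⟨d, hd⟩ ▸ add_mem ic id
    | neg c hc ic => exact map_neg (nice_rho _ v hRO) ⟨c, hc⟩ ▸ neg_mem ic
    | mul c d hc hd ic id => exact map_mul (nice_rho _ v hRO) ⟨c, hc⟩ ⟨d, hd⟩ ▸ mul_mem ic id
  have htr : Transcendental (acl (resK k v) (res v '' (E₀ : Set F))) (res v t) := fun ha => by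
    have h1 := ffb_trans (fun c hc => (mem_acl_iff _ c).1 hc) ha
    have h2 : ∀ c ∈ extendScalars (le_hf E₀ t), c ∈ v := hv
    rw [← nice_rho_apply _ v h2 ⟨t, mem_hf E₀ t⟩] at h1
    have h3 : ∀ c : E₀, nice_rho E₀ v (fun c hc => hv c (le_hf E₀ t hc)) c ∈
        adjoin (resK k v) (res v '' (E₀ : Set F)) := fun c => by
      rw [nice_rho_apply]; exact hE0 c c.2
    refine nice_tr0 htx (isAlgebraic_iff.1 (IsAlgebraic.of_ringHom_of_comp_eq
      ((nice_rho E₀ v _).codRestrict _ h3) _ h1 (fun r => ?_) (RingHom.injective _) rfl))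
    obtain ⟨w, hw, e⟩ := (nice_img hv2 _).1 r.2
    rw [adjoin_self] at hw
    exact ⟨⟨w, hw⟩, Subtype.ext ((nice_rho_apply _ v _ _).trans e)⟩
  set E' := acl (resK k v) (res v '' (E₀ : Set F)) with hE'
  have hsub : ∀ c ∈ adjoin k (insert t (E₀ : Set F)), res v c ∈ E'⟮res v t⟯ := fun c hc => by
    have h1 := (nice_img hv1 _).2 ⟨c, hc, rfl⟩
    have h2 : adjoin (resK k v) (res v '' insert t (E₀ : Set F)) ≤
        (E'⟮res v t⟯).restrictScalars (resK k v) := by
      rw [adjoin_le_iff]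
      rintro _ ⟨d, rfl | hd, rfl⟩
      · exact mem_adjoin_simple_self E' _
      · exact _root_.algebraMap_mem E'⟮res v t⟯ (⟨_, subset_acl _ ⟨d, hd, rfl⟩⟩ : E')
    exact h2 h1
  have hpi : IsPurelyInseparable E'⟮res v t⟯ (Res v) := by
    refine (isPurelyInseparable_iff_pow_mem _ (ringExpChar (Res v))).2 fun u => ?_
    obtain ⟨j, hj⟩ := hP u
    have h2 : Subfield.closure (insert (res v θ) (res v ''
        ((adjoin k (insert t (E₀ : Set F))).toSubfield : Set F))) ≤ (E'⟮res v t⟯).toSubfield := by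
      rw [Subfield.closure_le]
      rintro _ (rfl | ⟨d, hd, rfl⟩)
      · exact _root_.algebraMap_mem E'⟮res v t⟯ (⟨_, hθ⟩ : E')
      · exact hsub d hd
    exact ⟨j, ⟨_, h2 hj⟩, rfl⟩
  have hzB : z ∈ P019.E.hf E₀ t := (mem_acl_iff _ _).2 (ffb_mono hl3 hz.isIntegral.isAlgebraic)
  have hev : eval₂ (nice_rho k⟮t⟯ v hv3) (res v z) (minpoly k⟮t⟯ z) = 0 := by
    have e1 : eval₂ ((algebraMap k⟮t⟯ F).codRestrict v fun c => hv3 c c.2) ⟨z, hv z hzB⟩
        (minpoly k⟮t⟯ z) = 0 := by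
      apply v.subtype_injective
      rw [hom_eval₂, map_zero, ← minpoly.aeval k⟮t⟯ z]
      rfl
    have e2 := hom_eval₂ (minpoly k⟮t⟯ z) ((algebraMap k⟮t⟯ F).codRestrict v fun c => hv3 c c.2)
      (IsLocalRing.residue v) ⟨z, hv z hzB⟩
    rw [e1, map_zero, ← resb_coe] at e2
    exact e2.symm
  have himg := nice_img hv3
  rw [Set.image_singleton] at himg
  have s1 : IsSeparable (resK k v)⟮res v t⟯ (res v z) := nice_sep _ _
    (fun c : k⟮t⟯ => (himg _).2 ⟨c, c.2, (nice_rho_apply _ v _ c).symm⟩) hz hev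
  have s2 : IsSeparable E'⟮res v t⟯ (res v z) := nice_sep _ _
    (fun c : k⟮t⟯ => (nice_rho_apply _ v hv3 c).symm ▸ hsub c (hl3 c.2)) hz hev
  obtain ⟨z', hz'⟩ := IsPurelyInseparable.inseparable _ _ s2
  obtain ⟨w, hw, e⟩ := (himg _).1 (rt E' (fun u _ hu => minpoly.mem_range_of_degree_eq_one _ u
    (IsAlgClosed.degree_eq_one_of_irreducible _ (minpoly.irreducible hu.isIntegral))) htr
    (hz' ▸ z'.2) s1)
  rw [← nice_rho_apply _ v hv ⟨w, hle (hl3 hw)⟩, ← nice_rho_apply _ v hv ⟨z, hzB⟩] at e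
  have e' : w = z := congrArg Subtype.val ((nice_rho _ v hv).injective e)
  exact e' ▸ hw

theorem Frame.exists_nice (hℓ : (ℓ : k) ≠ 0) {n : ℕ} (h : IsPF k F (n + 1))
    {E₀ : IntermediateField k F} {x y : F} (hf : Frame E₀ x y) :
    ∃ G : k → k → Prop, Zar G ∧ ∀ a b, G a b →
      Nice ℓ n E₀ ((y - algebraMap k F b) / (x - algebraMap k F a)) x := by
  obtain ⟨θ, P, hP, hD⟩ := hf.exists_etD h
  refine ⟨_, zar hP, fun a b hab => ?_⟩
  have hG := gen_of_etD hf hD hab
  obtain ⟨h0, hxt⟩ := nice_frame hf a b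
  set t := (y - algebraMap k F b) / (x - algebraMap k F a) with ht
  have hy : y = algebraMap k F b + t * (x - algebraMap k F a) := by rw [ht]; field_simp; ring
  have hℓ' : (ℓ : F) ≠ 0 := by
    rw [← map_natCast (algebraMap k F)]; exact (_root_.map_ne_zero _).2 hℓ
  have hs : ∀ s : k, (nice_sub (algebraMap k E₀ a) (algebraMap k E₀ b) P).evalEval
      (algebraMap k E₀ s) (algebraMap k E₀ a) ≠ 0 := fun s => by
    rw [nice_id, nice_ev_sub, ← nice_id]
    simpa using hab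
  refine ⟨hG, hxt.symm, ⟨_, zar (P := nice_sub (algebraMap k E₀ a) (algebraMap k E₀ b) P)
    fun e => hs 0 (by rw [e, evalEval_zero]), fun s => ⟨a, hs s⟩, fun a' b' hab' =>
      good_of_etD (θ := θ) hℓ hxt.symm ?_ hab'⟩, ?_⟩
  · rw [nice_map, nice_ev_sub]
    change EtD _ θ (nice_ev _ x (algebraMap k F b + t * (x - algebraMap k F a)) P)
    rw [← hy, ← nice_map]
    refine EtD.mono (Subring.closure_le.2 ?_) hD
    have hx : x ∈ Subring.closure (insert t (insert x (E₀ : Set F))) :=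
      Subring.subset_closure (Or.inr (Or.inl rfl))
    have hk : ∀ c ∈ E₀, c ∈ Subring.closure (insert t (insert x (E₀ : Set F))) := fun c hc =>
      Subring.subset_closure (Or.inr (Or.inr hc))
    rintro c (rfl | rfl | hc)
    · exact hx
    · rw [SetLike.mem_coe, hy]
      exact add_mem (hk _ (_root_.algebraMap_mem _ b)) (mul_mem (Subring.subset_closure (Or.inl rfl))
        (sub_mem hx (hk _ (_root_.algebraMap_mem _ a))))
    · exact hk c hc
  rintro (_ | s)
  · obtain ⟨v, hv, hπ⟩ := exists_val_at (nice_trans hf.symm) a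
    obtain ⟨hRO, hR, hδ, -⟩ := nice_data (x := x) (y := y) (le_hf E₀ y) hv hπ (_root_.algebraMap_mem _ a)
      (mem_hf E₀ y) (one_mem _) (zero_mem _) (by ring) (by ring) (P := P) (by
        have := nice_ne (nice_tr0 hf.symm) (C (algebraMap k E₀ a)) Polynomial.X
          (algebraMap k E₀ b) (P := P)
          (by simpa using hab)
        rwa [aeval_C, aeval_X] at this)
    have h1 := vis (E₁ := (P019.E.hf E₀ y).toSubfield) hℓ' hv h0 hπ hD hRO hR hδ
    have h2 := (nice_frame hf.symm b a).1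
    have h3 : y - algebraMap k F b ∈ P019.E.hf E₀ y := sub_mem (mem_hf E₀ y) (_root_.algebraMap_mem _ b)
    refine ⟨v, _, hf.symm.flat h, hv, ?_, fun h4 => h1 ?_⟩
    · rw [ht, map_div₀, hv.val_eq_one h3 h2, one_div]
      exact (one_lt_inv₀ (zero_lt_iff.2 ((_root_.map_ne_zero _).2 h0))).2 hπ
    · rw [ht, cl_div h2 h0] at h4
      simpa using sub_mem (hv.Hs_le (cl_mem_Hs h3)) h4
  · obtain ⟨v, hv, hπ⟩ := exists_val_at (nice_trans hxt) s
    have h3 : x - algebraMap k F a ∈ P019.E.hf E₀ x := sub_mem (mem_hf E₀ x) (_root_.algebraMap_mem _ a)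
    obtain ⟨hRO, hR, hδ, -⟩ := nice_data (x := x) (y := y) (le_hf E₀ x) hv hπ (mem_hf E₀ x)
      (add_mem (_root_.algebraMap_mem _ b) (mul_mem (_root_.algebraMap_mem _ s) h3)) (zero_mem _) h3 (by ring)
      (by rw [hy]; ring) (P := P) (by
        have := nice_ne (nice_tr0 hf) Polynomial.X (C (algebraMap k E₀ b) + C (algebraMap k E₀ s) *
          (Polynomial.X - C (algebraMap k E₀ a))) (algebraMap k E₀ a) (P := P) (by simpa using hab)
        rwa [map_add, map_mul, map_sub, aeval_C, aeval_C, aeval_C, aeval_X] at this)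
    exact ⟨v, _, hf.flat h, hv, hπ, vis (E₁ := (P019.E.hf E₀ x).toSubfield) hℓ' hv
      (nice_frame hxt.symm s 0).1 hπ hD hRO hR hδ⟩

end P019.E
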