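import Vale.Agent.P019.E.Alpha
import Vale.Agent.P019.E.Nice

/-!
P019 E/Eta: `Θ = r • α_*`.
Let `η u = Θ (cl u) - r • cl (α u)`; it is multiplicative on nonzero elements, zero on constants.
PLAN. `eta_co`: `cl (x - a) = lc x (single a 1)`, `α x - σ a ∈ D` (`Rel.mem`, `exists_co`).
`eta_line`: on the line `y - b = c (x - a)` through a point `(a', b')` of `G`, with `v, w`:
`cl (y - b) ≡ cl (x - a)` mod `Nv v`, `α y - σ b ≡ σ c (α x - σ a)` at `w` (`Rel.tr`; the right side is a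
unit: `line_sub`, `Rel.ne_const`), so `η (y - b) - η (x - a) ∈ Nv w`, `lc y m' - lc x m ∈ Nv v`;
`LineV.lc_sub` and `Good` give `m a' = m' b'`.
`eta_zero`: (S1) `g` general independent of `t`, frame `(g, t)`, `G`; coordinates for `t` vanish, so the
coordinates of `η (g - a)` vanish at every `a'` with `∃ b', G a' b'` (line of slope one through
`(a', b')`), i.e. outside a finite set `S` independent of `a`.
(S2) if `t₁` is nice with partner `g` then `η (t₁ - s) = 0` for all `s`: to test the coordinate at `s'`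
take `a' ∉ S` with `G' s' a'` and the line of slope one. (S3) `Frame.exists_nice` for the frame
`(g, t)`: `t₁ = (t - b) / (g - a)`, so `η (g - a) = η (t - b) - η t₁ = 0` for almost all `a`. For the
frame `(g, g t)` (`Frame.change`) and a point `(a, s a)` of `G` with `η (g - a) = 0` (`Zar.org`,
`Zar.line`): `t₁ - s = g (t - s) / (g - a)`, so `η g = 0`. (S4) `u = (u y) / y` with `y`, `u y` general
and independent of `t` (`exists_gen`).
-/

namespace P019.E

open IntermediateField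

variable {ℓ : ℕ} [Fact ℓ.Prime] {k K l M : Type*} [Field k] [Field K] [Algebra k K] [Field l]
  [Field M] [Algebra l M] [IsAlgClosed k] [IsAlgClosed l] {Θ : V ℓ K ≃ₗ[ZMod ℓ] V ℓ M} {n : ℕ}
  {σ : k ≃+* l}

/-- the defect of `Θ` against `r • α_*` -/
noncomputable def eta_f (Θ : V ℓ K ≃ₗ[ZMod ℓ] V ℓ M) (α : K →+* M) (r : ZMod ℓ) (u : K) : V ℓ M :=
  Θ (cl ℓ u) - r • cl ℓ (α u)

theorem eta_mul (α : K →+* M) (r : ZMod ℓ) {u w : K} (hu : u ≠ 0) (hw : w ≠ 0) :
    eta_f Θ α r (u * w) = eta_f Θ α r u + eta_f Θ α r w := by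
  unfold eta_f
  rw [cl_mul hu hw, map_mul, cl_mul ((map_ne_zero α).2 hu) ((map_ne_zero α).2 hw), map_add,
    smul_add]
  abel

theorem eta_div (α : K →+* M) (r : ZMod ℓ) {u w : K} (hu : u ≠ 0) (hw : w ≠ 0) :
    eta_f Θ α r (u / w) = eta_f Θ α r u - eta_f Θ α r w := by
  have := eta_mul (Θ := Θ) α r (div_ne_zero hu hw) hw
  rw [div_mul_cancel₀ _ hw] at this
  rw [this]
  abel

theorem eta_ne {k F : Type*} [Field k] [Field F] [Algebra k F] {x : F} (hx : Transcendental k x)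
    (a : k) : x - algebraMap k F a ≠ 0 := fun e =>
  hx (by rw [sub_eq_zero.1 e]; exact isAlgebraic_algebraMap a)

theorem eta_co (h : Dat k l Θ n) {α : K →+* M} (hα : ∀ x, Gen k x → Rel Θ σ x (α x))
    (hk : ∀ a : k, α (algebraMap k K a) = algebraMap l M (σ a)) (r : ZMod ℓ) {x : K}
    (hx : Gen k x) (a : k) : ∃ m : k →₀ ZMod ℓ, Θ (lc ℓ k x m) =
      Θ (cl ℓ (x - algebraMap k K a)) - r • cl ℓ (α (x - algebraMap k K a)) := by
  obtain ⟨D, hD⟩ := exists_LC h hx.1
  have hmem : α x - algebraMap l M (σ a) ∈ D :=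
    D.sub_mem (Rel.mem h (hα x hx) hD) (D.algebraMap_mem _)
  obtain ⟨m₁, hm₁⟩ := exists_co h hx hD ⟨_, hmem⟩
  refine ⟨Finsupp.single a 1 - r • m₁, ?_⟩
  have e : Θ (lc ℓ k x m₁) = cl ℓ (α x - algebraMap l M (σ a)) := hm₁
  rw [map_sub, map_smul, map_sub, map_smul, lc_single, one_smul, e, map_sub α, hk]

theorem eta_line [PerfectField M] (h : Dat k l Θ n) {α : K →+* M}
    (hα : ∀ x, Gen k x → Rel Θ σ x (α x))
    (hk : ∀ a : k, α (algebraMap k K a) = algebraMap l M (σ a)) (r : ZMod ℓ)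
    {E₀ : IntermediateField k K} {x y : K} (hf : Frame E₀ x y) (hx : Gen k x) (hy : Gen k y)
    {G : k → k → Prop} (hZ : Zar G) (hG : ∀ a b, G a b → Good ℓ E₀ x y a b) {c : k} (hc : c ≠ 0)
    {a b a' b' : k} (hab : G a' b') (hl : b' - b = c * (a' - a)) {m m' : k →₀ ZMod ℓ}
    (hm : Θ (lc ℓ k x m) =
      Θ (cl ℓ (x - algebraMap k K a)) - r • cl ℓ (α (x - algebraMap k K a)))
    (hm' : Θ (lc ℓ k y m') =
      Θ (cl ℓ (y - algebraMap k K b)) - r • cl ℓ (α (y - algebraMap k K b))) :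
    m a' = m' b' := by
  have hd : c * a + (b - c * a) = b := by ring
  have hd' : c * a' + (b - c * a) = b' := by linear_combination -hl
  have hd'' : b' - c * a' = b - c * a := by linear_combination hl
  generalize b - c * a = d at hd hd' hd''
  obtain ⟨v, hv⟩ := hf.exists_lineV c d
  obtain ⟨w, hw⟩ := line_corr h hf hv
  obtain ⟨Dx, hDx⟩ := exists_LC h hx.1
  obtain ⟨Dy, hDy⟩ := exists_LC h hy.1
  have hsub := (line_sub h hf hc hv hw hDx hDy).1
  have htr := Rel.tr h hf hx hy hZ hG hc ⟨a', by rw [hd']; exact hab⟩ hv hw (hα x hx) (hα y hy)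
  have hc' : algebraMap l M (σ c) ≠ 0 := by simpa using hc
  have hx0 : α x - algebraMap l M (σ a) ≠ 0 := sub_ne_zero.2 (Rel.ne_const h hx (hα x hx) _)
  have hmem : algebraMap l M (σ c) * (α x - algebraMap l M (σ a)) ∈ Dx :=
    Dx.mul_mem (Dx.algebraMap_mem _)
      (Dx.sub_mem (Rel.mem h (hα x hx) hDx) (Dx.algebraMap_mem _))
  have h1 : cl ℓ (α (y - algebraMap k K b)) - cl ℓ (α (x - algebraMap k K a)) ∈ Nv ℓ w := by
    have h2 := cl_sub_mem_Nv (ℓ := ℓ) (O := w) (a := α y - algebraMap l M (σ b))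
      (b := algebraMap l M (σ c) * (α x - algebraMap l M (σ a))) (by
        rw [hsub.val_eq_one hmem (mul_ne_zero hc' hx0)]
        have e : α y - algebraMap l M (σ b) -
            algebraMap l M (σ c) * (α x - algebraMap l M (σ a)) =
            α y - (algebraMap l M (σ c) * α x + algebraMap l M (σ d)) := by
          rw [← hd]
          simp only [map_add, map_mul]
          ring
        rw [e]
        exact htr)
    rw [cl_mul hc' hx0, cl_algebraMap, zero_add] at h2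
    rw [map_sub α, map_sub α, hk, hk]
    exact h2
  have h3 : cl ℓ (y - algebraMap k K b) - cl ℓ (x - algebraMap k K a) ∈ Nv ℓ v := by
    have h4 := LineV.lc_sub (ℓ := ℓ) hx.1 hc hv (Finsupp.single a 1)
    rwa [Finsupp.mapDomain_single, hd, lc_single, lc_single, one_smul, one_smul] at h4
  have h5 : Θ (cl ℓ (y - algebraMap k K b) - cl ℓ (x - algebraMap k K a)) ∈ Nv ℓ w := by
    rw [← hw.2]
    exact Submodule.mem_map_of_mem h3
  have h6 : Θ (lc ℓ k y m' - lc ℓ k x m) ∈ Nv ℓ w := by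
    have h7 := (Nv ℓ w).sub_mem h5 ((Nv ℓ w).smul_mem r h1)
    have e : Θ (lc ℓ k y m' - lc ℓ k x m) =
        Θ (cl ℓ (y - algebraMap k K b) - cl ℓ (x - algebraMap k K a)) -
          r • (cl ℓ (α (y - algebraMap k K b)) - cl ℓ (α (x - algebraMap k K a))) := by
      rw [map_sub Θ, map_sub Θ, hm, hm', smul_sub]
      abel
    rw [e]
    exact h7
  have h8 : lc ℓ k y m' - lc ℓ k x m ∈ Nv ℓ v := by
    rw [← hw.2] at h6
    obtain ⟨ξ, hξ, e⟩ := h6
    have e' : ξ = lc ℓ k y m' - lc ℓ k x m := Θ.injective e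
    rw [← e']
    exact hξ
  have hinj : Function.Injective fun s : k => c * s + d := fun s s' e =>
    mul_left_cancel₀ hc (add_right_cancel e)
  obtain ⟨m₀, rfl⟩ : ∃ m₀ : k →₀ ZMod ℓ, m' = m₀.mapDomain fun s => c * s + d := by
    refine ⟨m'.mapDomain fun s => c⁻¹ * (s - d), ?_⟩
    rw [← Finsupp.mapDomain_comp]
    have e : ((fun s : k => c * s + d) ∘ fun s => c⁻¹ * (s - d)) = id := by
      funext s
      simp only [Function.comp, id]
      field_simp
      ring
    rw [e, Finsupp.mapDomain_id]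
  have h9 : lc ℓ k x (m₀ - m) ∈ Nv ℓ v := by
    have h10 := (Nv ℓ v).sub_mem h8 (LineV.lc_sub (ℓ := ℓ) hx.1 hc hv m₀)
    have e : lc ℓ k x (m₀ - m) =
        lc ℓ k y (m₀.mapDomain fun s => c * s + d) - lc ℓ k x m -
          (lc ℓ k y (m₀.mapDomain fun s => c * s + d) - lc ℓ k x m₀) := by
      rw [map_sub]
      abel
    rw [e]
    exact h10
  have h11 := hG a' b' hab c v (by rw [hd'']; exact hv) _ h9
  rw [Finsupp.sub_apply, sub_eq_zero] at h11
  rw [← h11, ← hd']
  exact (Finsupp.mapDomain_apply hinj m₀ a').symm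

/-- the coordinates of the defect on the `g`-line vanish outside a finite set -/
theorem eta_one [PerfectField M] (h : Dat k l Θ n) {α : K →+* M}
    (hα : ∀ x, Gen k x → Rel Θ σ x (α x))
    (hk : ∀ a : k, α (algebraMap k K a) = algebraMap l M (σ a)) {r : ZMod ℓ}
    {E₀ : IntermediateField k K} {g t : K} (hf : Frame E₀ g t) (hg : Gen k g) (ht : Gen k t)
    (h0 : ∀ a : k, eta_f Θ α r (t - algebraMap k K a) = 0) :
    ∃ S : Set k, S.Finite ∧ ∀ (a : k) (m : k →₀ ZMod ℓ),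
      Θ (lc ℓ k g m) = eta_f Θ α r (g - algebraMap k K a) → ∀ a', a' ∉ S → m a' = 0 := by
  obtain ⟨G, hZ, hG⟩ := hf.exists_good h.hk h.pfK
  refine ⟨_, hZ.fst, fun a m hm a' ha' => ?_⟩
  obtain ⟨b', hb'⟩ : ∃ b', G a' b' := by simpa using ha'
  have e : Θ (lc ℓ k t 0) = eta_f Θ α r (t - algebraMap k K (b' - (a' - a))) := by
    rw [h0, map_zero, map_zero]
  exact eta_line h hα hk r hf hg ht hZ hG one_ne_zero hb' (by ring) hm e

/-- the defect vanishes on a nice line -/
theorem eta_two [PerfectField M] (h : Dat k l Θ n) {α : K →+* M}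
    (hα : ∀ x, Gen k x → Rel Θ σ x (α x))
    (hk : ∀ a : k, α (algebraMap k K a) = algebraMap l M (σ a)) {r : ZMod ℓ}
    {E₀ : IntermediateField k K} {g t : K} (hg : Gen k g) {S : Set k} (hS : S.Finite)
    (H : ∀ (a : k) (m : k →₀ ZMod ℓ),
      Θ (lc ℓ k g m) = eta_f Θ α r (g - algebraMap k K a) → ∀ a', a' ∉ S → m a' = 0)
    (ht : Nice ℓ n E₀ t g) (s : k) : eta_f Θ α r (t - algebraMap k K s) = 0 := by
  obtain ⟨ht1, hf, ⟨G, hZ, hall, hG⟩, -⟩ := ht
  obtain ⟨m, hm⟩ := eta_co h hα hk r ht1 s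
  have hm0 : m = 0 := by
    ext s'
    obtain ⟨b, hb⟩ := hall s'
    obtain ⟨a', ha'⟩ := ((hZ.vert s' b hb).union hS).exists_notMem
    have ha1 : G s' a' := by
      by_contra hn
      exact ha' (Or.inl hn)
    obtain ⟨m', hm'⟩ := eta_co h hα hk r hg (a' - (s' - s))
    rw [eta_line h hα hk r hf ht1 hg hZ hG one_ne_zero ha1 (by ring) hm hm']
    exact H _ m' hm' a' fun hn => ha' (Or.inr hn)
  rw [hm0, map_zero, map_zero] at hm
  exact hm.symm

/-- the defect vanishes at general elements independent of `t` -/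
theorem eta_three [PerfectField M] (h : Dat k l Θ n) {α : K →+* M}
    (hα : ∀ x, Gen k x → Rel Θ σ x (α x))
    (hk : ∀ a : k, α (algebraMap k K a) = algebraMap l M (σ a)) {r : ZMod ℓ}
    {g t : K} (hi : Ind k t g) (hg : Gen k g) (ht : Gen k t)
    (h0 : ∀ a : k, eta_f Θ α r (t - algebraMap k K a) = 0) : eta_f Θ α r g = 0 := by
  obtain ⟨E₀, hf⟩ := h.pfK.exists_frame hi.symm
  obtain ⟨S, hS, H⟩ := eta_one h hα hk hf hg ht h0
  have hg0 : g ≠ 0 := by simpa using eta_ne hg.1 0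
  obtain ⟨G, hZ, hG⟩ := hf.exists_nice h.hk h.pfK
  have h1 : ∀ a, (∃ b, G a b) → eta_f Θ α r (g - algebraMap k K a) = 0 := by
    rintro a ⟨b, hb⟩
    have h2 := eta_two h hα hk hg hS H (hG a b hb) 0
    rw [map_zero, sub_zero, eta_div α r (eta_ne ht.1 b) (eta_ne hg.1 a), h0, zero_sub,
      neg_eq_zero] at h2
    exact h2
  have hf' : Frame E₀ g (g * t + 0) := hf.change (mem_hf E₀ g) hg0 (zero_mem _)
  obtain ⟨G', hZ', hG'⟩ := hf'.exists_nice h.hk h.pfK
  obtain ⟨s, hs⟩ := hZ'.org.exists_notMem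
  obtain ⟨a₀, ha₀⟩ : ∃ a, G' a (s * a) := by simpa using hs
  obtain ⟨a, ha⟩ := ((hZ'.line a₀ (s * a₀) s ha₀).union hZ.fst).exists_notMem
  have ha1 : G' a (s * a₀ + s * (a - a₀)) := by
    by_contra hn
    exact ha (Or.inl hn)
  have ha2 : ∃ b, G a b := by
    by_contra hn
    exact ha (Or.inr hn)
  have h3 := eta_two h hα hk hg hS H (hG' _ _ ha1) s
  have e : (g * t + 0 - algebraMap k K (s * a₀ + s * (a - a₀))) / (g - algebraMap k K a) -
      algebraMap k K s = g * (t - algebraMap k K s) / (g - algebraMap k K a) := by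
    have := eta_ne hg.1 a
    simp only [map_add, map_mul, map_sub]
    field_simp
    ring
  rw [e, eta_div α r (mul_ne_zero hg0 (eta_ne ht.1 s)) (eta_ne hg.1 a),
    eta_mul α r hg0 (eta_ne ht.1 s), h0, h1 a ha2, add_zero, sub_zero] at h3
  exact h3

theorem eta_zero [PerfectField M] (h : Dat k l Θ n) {α : K →+* M}
    (hα : ∀ x, Gen k x → Rel Θ σ x (α x))
    (hk : ∀ a : k, α (algebraMap k K a) = algebraMap l M (σ a)) {r : ZMod ℓ} {t : K}
    (ht : Gen k t)
    (h0 : ∀ a : k, Θ (cl ℓ (t - algebraMap k K a)) = r • cl ℓ (α (t - algebraMap k K a)))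
    (u : K) : Θ (cl ℓ u) = r • cl ℓ (α u) := by
  classical
  by_cases hu : u = 0
  · subst hu
    have e : cl ℓ (0 : K) = 0 := by simp [cl]
    have e' : cl ℓ (0 : M) = 0 := by simp [cl]
    rw [map_zero α, e, e', map_zero, smul_zero]
  have h1 : ∀ a : k, eta_f Θ α r (t - algebraMap k K a) = 0 := fun a => sub_eq_zero.2 (h0 a)
  obtain ⟨y, hy⟩ := exists_gen h.pfK h.one_le {(1, 0), (u, 0)}
    (by simp [hu]) {t} (by simpa using ht.1)
  have hy1 := hy (1, 0) (by simp)
  have hy2 := hy (u, 0) (by simp)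
  simp only [one_mul, add_zero, Finset.mem_singleton, forall_eq] at hy1 hy2
  have hy0 : y ≠ 0 := by simpa using eta_ne hy1.1.1 0
  have h2 := eta_three h hα hk hy2.2 hy2.1 ht h1
  rw [eta_mul α r hu hy0, eta_three h hα hk hy1.2 hy1.1 ht h1, add_zero] at h2
  exact sub_eq_zero.1 h2

end P019.E
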