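import Vale.Agent.P019.E.PF

/-!
P019 E/Etx: existence of etale data; the plane curve `δ = 0`.
PLAN. `exists_etD`: `S = separableClosure A F` is finite over `A`, `θ₀` a primitive element,
`F` is purely inseparable over `S`. Every element of `A` is a quotient of elements of `R`
(`Subfield.mem_closure_iff`/`IsFractionRing`). Replace `θ₀` by `r θ₀` with `r ∈ R` a common
denominator of the coefficients of the minimal polynomial (`scaleRoots`), so the minimal polynomial
`m` has coefficients in `R`. `m'(θ) ≠ 0`, its inverse is a polynomial in `θ` over `A`; clear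
denominators.
`zar`: `P(a + .., b + c (s - a))` is a polynomial in `s` over `R`, nonzero at `s = a`, so it has
finitely many roots. For `fst`, `par`, `org`: the substitutions `Y ↦ c X + Y`, `Y ↦ X Y` are injective
on `R[X][Y]`; a nonzero bivariate polynomial `P'` has a nonzero coefficient, a univariate polynomial
with finitely many roots; outside them the specialised univariate polynomial is nonzero and has a
nonroot in the infinite field `k`. (`Polynomial.Bivariate.swap` exchanges variables.)
-/

namespace P019.E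

open IntermediateField Polynomial

variable {k F : Type*} [Field k] [Field F] [Algebra k F]

theorem etx_den {R : Subring F} {a : F} (ha : a ∈ Subfield.closure (R : Set F)) :
    ∃ r ∈ R, r ≠ 0 ∧ r * a ∈ R := by
  obtain ⟨y, hy, z, hz, rfl⟩ := Subfield.mem_closure_iff.1 ha
  rw [Subring.closure_eq] at hy hz
  by_cases h0 : z = 0
  · exact ⟨1, R.one_mem, one_ne_zero, by rw [h0, div_zero, mul_zero]; exact R.zero_mem⟩
  · exact ⟨z, hz, h0, by rwa [mul_div_cancel₀ _ h0]⟩

theorem etx_dens {R : Subring F} (c : ℕ → F) (hc : ∀ j, c j ∈ Subfield.closure (R : Set F))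
    (n : ℕ) : ∃ r ∈ R, r ≠ 0 ∧ ∀ j < n, r * c j ∈ R := by
  induction n with
  | zero => exact ⟨1, R.one_mem, one_ne_zero, fun j hj => absurd hj (Nat.not_lt_zero j)⟩
  | succ n ih =>
    obtain ⟨r, h1, h2, h3⟩ := ih
    obtain ⟨s, h4, h5, h6⟩ := etx_den (hc n)
    refine ⟨s * r, R.mul_mem h4 h1, mul_ne_zero h5 h2, fun j hj => ?_⟩
    rcases Nat.lt_succ_iff_lt_or_eq.1 hj with h | rfl
    · rw [mul_assoc]
      exact R.mul_mem h4 (h3 j h)
    · rw [mul_comm s, mul_assoc]
      exact R.mul_mem h1 h6

theorem exists_etD {d : ℕ} (h : IsPF k F d) (A : IntermediateField k F)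
    [Algebra.IsAlgebraic A F] (R : Subring F) (hR : Subfield.closure (R : Set F) = A.toSubfield) :
    ∃ θ δ : F, δ ∈ R ∧ δ ≠ 0 ∧ EtD R θ δ := by
  have := h.finite_sep A
  have hA : ∀ a : A, (a : F) ∈ Subfield.closure (R : Set F) := fun a => hR ▸ a.2
  obtain ⟨α, hα⟩ := Field.exists_primitive_element A (separableClosure A F)
  have hS : separableClosure A F = A⟮(α : F)⟯ := by
    rw [← lift_adjoin_simple, hα, lift_top]
  have hi : IsIntegral A (α : F) := Algebra.IsIntegral.isIntegral _
  obtain ⟨r, hr, hr0, hm⟩ := etx_dens (fun j => ((minpoly A (α : F)).coeff j : F)) (fun j => hA _)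
    (minpoly A (α : F)).natDegree
  have hrA : r ∈ A := by
    have h1 : r ∈ A.toSubfield := hR ▸ Subfield.subset_closure hr
    exact h1
  have hr0' : (⟨r, hrA⟩ : A) ≠ 0 := fun h => hr0 (congrArg Subtype.val h)
  set θ : F := (⟨r, hrA⟩ : A) • (α : F) with hθ
  have hsep : IsSeparable A θ := mem_separableClosure_iff.1 ((separableClosure A F).smul_mem α.2)
  obtain ⟨a, b, hab⟩ : IsCoprime (minpoly A θ) (derivative (minpoly A θ)) := hsep
  obtain ⟨δ, hδ, hδ0, hb⟩ := etx_dens (fun j => (b.coeff j : F)) (fun j => hA _) (b.natDegree + 1)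
  refine ⟨θ, δ, hδ, hδ0, fun u => ?_, (minpoly A θ).map (algebraMap A F),
    (minpoly.monic (Algebra.IsIntegral.isIntegral _)).map _, fun j => ?_, ?_,
    δ * aeval θ b, ?_, ?_⟩
  · obtain ⟨n, z, hz⟩ := IsPurelyInseparable.pow_mem (separableClosure A F)
      (ringExpChar (separableClosure A F)) u
    have := expChar_of_injective_algebraMap (algebraMap (separableClosure A F) F).injective
      (ringExpChar (separableClosure A F))
    refine ⟨n, ?_⟩
    rw [ringExpChar.eq F (ringExpChar (separableClosure A F)), ← hz]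
    have h1 : (z : F) ∈ (A⟮(α : F)⟯).toSubfield := hS ▸ z.2
    rw [adjoin_toSubfield] at h1
    refine Subfield.closure_le.2 ?_ h1
    have h2 : Subfield.closure (R : Set F) ≤ Subfield.closure (insert θ (R : Set F)) :=
      Subfield.closure_mono (Set.subset_insert _ _)
    rintro w (⟨c, rfl⟩ | rfl)
    · exact h2 (hA c)
    · have e : (α : F) = r⁻¹ * θ := by
        rw [hθ, Algebra.smul_def, ← mul_assoc]
        exact ((congrArg (· * (α : F)) (inv_mul_cancel₀ hr0)).trans (one_mul _)).symm
      rw [e]
      exact mul_mem (inv_mem (h2 (Subfield.subset_closure hr)))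
        (Subfield.subset_closure (Set.mem_insert _ _))
  · rw [hθ, IsIntegrallyClosed.minpoly_smul hr0' hi, coeff_map, coeff_scaleRoots, map_mul, map_pow]
    rcases lt_trichotomy j (minpoly A (α : F)).natDegree with hj | hj | hj
    · obtain ⟨e, he⟩ : ∃ e, (minpoly A (α : F)).natDegree - j = e + 1 := ⟨_, (Nat.sub_add_cancel
        (Nat.sub_pos_of_lt hj)).symm⟩
      rw [he, pow_succ', ← mul_assoc, mul_comm _ (algebraMap A F ⟨r, hrA⟩)]
      exact R.mul_mem (hm j hj) (R.pow_mem hr e)
    · rw [hj, (minpoly.monic hi).coeff_natDegree, Nat.sub_self, pow_zero, map_one, mul_one]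
      exact R.one_mem
    · rw [coeff_eq_zero_of_natDegree_lt hj, map_zero, zero_mul]
      exact R.zero_mem
  · rw [eval_map_algebraMap, minpoly.aeval]
  · rw [aeval_eq_sum_range, Finset.mul_sum]
    refine sum_mem fun j hj => ?_
    rw [Algebra.smul_def, ← mul_assoc]
    exact mul_mem (Subring.subset_closure (Set.mem_insert_of_mem _ (hb j (Finset.mem_range.1 hj))))
      (pow_mem (Subring.subset_closure (Set.mem_insert _ _)) j)
  · have h1 := congrArg (aeval θ) hab
    rw [map_add, map_mul, map_mul, minpoly.aeval, mul_zero, zero_add, map_one] at h1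
    rw [derivative_map, eval_map_algebraMap, mul_assoc, h1, mul_one]

theorem EtD.mono {R R' : Subring F} (h : R ≤ R') {θ δ : F} (hE : EtD R θ δ) :
    EtD R' θ δ := by
  obtain ⟨h1, m, h2, h3, h4, b, h5, h6⟩ := hE
  have hs : insert θ (R : Set F) ⊆ insert θ (R' : Set F) := Set.insert_subset_insert h
  refine ⟨fun u => ?_, m, h2, fun j => h (h3 j), h4, b, Subring.closure_mono hs h5, h6⟩
  obtain ⟨j, hj⟩ := h1 u
  exact ⟨j, Subfield.closure_mono hs hj⟩

theorem etx_fin {ι R : Type*} [CommRing R] [IsDomain R] {f : ι → R} (hf : Function.Injective f)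
    {Q : R[X]} (hQ : Q ≠ 0) : {s | Q.eval (f s) = 0}.Finite :=
  (finite_setOf_isRoot hQ).preimage hf.injOn

theorem etx_eval {R : Type*} [CommRing R] (P : R[X][X]) (q : R[X]) (x : R) :
    (P.eval q).eval x = P.evalEval x (q.eval x) := by
  rw [← eval₂_evalRingHom]
  exact (eval₂_hom (evalRingHom x) q).symm

theorem etx_sub [Infinite k] {R : Type*} [CommRing R] [IsDomain R] [Algebra k R] {P : R[X][X]}
    (hP : P ≠ 0) {q : k → R[X]} (hq : Function.Injective q) {g : k → k → k}
    (h : ∀ d a, (q d).eval (algebraMap k R a) = algebraMap k R (g d a)) :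
    {d | ¬ ∃ a, P.evalEval (algebraMap k R a) (algebraMap k R (g d a)) ≠ 0}.Finite := by
  refine (etx_fin hq hP).subset fun d hd => ?_
  by_contra h0
  refine Set.infinite_univ ((etx_fin (algebraMap k R).injective h0).subset fun a _ => ?_)
  by_contra h1
  exact hd ⟨a, by rwa [← h, ← etx_eval]⟩

theorem zar [Infinite k] {R : Type*} [CommRing R] [IsDomain R] [Algebra k R] {P : R[X][X]}
    (hP : P ≠ 0) : Zar fun a b : k => P.evalEval (algebraMap k R a) (algebraMap k R b) ≠ 0 := by
  have hi := (algebraMap k R).injective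
  refine ⟨fun a b c h => ?_, fun a b h => ?_, ?_, fun c => ?_, ?_⟩
  · have e : ∀ s : k, (P.eval (C (algebraMap k R b) +
        C (algebraMap k R c) * (Polynomial.X - C (algebraMap k R a)))).eval (algebraMap k R s) =
        P.evalEval (algebraMap k R s) (algebraMap k R (b + c * (s - a))) := fun s => by
      rw [etx_eval]
      simp
    refine (etx_fin hi (Q := P.eval (C (algebraMap k R b) +
      C (algebraMap k R c) * (Polynomial.X - C (algebraMap k R a)))) fun h0 => h ?_).subset
      fun s hs => (e s).trans (not_not.1 hs)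
    have h1 := e a
    rw [h0, eval_zero, sub_self, mul_zero, add_zero] at h1
    exact h1.symm
  · refine (etx_fin hi (Q := P.map (evalRingHom (algebraMap k R a))) fun h0 => h ?_).subset
      fun s hs => (map_evalRingHom_eval _ _ P).trans (not_not.1 hs)
    rw [← map_evalRingHom_eval, h0, eval_zero]
  · refine (etx_fin hi (leadingCoeff_ne_zero.2 hP)).subset fun a ha => ?_
    by_contra h0
    have h1 : P.map (evalRingHom (algebraMap k R a)) ≠ 0 := fun h1 => h0 (by
      have h2 := congrArg (fun p => coeff p P.natDegree) h1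
      simpa using h2)
    refine Set.infinite_univ ((etx_fin hi h1).subset fun b _ => ?_)
    by_contra h2
    exact ha ⟨b, by rwa [← map_evalRingHom_eval]⟩
  · refine etx_sub hP (q := fun d => C (algebraMap k R c) * Polynomial.X + C (algebraMap k R d))
      (fun d d' h => hi (C_injective (add_left_cancel h))) (g := fun d a => c * a + d)
      fun d a => by simp
  · refine etx_sub hP (q := fun c => C (algebraMap k R c) * Polynomial.X)
      (fun d d' h => hi (C_injective (mul_right_cancel₀ X_ne_zero h))) (g := fun c a => c * a)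
      fun d a => by simp

/-- etale data for a frame -/
theorem Frame.exists_etD {d : ℕ} (h : IsPF k F d) {E₀ : IntermediateField k F} {x y : F}
    (hf : Frame E₀ x y) : ∃ (θ : F) (P : E₀[X][X]), P ≠ 0 ∧
      EtD (Subring.closure (insert x (insert y (E₀ : Set F)))) θ
        ((P.map (mapRingHom (algebraMap E₀ F))).evalEval x y) := by
  have : Algebra.IsAlgebraic ((adjoin E₀ {x, y}).restrictScalars k) F := hf.2
  obtain ⟨θ, δ, h1, h2, h3⟩ := P019.E.exists_etD h ((adjoin E₀ {x, y}).restrictScalars k)
    (Subring.closure (insert x (insert y (E₀ : Set F)))) (by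
      refine le_antisymm (Subfield.closure_le.2 ?_) ?_
      · refine Subring.closure_le (t := (adjoin E₀ {x, y}).toSubfield.toSubring).2 ?_
        rintro w (rfl | rfl | hw)
        · exact subset_adjoin _ _ (by simp)
        · exact subset_adjoin _ _ (by simp)
        · exact (adjoin E₀ {x, y}).algebraMap_mem ⟨w, hw⟩
      · refine le_trans (le_of_eq (adjoin_toSubfield E₀ {x, y})) (Subfield.closure_mono ?_)
        rintro w (⟨c, rfl⟩ | rfl | rfl)
        · exact Subring.subset_closure (Or.inr (Or.inr c.2))
        · exact Subring.subset_closure (Or.inl rfl)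
        · exact Subring.subset_closure (Or.inr (Or.inl rfl)))
  have h4 : Subring.closure (insert x (insert y (E₀ : Set F))) ≤
      ((evalEvalRingHom x y).comp (mapRingHom (mapRingHom (algebraMap E₀ F)))).range := by
    refine Subring.closure_le.2 ?_
    rintro w (rfl | rfl | hw)
    · exact ⟨C Polynomial.X, by simp⟩
    · exact ⟨Polynomial.X, by simp⟩
    · exact ⟨C (C ⟨w, hw⟩), by simp⟩
  obtain ⟨P, rfl⟩ := h4 h1
  exact ⟨θ, P, fun h0 => h2 (by rw [h0, map_zero]), h3⟩

end P019.E
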