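import Vale.Agent.P019.E.Lift
import Vale.Agent.P019.Fam

/-!
P019 E/Final: the theorem.
-/

namespace P019.E

open IntermediateField

theorem final {ℓ : ℕ} [Fact ℓ.Prime] {k K l L : Type*} [Field k] [Field K] [Algebra k K]
    [Field l] [Field L] [Algebra l L] [IsAlgClosed k] [IsAlgClosed l]
    (hKfg : (⊤ : IntermediateField k K).FG) (hLfg : (⊤ : IntermediateField l L).FG)
    (hK2 : 2 ≤ Algebra.trdeg k K) (hL2 : 2 ≤ Algebra.trdeg l L)
    (hk : (ℓ : k) ≠ 0) (hl : (ℓ : l) ≠ 0) (Θ : V ℓ K ≃ₗ[ZMod ℓ] V ℓ L)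
    (hR : (R ℓ K).map (TensorProduct.map Θ.toLinearMap Θ.toLinearMap) = R ℓ L) :
    Function.Bijective (vmap ℓ (algebraMap K (Perf K))) ∧
    Function.Bijective (vmap ℓ (algebraMap L (Perf L))) ∧
    ∃ (c : (ZMod ℓ)ˣ) (α : Perf K ≃+* Perf L),
      α '' Set.range (algebraMap k (Perf K)) = Set.range (algebraMap l (Perf L)) ∧
      ∀ v : V ℓ K, vmap ℓ (algebraMap L (Perf L)) (Θ v) =
        (c : ZMod ℓ) • vmap ℓ α.toRingHom (vmap ℓ (algebraMap K (Perf K)) v) := by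
  have hΘ := compat_of_R Θ hR
  obtain ⟨d, hK, hd⟩ := isFF_of_fg hKfg
  obtain ⟨e, hL, he⟩ := isFF_of_fg hLfg
  have hd2 : 2 ≤ d := by rw [hd] at hK2; exact_mod_cast hK2
  have he2 : 2 ≤ e := by rw [he] at hL2; exact_mod_cast hL2
  obtain rfl : d = e := le_antisymm (dim_le hk hK hL hd2 hΘ) (dim_le hl hL hK he2 hΘ.symm)
  obtain ⟨r, rfl⟩ : ∃ r, d = r + 2 := ⟨d - 2, by omega⟩
  have hKℓ : (ℓ : K) ≠ 0 := by
    rw [← map_natCast (algebraMap k K)]; exact (map_ne_zero _).2 hk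
  have hLℓ : (ℓ : L) ≠ 0 := by
    rw [← map_natCast (algebraMap l L)]; exact (map_ne_zero _).2 hl
  have s₁ := strong_all hk hl hK hL hΘ
  have s₂ : ∀ (a : ℕ) (D : IntermediateField l L), Flat D a →
      ∃ E : IntermediateField k K, Flat E a ∧ FC Θ E D := fun a D hD => by
    obtain ⟨E, hE, h⟩ := strong_all hl hk hL hK hΘ.symm a D hD
    exact ⟨E, hE, by simpa using FC.symm (Θ := Θ.symm) h⟩
  exact ⟨vmap_bijective_of_pi hKℓ _, vmap_bijective_of_pi hLℓ _,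
    final_of_flats (n := r + 1) hk hl hK hL (by omega) hΘ (s₁ 1) (s₂ 1) (s₁ _) (s₂ _)⟩

end P019.E
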