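import Vale.Agent.P019.E.PF

/-!
P019 E/Kum: Kummer theory, the kernel of `V A → V F` is finite dimensional.
PLAN. `kf`: choose roots `r i ^ ℓ = u i` in `E`. The `ℓ ^ j` monomials `∏ r i ^ a i`
(`a : Fin j → Fin ℓ`) are linearly independent over `F`. Proof: embed `E` in an algebraic closure
`Ω`; let `G` be the group of `F`-automorphisms of `Ω` (or of the normal field `F(r)`); each monomial
`ρ` is an eigenvector, `g ρ = χ_ρ(g) ρ` with `χ_ρ : G →* Ωˣ` (values are `ℓ`-th roots of unity, these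
lie in `k`). Different monomials have different characters: otherwise the quotient `ρ / ρ'` is fixed by
`G`, and it is separable over `F` (root of `X ^ ℓ - c`), so it lies in `F`, contradicting independence
of the classes. Eigenvectors with distinct characters are independent (`linearIndependent_monoidHom`
applied to `∑ c_a χ_a(g) ρ_a = 0` for all `g`). An induction on `j` with
`X_pow_sub_C_irreducible_of_prime` is also possible.
`ker_finLe`: `S = separableClosure A F` is finite over `A` (`IsPF.finite_sep`); an `ℓ`-th root of an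
element of `A` is separable over `A`; `finLe_of_bound` with `N = finrank A S` (`j < ℓ ^ j`).
-/

namespace P019.E

open IntermediateField

variable {ℓ : ℕ} [Fact ℓ.Prime] {k F : Type*} [Field k] [Field F] [Algebra k F] [IsAlgClosed k]

theorem kum_root (k : Type*) [Field k] [Algebra k F] [IsAlgClosed k] {Ω : Type*} [Field Ω]
    [Algebra F Ω] {z : Ω} (hz : z ^ ℓ = 1) : ∃ c : F, algebraMap F Ω c = z := by
  let : Algebra k Ω := ((algebraMap F Ω).comp (algebraMap k F)).toAlgebra
  have h1 : IsIntegral k z := IsIntegral.of_pow (Fact.out : ℓ.Prime).pos (hz ▸ isIntegral_one)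
  obtain ⟨c, hc⟩ := minpoly.mem_range_of_degree_eq_one k z
    (IsAlgClosed.degree_eq_one_of_irreducible k (minpoly.irreducible h1))
  exact ⟨algebraMap k F c, hc⟩

omit [Fact ℓ.Prime] in
theorem kum_sep (hℓ : (ℓ : F) ≠ 0) {Ω : Type*} [Field Ω] [Algebra F Ω] {z : Ω} {c : F} (hc : c ≠ 0)
    (hz : z ^ ℓ = algebraMap F Ω c) : IsSeparable F z :=
  (Polynomial.separable_X_pow_sub_C c hℓ hc).of_dvd (minpoly.dvd F z (by simp [hz]))

theorem kum_core (hℓ : (ℓ : k) ≠ 0) {Ω : Type*} [Field Ω] [Algebra F Ω] [Normal F Ω]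
    {j : ℕ} (u : Fin j → F) (hu : LinearIndependent (ZMod ℓ) fun i => cl ℓ (u i)) (r : Fin j → Ω)
    (hr : ∀ i, r i ^ ℓ = algebraMap F Ω (u i)) :
    LinearIndependent F fun a : Fin j → ZMod ℓ => ∏ i, r i ^ (a i).val := by
  have hp : ℓ ≠ 0 := (Fact.out : ℓ.Prime).ne_zero
  have hF : (ℓ : F) ≠ 0 := by
    rw [← map_natCast (algebraMap k F)]
    exact (map_ne_zero _).2 hℓ
  have u0 : ∀ i, u i ≠ 0 := fun i h => hu.ne_zero i (by rw [h, cl_zero])
  set ρ : (Fin j → ZMod ℓ) → Ω := fun a => ∏ i, r i ^ (a i).val with hρ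
  set c : (Fin j → ZMod ℓ) → F := fun a => ∏ i, u i ^ (a i).val with hc
  have c0 : ∀ a, c a ≠ 0 := fun a => Finset.prod_ne_zero_iff.2 fun i _ => pow_ne_zero _ (u0 i)
  have h1 : ∀ a, ρ a ^ ℓ = algebraMap F Ω (c a) := fun a => by
    simp only [hρ, hc, ← Finset.prod_pow, map_prod, map_pow, ← hr, ← pow_mul, mul_comm]
  have ρ0 : ∀ a, ρ a ≠ 0 := fun a h => by
    have := h1 a
    rw [h, zero_pow hp] at this
    exact (map_ne_zero _).2 (c0 a) this.symm
  have h2 : ∀ a (g g' : Ω ≃ₐ[F] Ω), g (g' (ρ a) / ρ a) = g' (ρ a) / ρ a := fun a g g' => by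
    obtain ⟨e, he⟩ := kum_root (ℓ := ℓ) (F := F) k (z := g' (ρ a) / ρ a) (by
      rw [div_pow, ← map_pow, h1, AlgEquiv.commutes, div_self ((map_ne_zero _).2 (c0 a))])
    rw [← he, AlgEquiv.commutes]
  let χ : (Fin j → ZMod ℓ) → (Ω ≃ₐ[F] Ω) →* Ω := fun a =>
    { toFun := fun g => g (ρ a) / ρ a
      map_one' := div_self (ρ0 a)
      map_mul' := fun g g' => by
        have h3 := h2 a g g'
        have h4 : g (ρ a) ≠ 0 := (map_ne_zero _).2 (ρ0 a)
        rw [map_div₀, div_eq_iff h4] at h3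
        rw [AlgEquiv.mul_apply, h3]
        ring }
  have h3 : Function.Injective χ := fun a b h => by
    have h4 : (ρ a / ρ b) ^ ℓ = algebraMap F Ω (c a / c b) := by rw [div_pow, h1, h1, map_div₀]
    have h5 := kum_sep hF (div_ne_zero (c0 a) (c0 b)) h4
    have h6 : ρ a / ρ b ∈ (⊥ : Subalgebra F Ω) := by
      by_contra h6
      obtain ⟨y, hy, h7⟩ := (notMem_iff_exists_ne_and_isConjRoot h5 (Normal.splits ‹_› _)).1 h6
      obtain ⟨g, hg⟩ := h7.symm.exists_algEquiv
      have h8 : g (ρ a) / ρ a = g (ρ b) / ρ b := DFunLike.congr_fun h g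
      have h9 : g (ρ b) ≠ 0 := (map_ne_zero _).2 (ρ0 b)
      rw [div_eq_div_iff (ρ0 a) (ρ0 b)] at h8
      refine hy ?_
      rw [← hg, map_div₀, div_eq_div_iff (ρ0 b) h9, h8, mul_comm]
    obtain ⟨e, he⟩ := Algebra.mem_bot.1 h6
    rw [← he, ← map_pow] at h4
    have h7 := (cl_eq_zero_iff (ℓ := ℓ) (div_ne_zero (c0 a) (c0 b))).2
      ⟨e, (algebraMap F Ω).injective h4⟩
    rw [cl_div (c0 a) (c0 b), cl_prod _ _ fun i _ => pow_ne_zero _ (u0 i),
      cl_prod _ _ fun i _ => pow_ne_zero _ (u0 i), ← Finset.sum_sub_distrib] at h7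
    simp only [cl_pow, ZMod.natCast_zmod_val, ← sub_smul] at h7
    exact funext fun i => sub_eq_zero.1 (Fintype.linearIndependent_iff.1 hu _ h7 i)
  refine Fintype.linearIndependent_iff.2 fun s hs a => ?_
  have h4 := Fintype.linearIndependent_iff.1 ((linearIndependent_monoidHom _ Ω).comp χ h3)
    (fun a => s a • ρ a) (funext fun g => by
      have h5 := congrArg g hs
      rw [map_zero, map_sum] at h5
      rw [Finset.sum_apply, Pi.zero_apply, ← h5]
      refine Finset.sum_congr rfl fun a _ => ?_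
      change (s a • ρ a) * (g (ρ a) / ρ a) = _
      rw [map_smul, smul_mul_assoc, mul_div_cancel₀ _ (ρ0 a)]) a
  exact (smul_eq_zero.1 h4).resolve_right (ρ0 a)

theorem kf (hℓ : (ℓ : k) ≠ 0) (E : Type*) [Field E] [Algebra F E] [FiniteDimensional F E]
    {j : ℕ} (u : Fin j → F) (hu : LinearIndependent (ZMod ℓ) fun i => cl ℓ (u i))
    (hr : ∀ i, ∃ r : E, r ^ ℓ = algebraMap F E (u i)) : ℓ ^ j ≤ Module.finrank F E := by
  choose r hr using hr
  have : IsAlgClosure F (AlgebraicClosure E) := IsAlgClosure.ofAlgebraic F E _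
  have h1 := kum_core hℓ u hu (fun i => algebraMap E (AlgebraicClosure E) (r i)) fun i => by
    rw [← map_pow, hr, ← IsScalarTower.algebraMap_apply]
  have h2 : LinearIndependent F fun a : Fin j → ZMod ℓ => ∏ i, r i ^ (a i).val := by
    refine LinearIndependent.of_comp (IsScalarTower.toAlgHom F E (AlgebraicClosure E)).toLinearMap ?_
    simpa [Function.comp_def] using h1
  simpa using h2.fintype_card_le_finrank

theorem ker_finLe (hℓ : (ℓ : k) ≠ 0) {d : ℕ} (h : IsPF k F d) (A : IntermediateField k F) :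
    FinLe (LinearMap.ker (vmap ℓ A.val.toRingHom)) ⊥ := by
  have := h.finite_sep A
  have hA : (ℓ : A) ≠ 0 := by
    rw [← map_natCast (algebraMap k A)]
    exact (map_ne_zero _).2 hℓ
  refine finLe_of_bound (Module.finrank A (separableClosure A F)) fun s hs h1 => ?_
  choose u u0 hu using fun i => cl_surj (s i)
  have h2 := kf hℓ (separableClosure A F) u
    (by simpa only [hu] using LinearIndependent.of_comp (Submodule.mkQ ⊥) h1) fun i => by
    have h3 := LinearMap.mem_ker.1 (hs i)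
    rw [← hu, vmap_cl] at h3
    obtain ⟨r, hr⟩ := (cl_eq_zero_iff ((map_ne_zero _).2 (u0 i))).1 h3
    exact ⟨⟨r, kum_sep hA (u0 i) hr⟩, Subtype.ext hr⟩
  exact absurd (Nat.lt_pow_self (Fact.out : ℓ.Prime).one_lt) (not_lt.2 (h2.trans (Nat.le_succ _)))

/-- version for a field embedding whose image contains the constants -/
theorem ker_finLe' (hℓ : (ℓ : k) ≠ 0) {d : ℕ} (h : IsPF k F d) {A : Type*} [Field A]
    (f : A →+* F) (hf : ∀ c : k, algebraMap k F c ∈ f.fieldRange) :
    FinLe (LinearMap.ker (vmap ℓ f)) ⊥ := by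
  let B : IntermediateField k F := f.fieldRange.toIntermediateField hf
  let e : A ≃+* B := f.rangeRestrictFieldEquiv
  have h1 := (ker_finLe hℓ h B).map (vmap ℓ e.symm.toRingHom)
  rw [Submodule.map_bot] at h1
  refine (FinLe.of_le fun ξ hξ => ?_).trans h1
  refine ⟨vmap ℓ e.toRingHom ξ, ?_, ?_⟩
  · exact LinearMap.mem_ker.2 ((vmap_comp _ _ ξ).trans hξ)
  · obtain ⟨a, -, rfl⟩ := cl_surj ξ
    rw [vmap_cl, vmap_cl]
    exact congrArg _ (e.symm_apply_apply a)

end P019.E
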