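import Vale.Agent.P019.E.Main
import Vale.Agent.P019.Sep

/-!
P019 E/Lift: from function fields to their perfect closures.
PLAN. `prime_ff`: `π ≠ 0` a nonunit of `v`, `z` a basis of `B` (`Flat.exists_basis`); `ZInd k v π`,
`RInd k v z`, so `res_isFF`. `exists_IRank` gives a rank `r`; `r ≤ 1` by `VInd.zInd`, `mono_indep`,
`IsFF.card_le`; `r ≠ 0`: otherwise every value is an `ℓ`-th power, `π ~ z_j ^ (ℓ ^ j)`, and the powers
`z_j ^ i` (`i < ℓ ^ j`) have values in different cosets of the value group of `B(π)` (`unr_base`), so are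
independent over `B(π)`, over which `K` is finite. `exists_canon_hull` gives `Oc ≥ v` with the same
`Uv`; if `a ∈ Oc \ v` then `1 / a` is a nonunit of `v`, transcendental over `B`, and a unit of `Oc`; every
nonzero polynomial in `1 / a` over `B` is a unit of `Oc` (`unr_base`), `K` is algebraic over `B(1 / a)`,
so `Oc = ⊤`, `Uv v = ⊤`, contradiction. Then `transport_ff`.
`Dat.of_pi`: `ι : M → M'` purely inseparable, `j = vmap ι` bijective. Flats of `M'` and `M`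
correspond: `D' ↦ D'.comap`, `D ↦ acl (ι '' D)`, with `Hs D' = (Hs D).map j` (`bas_pi`: `x ^ N ∈ M` with
`N` invertible modulo `ℓ`). Valuation rings correspond (`exists_ext`, `comap`), with
`Uv w' = (Uv w).map j`, `Nv w' = (Nv w).map j`.
-/

namespace P019.E

open IntermediateField

variable {ℓ : ℕ} [Fact ℓ.Prime] {k K l M : Type*} [Field k] [Field K] [Algebra k K] [Field l]
  [Field M] [Algebra l M] [IsAlgClosed k] [IsAlgClosed l] {Θ : V ℓ K ≃ₗ[ZMod ℓ] V ℓ M} {n : ℕ}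

omit [IsAlgClosed k] in
theorem lift_rind {v : ValuationSubring K} {B : IntermediateField k K} (hv : Sub B v) {ι : Type*}
    {y : ι → K} (hy : AlgebraicIndependent k y) (hm : ∀ i, y i ∈ B) : RInd k v y := by
  refine ga_rind (fun i => hv _ (hm i)) fun H h m => ?_
  have h1 : MvPolynomial.aeval y (MvPolynomial.map (v.comap (algebraMap k K)).subtype H) ∈ B :=
    (Algebra.adjoin_le (S := B.toSubalgebra) (Set.range_subset_iff.2 hm))
      ((Algebra.adjoin_range_eq_range_aeval k y).ge ⟨_, rfl⟩)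
  have h2 := algebraicIndependent_iff.1 hy _ (not_not.1 fun h3 => h.ne (hv.val_eq_one h1 h3))
  have h3 := congrArg (MvPolynomial.coeff m) h2
  rw [MvPolynomial.coeff_map, MvPolynomial.coeff_zero] at h3
  have h4 : ((H.coeff m : v.comap (algebraMap k K)) : k) = 0 := h3
  rw [h4, map_zero, map_zero]
  exact zero_lt_one

omit [IsAlgClosed k] in
theorem lift_zind {v : ValuationSubring K} (hv : Triv k v) {π : K} (h0 : π ≠ 0)
    (h1 : v.valuation π < 1) : ZInd k v fun _ : Fin 1 => π := by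
  refine ⟨fun _ => h0, fun m c h => ?_⟩
  rw [Finsupp.prod_fintype _ _ fun _ => zpow_zero _, Fin.prod_univ_one] at h
  have hc : c ≠ 0 := (map_ne_zero _).1 (m2b_ne h (zpow_ne_zero _ h0))
  rw [gm_triv_val hv hc, map_zpow₀, zpow_eq_one_iff_right₀ zero_le h1.ne] at h
  exact Finsupp.ext fun i => by rw [Subsingleton.elim i 0, h]; rfl

omit [IsAlgClosed k] in
theorem lift_max (hK : IsFF k K (n + 1)) {v w : ValuationSubring K} {B : IntermediateField k K}
    (hB : Flat B n) (hv : Sub B v) (h : v ≤ w) (hw : w ≠ ⊤) : w = v := by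
  refine le_antisymm (fun a ha => not_not.1 fun h1 => hw (eq_top_iff.2 fun z _ => ?_)) h
  have a0 : a ≠ 0 := fun h2 => h1 (h2 ▸ v.zero_mem)
  have b1 : v.valuation a⁻¹ < 1 := (resb_lt_one_iff v _).2 (Or.inr (by rwa [inv_inv]))
  have b0 := inv_ne_zero a0
  have hal := IsPF.alg_of_not_mem (isPF_of_isFF hK) hB fun h2 => b1.ne (hv.val_eq_one h2 b0)
  by_cases z0 : z = 0
  · exact z0 ▸ w.zero_mem
  obtain ⟨N, hN⟩ := arch_of_alg (k := B) (fun c => hv _ c.2) b0 b1 (inv_ne_zero z0)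
    (hal.isAlgebraic z⁻¹)
  have h2 : z * a⁻¹ ^ N ∈ v := by
    rw [← v.valuation_le_one_iff, map_mul, map_pow]
    rw [map_inv₀ v.valuation z] at hN
    exact ((mul_le_mul_right hN.le _).trans_eq (mul_inv_cancel₀ ((map_ne_zero _).2 z0)))
  have h3 : z = z * a⁻¹ ^ N * a ^ N := by
    rw [mul_assoc, ← mul_pow, inv_mul_cancel₀ a0, one_pow, mul_one]
  rw [h3]
  exact mul_mem (h h2) (pow_mem ha N)

theorem prime_ff (l : Type*) [Field l] [Algebra l M] [IsAlgClosed l] (hℓ : (ℓ : k) ≠ 0)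
    (hK : IsFF k K (n + 1)) (hn : 1 ≤ n) (hΘ : Compat Θ) {v : ValuationSubring K}
    {B : IntermediateField k K} (hB : Flat B n) (hv : Sub B v) (h0 : v ≠ ⊤) :
    ∃ w, Corr ℓ Θ v w := by
  obtain ⟨a, ha⟩ : ∃ a, a ∉ v := not_forall.1 fun h => h0 (eq_top_iff.2 fun a _ => h a)
  have a0 : a⁻¹ ≠ 0 := inv_ne_zero fun h2 => ha (h2 ▸ v.zero_mem)
  have a1 : v.valuation a⁻¹ < 1 := (resb_lt_one_iff v _).2 (Or.inr (by rwa [inv_inv]))
  obtain ⟨y, hy, hm⟩ := hB.exists_basis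
  have hx := lift_zind hv.triv a0 a1
  have hy' := lift_rind hv hy hm
  have hs := res_isFF hK hx hy' (by simp [add_comm])
  rw [Fintype.card_fin] at hs
  obtain ⟨r, -, hr⟩ := exists_IRank (ℓ := ℓ) hK v
  have hU : Uv ℓ v ≠ ⊤ := fun hU => by
    have h1 : Subsingleton (V ℓ K ⧸ Uv ℓ v) := Submodule.Quotient.subsingleton_iff.2 hU
    have h2 : IRank ℓ v 0 := ⟨hr.1, Module.finrank_zero_of_subsingleton⟩
    have := hK.finite (mono_indep hx hy') (by simp [add_comm])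
    have h3 := idx_of_rank (k := k) h2 (x := Fin.elim0) linearIndependent_empty_type
      (adjoin k (Set.range (Sum.elim (fun _ : Fin 1 => a⁻¹) y))) fun j => j.elim0
    exact zero_ne_one (h2.2.symm.trans (vInd_of_idx hx hy' h3).2.2)
  obtain ⟨Oc, h1, h2, h3⟩ := exists_canon_hull k hr
  have h4 : Oc = v := lift_max hK hB hv h1 fun h => hU (by rw [← h2, h, Uv_top])
  have h5 : v.valuation (ℓ : K) = 1 := by
    rw [← map_natCast (algebraMap k K)]
    exact gm_triv_val hv.triv hℓ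
  obtain ⟨w, hw, -⟩ := transport_ff l hΘ hr (h4 ▸ h3) h5 hs hn
  exact ⟨w, hw⟩

section pi
variable {M' : Type*} [Field M'] [Algebra M M'] [IsPurelyInseparable M M']

theorem lift_Hs (hℓ : (ℓ : M) ≠ 0) {s : Set M} {s' : Set M'}
    (h : ∀ x, x ∈ s ↔ algebraMap M M' x ∈ s') (hp : ∀ x ∈ s', ∀ N : ℕ, x ^ N ∈ s') :
    (Hs ℓ s).map (vmap ℓ (algebraMap M M')) = Hs ℓ s' := by
  refine le_antisymm (Submodule.map_le_iff_le_comap.2 (Submodule.span_le.2 ?_))
    (Submodule.span_le.2 ?_)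
  · rintro _ ⟨a, ha, rfl⟩
    change vmap ℓ _ (cl ℓ a) ∈ Hs ℓ s'
    rw [vmap_cl]
    exact cl_mem_Hs ((h a).1 ha)
  · rintro _ ⟨x, hx, rfl⟩
    obtain ⟨N, y, h1, h2, -⟩ := bas_pi hℓ M' x
    refine (Submodule.smul_mem_iff _ h1).1 ⟨cl ℓ y, cl_mem_Hs ((h y).2 (h2 ▸ hp x hx N)), ?_⟩
    rw [vmap_cl, h2, cl_pow]

theorem lift_corr (hℓ : (ℓ : M) ≠ 0) {v : ValuationSubring K} {W : ValuationSubring M'}
    (h : Corr ℓ Θ v (W.comap (algebraMap M M'))) :
    Corr ℓ (Θ.trans (LinearEquiv.ofBijective _ (vmap_bijective_of_pi hℓ M'))) v W := by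
  constructor
  · rw [LinearEquiv.coe_trans, Submodule.map_comp, h.1]
    refine lift_Hs hℓ (fun x => m2b_comap _ W x) fun x hx N => ?_
    rw [Set.mem_ofPred_eq] at hx ⊢
    rw [map_pow, hx, one_pow]
  · rw [LinearEquiv.coe_trans, Submodule.map_comp, h.2]
    refine lift_Hs hℓ (fun x => ?_) fun x hx N => ?_
    · rw [Set.mem_ofPred_eq, Set.mem_ofPred_eq, gb_lt, map_sub, map_one]
    · rw [Set.mem_ofPred_eq] at hx ⊢
      have h1 := resb_mem (bas_unit hx)
      rw [← res_eq_iff W h1 W.one_mem] at hx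
      rw [← res_eq_iff W (pow_mem h1 N) W.one_mem, res_pow W h1, hx, res_one, one_pow]

theorem lift_top (hℓ : (ℓ : M) ≠ 0) {W : ValuationSubring M'} (h : W ≠ ⊤) :
    W.comap (algebraMap M M') ≠ ⊤ := fun h1 => h (eq_top_iff.2 fun x _ => by
  obtain ⟨N, y, h2, h3, -⟩ := bas_pi hℓ M' x
  have h4 : y ∈ W.comap (algebraMap M M') := h1 ▸ ValuationSubring.mem_top y
  rw [ValuationSubring.mem_comap, h3, ← W.valuation_le_one_iff, map_pow,
    pow_le_one_iff_of_nonneg zero_le fun h5 => h2 (by rw [h5, Nat.cast_zero])] at h4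
  exact (W.valuation_le_one_iff x).1 h4)

variable [Algebra l M'] [IsScalarTower l M M']

omit [IsAlgClosed l] in
theorem lift_trdeg (hℓ : (ℓ : M) ≠ 0) {D : IntermediateField l M} {D' : IntermediateField l M'}
    (h : ∀ x, x ∈ D ↔ algebraMap M M' x ∈ D') (a : ℕ) :
    Algebra.trdeg l D = a ↔ Algebra.trdeg l D' = a := by
  let f : D →ₐ[l] D' := ((IsScalarTower.toAlgHom l M M').comp D.val).codRestrict D'.toSubalgebra
    fun x => (h x).1 x.2
  let _ : Algebra D D' := f.toRingHom.toAlgebra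
  have : IsScalarTower l D D' := IsScalarTower.of_algebraMap_eq fun c => (f.commutes c).symm
  have : Algebra.IsAlgebraic D D' := ⟨fun x => by
    obtain ⟨N, y, h2, h3, -⟩ := bas_pi hℓ M' (x : M')
    have h4 : x ^ N = algebraMap D D' ⟨y, (h y).2 (h3 ▸ pow_mem x.2 N)⟩ := Subtype.ext h3.symm
    exact IsAlgebraic.of_pow (Nat.pos_of_ne_zero fun h5 => h2 (by rw [h5, Nat.cast_zero]))
      (h4 ▸ isAlgebraic_algebraMap _)⟩
  have h1 := lift_trdeg_add_eq l D D'
  rw [trdeg_eq_zero (R := D), Cardinal.lift_zero, add_zero] at h1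
  rw [← Cardinal.lift_eq_nat_iff, h1, Cardinal.lift_eq_nat_iff]

omit [IsAlgClosed l] in
theorem lift_down (hℓ : (ℓ : M) ≠ 0) {D' : IntermediateField l M'} {a : ℕ} (h : Flat D' a) :
    Flat (D'.comap (IsScalarTower.toAlgHom l M M')) a := by
  refine ⟨fun z hz => h.1 _ ?_, (lift_trdeg (D' := D') hℓ (fun _ => Iff.rfl) a).2 h.2⟩
  let f : D'.comap (IsScalarTower.toAlgHom l M M') →ₐ[l] D' :=
    ((IsScalarTower.toAlgHom l M M').comp (IntermediateField.val _)).codRestrict D'.toSubalgebra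
      fun x => x.2
  exact hz.ringHom_of_comp_eq f.toRingHom (algebraMap M M') f.toRingHom.injective (by ext; rfl)

omit [IsAlgClosed l] in
theorem lift_up (hℓ : (ℓ : M) ≠ 0) {D : IntermediateField l M} {a : ℕ} (h : Flat D a) :
    ∃ D' : IntermediateField l M', Flat D' a ∧ ∀ x, x ∈ D ↔ algebraMap M M' x ∈ D' := by
  have h1 : ∀ x, x ∈ D ↔ algebraMap M M' x ∈ acl l (IsScalarTower.toAlgHom l M M' '' D) :=
    fun x => ⟨fun hx => subset_acl _ ⟨x, hx, rfl⟩, fun hx => h.1 x (by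
      rw [mem_acl_iff, ← adjoin_map, adjoin_self] at hx
      exact (isAlgebraic_ringHom_iff_of_comp_eq
        (equivMap D (IsScalarTower.toAlgHom l M M')).toRingEquiv (algebraMap M M')
        (algebraMap M M').injective (by ext; rfl)).1 hx)⟩
  exact ⟨_, ⟨fun z hz => pf_closed _ hz, (lift_trdeg hℓ h1 a).1 h.2⟩, h1⟩

omit [IsAlgClosed l] [IsAlgClosed k] [IsScalarTower l M M'] in
theorem lift_FC (hℓ : (ℓ : M) ≠ 0) {E : IntermediateField k K} {D : IntermediateField l M}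
    {D' : IntermediateField l M'} (h : ∀ x, x ∈ D ↔ algebraMap M M' x ∈ D') (hc : FC Θ E D) :
    FC (Θ.trans (LinearEquiv.ofBijective _ (vmap_bijective_of_pi hℓ M'))) E D' := by
  rw [FC] at hc ⊢
  rw [LinearEquiv.coe_trans, Submodule.map_comp, hc]
  exact lift_Hs hℓ h fun x hx N => pow_mem hx N

end pi

theorem Dat.of_pi (h : Dat k l Θ n) (M' : Type*) [Field M'] [Algebra M M'] [Algebra l M']
    [IsScalarTower l M M'] [IsPurelyInseparable M M'] :
    ∃ Θ' : V ℓ K ≃ₗ[ZMod ℓ] V ℓ M', (∀ ξ, Θ' ξ = vmap ℓ (algebraMap M M') (Θ ξ)) ∧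
      Dat k l Θ' n := by
  have hℓ : (ℓ : M) ≠ 0 := by
    rw [← map_natCast (algebraMap l M)]
    exact (map_ne_zero _).2 h.hl
  have up : ∀ {a : ℕ}, (∀ E : IntermediateField k K, Flat E a →
      ∃ D : IntermediateField l M, Flat D a ∧ FC Θ E D) → ∀ E : IntermediateField k K, Flat E a →
      ∃ D : IntermediateField l M', Flat D a ∧
        FC (Θ.trans (LinearEquiv.ofBijective _ (vmap_bijective_of_pi hℓ M'))) E D := by
    intro a H E hE
    obtain ⟨D, h1, h2⟩ := H E hE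
    obtain ⟨D', h3, h4⟩ := lift_up (M' := M') hℓ h1
    exact ⟨D', h3, lift_FC hℓ h4 h2⟩
  have down : ∀ {a : ℕ}, (∀ D : IntermediateField l M, Flat D a →
      ∃ E : IntermediateField k K, Flat E a ∧ FC Θ E D) → ∀ D : IntermediateField l M', Flat D a →
      ∃ E : IntermediateField k K, Flat E a ∧
        FC (Θ.trans (LinearEquiv.ofBijective _ (vmap_bijective_of_pi hℓ M'))) E D := by
    intro a H D hD
    obtain ⟨E, h1, h2⟩ := H _ (lift_down hℓ hD)
    exact ⟨E, h1, lift_FC hℓ (fun _ => Iff.rfl) h2⟩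
  refine ⟨Θ.trans (LinearEquiv.ofBijective _ (vmap_bijective_of_pi hℓ M')), fun _ => rfl,
    h.pfK, h.pfM.of_pi M', h.one_le, h.hk, h.hl, up h.line, down h.line', up h.hyp, down h.hyp',
    fun v B h1 h2 h3 => ?_, fun w B h1 h2 h3 => ?_⟩
  · obtain ⟨w, hw⟩ := h.prime v B h1 h2 h3
    obtain ⟨W, rfl⟩ := exists_ext (K := M') w
    exact ⟨W, lift_corr hℓ hw⟩
  · obtain ⟨v, hv⟩ := h.prime' (w.comap (algebraMap M M')) _ (lift_down hℓ h1)
      (fun a ha => h2 _ ha) (lift_top hℓ h3)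
    exact ⟨v, lift_corr hℓ hv⟩

theorem final_of_flats (hk : (ℓ : k) ≠ 0) (hl : (ℓ : l) ≠ 0) (hK : IsFF k K (n + 1))
    (hM : IsFF l M (n + 1)) (hn : 1 ≤ n) (hΘ : Compat Θ)
    (line : ∀ E : IntermediateField k K, Flat E 1 →
      ∃ D : IntermediateField l M, Flat D 1 ∧ FC Θ E D)
    (line' : ∀ D : IntermediateField l M, Flat D 1 →
      ∃ E : IntermediateField k K, Flat E 1 ∧ FC Θ E D)
    (hyp : ∀ E : IntermediateField k K, Flat E n →
      ∃ D : IntermediateField l M, Flat D n ∧ FC Θ E D)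
    (hyp' : ∀ D : IntermediateField l M, Flat D n →
      ∃ E : IntermediateField k K, Flat E n ∧ FC Θ E D) :
    ∃ (c : (ZMod ℓ)ˣ) (α : Perf K ≃+* Perf M),
      α '' Set.range (algebraMap k (Perf K)) = Set.range (algebraMap l (Perf M)) ∧
      ∀ ξ : V ℓ K, vmap ℓ (algebraMap M (Perf M)) (Θ ξ) =
        (c : ZMod ℓ) • vmap ℓ α.toRingHom (vmap ℓ (algebraMap K (Perf K)) ξ) := by
  have h : Dat k l Θ n :=
    ⟨isPF_of_isFF hK, isPF_of_isFF hM, hn, hk, hl, line, line', hyp, hyp',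
      fun v B hB hv h0 => prime_ff l hk hK hn hΘ hB hv h0,
      fun w B hB hw h0 => by
        obtain ⟨v, hv⟩ := prime_ff k hl hM hn hΘ.symm hB hw h0
        exact ⟨v, by simpa using hv.symm⟩⟩
  obtain ⟨Θ₁, e₁, h₁⟩ := h.of_pi (Perf M)
  obtain ⟨Θ₂, e₂, h₂⟩ := h₁.symm.of_pi (Perf K)
  obtain ⟨c, α, σ, hσ, hα⟩ := main_perfect h₂.symm
  refine ⟨c, α, ?_, fun ξ => ?_⟩
  · ext z
    constructor
    · rintro ⟨_, ⟨a, rfl⟩, rfl⟩
      exact ⟨σ a, (hσ a).symm⟩
    · rintro ⟨b, rfl⟩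
      exact ⟨_, ⟨σ.symm b, rfl⟩, by rw [hσ, σ.apply_symm_apply]⟩
  · obtain ⟨u, -, rfl⟩ := cl_surj ξ
    rw [vmap_cl, vmap_cl, ← e₁]
    have h3 : Θ₂.symm (cl ℓ (algebraMap K (Perf K) u)) = Θ₁ (cl ℓ u) := by
      rw [LinearEquiv.symm_apply_eq, e₂, LinearEquiv.symm_apply_apply, vmap_cl]
    rw [← h3, hα]
    rfl

end P019.E
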