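import Vale.Agent.P019.E.Defs

/-!
P019 E/Lin: linear algebra of `FinLe`; easy facts on `Hs`, `lc`, `pt`.
PLAN. `finLe_of_bound`: take a maximal family in `A` independent modulo `B` (size at most `N`); or:
the image of `A` in `W ⧸ B` has rank at most `N` (`rank_le`), so it is finitely generated; lift.
`not_finLe`: the image of `A` in `W ⧸ B` lies in a finitely generated module, so it cannot contain an
infinite independent family. `FinLe.of_map`: pull back, `Submodule.comap_map_eq`, add generators of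
the kernel and preimages of those generators which matter (work in `W ⧸ (B ⊔ ker f)`, which embeds in
`W' ⧸ B.map f`).
`vmap_inj_of_flat`: if `a = z ^ ℓ` with `a ∈ A` then `z` is algebraic over `A`.
-/

namespace P019.E

open IntermediateField

section lin
variable {ℓ : ℕ} [Fact ℓ.Prime] {W W' : Type*} [AddCommGroup W] [Module (ZMod ℓ) W]
  [AddCommGroup W'] [Module (ZMod ℓ) W']

theorem lin_lift {A : Submodule (ZMod ℓ) W} (g : W →ₗ[ZMod ℓ] W') (h : (A.map g).FG) :
    FinLe A (LinearMap.ker g) := by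
  classical
  obtain ⟨t, ht⟩ := h
  have h1 : ∀ y : W', ∃ x : W, y ∈ t → g x = y := by
    intro y
    by_cases hy : y ∈ t
    · have : y ∈ A.map g := ht ▸ Submodule.subset_span hy
      obtain ⟨x, -, hx⟩ := this
      exact ⟨x, fun _ => hx⟩
    · exact ⟨0, fun h => absurd h hy⟩
  choose u hu using h1
  refine ⟨t.image u, ?_⟩
  rw [sup_comm, ← Submodule.comap_map_eq, ← Submodule.map_le_iff_le_comap, ← ht,
    Submodule.span_le]
  intro y hy
  exact ⟨u y, Submodule.subset_span (Finset.mem_coe.mpr (Finset.mem_image_of_mem u hy)), hu y hy⟩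

theorem lin_iff {A B : Submodule (ZMod ℓ) W} : FinLe A B ↔ (A.map B.mkQ).FG := by
  constructor
  · rintro ⟨s, hs⟩
    refine Submodule.FG.of_le ((Submodule.fg_span s.finite_toSet).map B.mkQ) ?_
    refine le_trans (Submodule.map_mono hs) ?_
    rw [Submodule.map_sup, Submodule.mkQ_map_self, bot_sup_eq]
  · intro h
    have := lin_lift B.mkQ h
    rwa [Submodule.ker_mkQ] at this

theorem FinLe.of_le {A B : Submodule (ZMod ℓ) W} (h : A ≤ B) : FinLe A B := by
  exact ⟨∅, h.trans le_sup_left⟩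

theorem FinLe.trans {A B C : Submodule (ZMod ℓ) W} (h : FinLe A B) (h' : FinLe B C) :
    FinLe A C := by
  classical
  obtain ⟨s, hs⟩ := h
  obtain ⟨t, ht⟩ := h'
  refine ⟨t ∪ s, hs.trans ?_⟩
  rw [Finset.coe_union, Submodule.span_union, ← sup_assoc]
  exact sup_le_sup_right ht _

theorem FinLe.sup {A B C : Submodule (ZMod ℓ) W} (h : FinLe A C) (h' : FinLe B C) :
    FinLe (A ⊔ B) C := by
  rw [lin_iff] at h h' ⊢
  rw [Submodule.map_sup]
  exact h.sup h'

theorem FinLe.map {A B : Submodule (ZMod ℓ) W} (h : FinLe A B) (f : W →ₗ[ZMod ℓ] W') :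
    FinLe (A.map f) (B.map f) := by
  classical
  obtain ⟨s, hs⟩ := h
  refine ⟨s.image f, (Submodule.map_mono hs).trans ?_⟩
  rw [Submodule.map_sup, Submodule.map_span, Finset.coe_image]

theorem FinLe.of_map {A B : Submodule (ZMod ℓ) W} (f : W →ₗ[ZMod ℓ] W')
    (hf : FinLe (LinearMap.ker f) ⊥) (h : FinLe (A.map f) (B.map f)) : FinLe A B := by
  rw [lin_iff, ← Submodule.map_comp] at h
  have h1 := lin_lift _ h
  rw [LinearMap.ker_comp, Submodule.ker_mkQ, Submodule.comap_map_eq] at h1
  exact h1.trans ((FinLe.of_le le_rfl).sup (hf.trans (FinLe.of_le bot_le)))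

theorem finLe_of_bound {A B : Submodule (ZMod ℓ) W} (N : ℕ)
    (h : ∀ s : Fin (N + 1) → W, (∀ j, s j ∈ A) →
      ¬ LinearIndependent (ZMod ℓ) fun j => B.mkQ (s j)) : FinLe A B := by
  rw [lin_iff, ← Module.Finite.iff_fg, ← Module.rank_lt_aleph0_iff]
  by_contra hc
  have h1 : ((N + 1 : ℕ) : Cardinal) ≤ Module.rank (ZMod ℓ) (A.map B.mkQ) :=
    le_trans (Cardinal.natCast_lt_aleph0 (n := N + 1)).le (not_lt.mp hc)
  obtain ⟨v, hv⟩ := exists_linearIndependent_of_le_rank h1
  choose s hs hs' using fun j => (v j).2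
  refine h s hs ?_
  have := hv.map' (A.map B.mkQ).subtype (Submodule.ker_subtype _)
  have e : (fun j => B.mkQ (s j)) = (A.map B.mkQ).subtype ∘ v := funext hs'
  rw [e]
  exact this

theorem not_finLe {A B : Submodule (ZMod ℓ) W} {ι : Type*} [Infinite ι] (s : ι → W)
    (hs : ∀ i, s i ∈ A) (h : LinearIndependent (ZMod ℓ) fun i => B.mkQ (s i)) :
    ¬ FinLe A B := by
  rw [lin_iff, ← Module.Finite.iff_fg]
  intro hc
  have h1 : LinearIndependent (ZMod ℓ)
      fun i => (⟨B.mkQ (s i), Submodule.mem_map_of_mem (hs i)⟩ : A.map B.mkQ) :=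
    LinearIndependent.of_comp (A.map B.mkQ).subtype h
  exact not_finite_iff_infinite.mpr ‹_› h1.finite_of_isNoetherian

end lin

variable {ℓ : ℕ} [Fact ℓ.Prime] {k F : Type*} [Field k] [Field F] [Algebra k F]

theorem mem_Hs_sub (A : IntermediateField k F) (ξ : V ℓ F) :
    ξ ∈ Hs ℓ (A : Set F) ↔ ∃ a ∈ A, a ≠ 0 ∧ cl ℓ a = ξ := by
  exact mem_Hs_iff A.one_mem (fun a ha b hb => A.mul_mem ha hb) ξ

theorem Hs_eq_range (A : IntermediateField k F) :
    Hs ℓ (A : Set F) = LinearMap.range (vmap ℓ A.val.toRingHom) := by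
  ext ξ
  rw [mem_Hs_sub, LinearMap.mem_range]
  constructor
  · rintro ⟨a, ha, -, rfl⟩
    exact ⟨cl ℓ (⟨a, ha⟩ : A), vmap_cl _ _⟩
  · rintro ⟨η, rfl⟩
    obtain ⟨a, ha, rfl⟩ := cl_surj η
    exact ⟨a, a.2, fun h => ha (Subtype.ext h), (vmap_cl A.val.toRingHom a).symm⟩

theorem vmap_inj_of_flat {A : IntermediateField k F} {a : ℕ} (hA : Flat A a) :
    Function.Injective (vmap ℓ A.val.toRingHom) := by
  rw [injective_iff_map_eq_zero]
  intro η h
  obtain ⟨c, hc, rfl⟩ := cl_surj η
  rw [vmap_cl, cl_eq_zero_iff ((map_ne_zero _).mpr hc)] at h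
  obtain ⟨b, hb⟩ := h
  have h1 : b ∈ A := hA.1 b (IsAlgebraic.of_pow (Fact.out : ℓ.Prime).pos
    (hb ▸ isAlgebraic_algebraMap c))
  exact (cl_eq_zero_iff hc).mpr ⟨⟨b, h1⟩, Subtype.ext hb⟩

theorem vmap_comp {E G : Type*} [Field E] [Field G] (f : E →+* F) (g : F →+* G) (ξ : V ℓ E) :
    vmap ℓ g (vmap ℓ f ξ) = vmap ℓ (g.comp f) ξ := by
  obtain ⟨c, -, rfl⟩ := cl_surj ξ
  rw [vmap_cl, vmap_cl, vmap_cl, RingHom.comp_apply]

theorem map_Uv_le {E : Type*} [Field E] (f : E →+* F) (O : ValuationSubring F) :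
    (Uv ℓ (O.comap f)).map (vmap ℓ f) ≤ Uv ℓ O := by
  exact Submodule.map_le_iff_le_comap.mpr (m2b_le f O)

theorem map_Nv_le {E : Type*} [Field E] (f : E →+* F) (O : ValuationSubring F) :
    (Nv ℓ (O.comap f)).map (vmap ℓ f) ≤ Nv ℓ O := by
  rintro _ ⟨η, hη, rfl⟩
  obtain ⟨a, ha, rfl⟩ := (mem_Nv_iff _ _).mp hη
  rw [vmap_cl]
  refine cl_mem_Hs ?_
  show O.valuation (f a - 1) < 1
  rw [← f.map_one, ← f.map_sub]
  rw [resb_lt_one_iff] at ha ⊢
  rwa [map_eq_zero, ← map_inv₀]

theorem lin_val {O : ValuationSubring F} {a : F} (h : a ∈ O) (h' : a⁻¹ ∈ O) (h0 : a ≠ 0) :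
    O.valuation a = 1 := by
  rw [resb_eq_one_iff, resb_lt_one_iff]
  exact ⟨h, fun c => c.elim h0 fun c => c h'⟩

theorem Sub.Hs_le {A : IntermediateField k F} {O : ValuationSubring F} (h : Sub A O) :
    Hs ℓ (A : Set F) ≤ Uv ℓ O := by
  intro ξ hξ
  obtain ⟨a, ha, h0, rfl⟩ := (mem_Hs_sub A ξ).mp hξ
  exact cl_mem_Hs (lin_val (h a ha) (h _ (A.inv_mem ha)) h0)

theorem Sub.val_eq_one {A : IntermediateField k F} {O : ValuationSubring F} (h : Sub A O)
    {a : F} (ha : a ∈ A) (h0 : a ≠ 0) : O.valuation a = 1 := by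
  exact lin_val (h a ha) (h _ (A.inv_mem ha)) h0

theorem Sub.triv {A : IntermediateField k F} {O : ValuationSubring F} (h : Sub A O) :
    Triv k O := by
  exact fun c => h _ (A.algebraMap_mem c)

/-- congruent elements have congruent classes -/
theorem cl_sub_mem_Nv {O : ValuationSubring F} {a b : F}
    (h : O.valuation (a - b) < O.valuation b) : cl ℓ a - cl ℓ b ∈ Nv ℓ O := by
  have hb : b ≠ 0 := fun c => by
    rw [c, map_zero] at h
    exact not_lt_zero h
  have ha : a ≠ 0 := fun c => by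
    rw [c, zero_sub, Valuation.map_neg] at h
    exact lt_irrefl _ h
  rw [← cl_div ha hb]
  refine cl_mem_Hs ?_
  show O.valuation (a / b - 1) < 1
  rw [div_sub_one hb, map_div₀, div_lt_one₀ (lt_of_le_of_lt zero_le h)]
  exact h

theorem lc_single (x : F) (a : k) (r : ZMod ℓ) :
    lc ℓ k x (Finsupp.single a r) = r • cl ℓ (x - algebraMap k F a) := by
  exact Finsupp.linearCombination_single _ _ _

theorem lc_mem_Hs (x : F) (m : k →₀ ZMod ℓ) : lc ℓ k x m ∈ Hs ℓ (acl k {x} : Set F) := by
  induction m using Finsupp.induction_linear with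
  | zero => rw [map_zero]; exact zero_mem _
  | add m m' h h' => rw [map_add]; exact add_mem h h'
  | single a r =>
    rw [lc_single]
    exact Submodule.smul_mem _ _ (cl_mem_Hs
      ((acl k {x}).sub_mem (subset_acl {x} rfl) ((acl k {x}).algebraMap_mem a)))

theorem vmap_lc {G : Type*} [Field G] [Algebra k G] (f : F →ₐ[k] G) (x : F) (m : k →₀ ZMod ℓ) :
    vmap ℓ f.toRingHom (lc ℓ k x m) = lc ℓ k (f x) m := by
  induction m using Finsupp.induction_linear with
  | zero => rw [map_zero, map_zero, map_zero]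
  | add m m' h h' => rw [map_add, map_add, map_add, h, h']
  | single a r =>
    rw [lc_single, lc_single, map_smul, vmap_cl, map_sub]
    exact congrArg (fun z => r • cl ℓ (f x - z)) (f.commutes a)

theorem lc_shift (x : F) (b : k) (m : k →₀ ZMod ℓ) :
    lc ℓ k (x + algebraMap k F b) (m.mapDomain fun a => a + b) = lc ℓ k x m := by
  induction m using Finsupp.induction_linear with
  | zero => rw [Finsupp.mapDomain_zero, map_zero, map_zero]
  | add m m' h h' => rw [Finsupp.mapDomain_add, map_add, map_add, h, h']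
  | single a r =>
    rw [Finsupp.mapDomain_single, lc_single, lc_single, map_add, add_sub_add_right_eq_sub]

theorem pt_add (a : Option k) (m m' : k →₀ ZMod ℓ) : pt a (m + m') = pt a m + pt a m' := by
  cases a with
  | none => exact Finsupp.sum_add_index' (h := fun _ r => r) (fun _ => rfl) fun _ _ _ => rfl
  | some a => rfl

theorem pt_smul (a : Option k) (r : ZMod ℓ) (m : k →₀ ZMod ℓ) : pt a (r • m) = r * pt a m := by
  cases a with
  | none =>
    show (r • m).sum (fun _ r => r) = r * m.sum fun _ r => r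
    rw [Finsupp.sum_smul_index' fun _ => rfl, Finsupp.mul_sum]
    rfl
  | some a => rfl

theorem lin_pt_none (a : k) (r : ZMod ℓ) : pt none (Finsupp.single a r) = r :=
  Finsupp.sum_single_index (h := fun _ r => r) rfl

theorem lin_pt_same (a : k) (r : ZMod ℓ) : pt (some a) (Finsupp.single a r) = r :=
  Finsupp.single_eq_same

theorem lin_pt_ne {a b : k} (h : a ≠ b) (r : ZMod ℓ) : pt (some a) (Finsupp.single b r) = 0 :=
  Finsupp.single_eq_of_ne h

theorem lin_pt_zero (a : Option k) : pt a (0 : k →₀ ZMod ℓ) = 0 := by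
  cases a with
  | none => exact Finsupp.sum_zero_index (h := fun _ r => r)
  | some a => rfl

/-- different points have different kernels -/
theorem pt_inj [Infinite k] {a a' : Option k}
    (h : ∀ m : k →₀ ZMod ℓ, pt a m = 0 ↔ pt a' m = 0) : a = a' := by
  cases a with
  | none =>
    cases a' with
    | none => rfl
    | some a' =>
      obtain ⟨b, hb⟩ := exists_ne a'
      have := (h (Finsupp.single b 1)).mpr (lin_pt_ne hb.symm 1)
      rw [lin_pt_none] at this
      exact absurd this one_ne_zero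
  | some a =>
    cases a' with
    | none =>
      obtain ⟨b, hb⟩ := exists_ne a
      have := (h (Finsupp.single b 1)).mp (lin_pt_ne hb.symm 1)
      rw [lin_pt_none] at this
      exact absurd this one_ne_zero
    | some a' =>
      by_contra c
      have := (h (Finsupp.single a' 1)).mp (lin_pt_ne (fun d => c (congrArg some d)) 1)
      rw [lin_pt_same] at this
      exact absurd this one_ne_zero

theorem pt_ne_zero (a : Option k) : ∃ m : k →₀ ZMod ℓ, pt a m = 1 := by
  cases a with
  | none => exact ⟨Finsupp.single 0 1, lin_pt_none _ _⟩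
  | some a => exact ⟨Finsupp.single a 1, lin_pt_same _ _⟩

theorem lin_vis {x : F} {a : Option k} {U : Submodule (ZMod ℓ) (V ℓ F)} {ξ : V ℓ F} (hξ : ξ ∉ U)
    (h : ∀ (b : k) (r : ZMod ℓ),
      r • cl ℓ (x - algebraMap k F b) - pt a (Finsupp.single b r) • ξ ∈ U)
    (m : k →₀ ZMod ℓ) : lc ℓ k x m ∈ U ↔ pt a m = 0 := by
  have h1 : lc ℓ k x m - pt a m • ξ ∈ U := by
    induction m using Finsupp.induction_linear with
    | zero => rw [map_zero, lin_pt_zero, zero_smul, sub_zero]; exact zero_mem _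
    | add m m' h1 h2 =>
      rw [map_add, pt_add, add_smul, add_sub_add_comm]
      exact add_mem h1 h2
    | single b r => rw [lc_single]; exact h b r
  constructor
  · intro h2
    by_contra c
    have h3 := U.sub_mem h2 h1
    rw [sub_sub_cancel, U.smul_mem_iff c] at h3
    exact hξ h3
  · intro h2
    rwa [h2, zero_smul, sub_zero] at h1

/-- a visible point computes the coordinate (`x - a'` is a unit for `a' ≠ a`; at infinity
`[x - a'] ≡ [x]` modulo `Nv`) -/
theorem VisAt.lc_mem_iff {x : F} {a : Option k} {v : ValuationSubring F} (hv : Triv k v)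
    (h : VisAt ℓ x a v) (m : k →₀ ZMod ℓ) : lc ℓ k x m ∈ Uv ℓ v ↔ pt a m = 0 := by
  cases a with
  | none =>
    obtain ⟨h1, h2⟩ := h
    refine lin_vis h2 (fun b r => ?_) m
    rw [lin_pt_none, ← smul_sub]
    refine Submodule.smul_mem _ _ (Nv_le_Uv v (cl_sub_mem_Nv ?_))
    rw [sub_sub_cancel_left, Valuation.map_neg]
    exact lt_of_le_of_lt ((v.valuation_le_one_iff _).mpr (hv b)) h1
  | some a =>
    obtain ⟨h1, h2⟩ := h
    refine lin_vis h2 (fun b r => ?_) m
    by_cases c : a = b
    · rw [← c, lin_pt_same, sub_self]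
      exact zero_mem _
    · rw [lin_pt_ne c, zero_smul, sub_zero]
      refine Submodule.smul_mem _ _ (cl_mem_Hs ?_)
      have h3 : v.valuation (algebraMap k F (a - b)) = 1 :=
        lin_val (hv _) (by rw [← map_inv₀]; exact hv _) ((map_ne_zero _).mpr (sub_ne_zero.mpr c))
      show v.valuation (x - algebraMap k F b) = 1
      have e : x - algebraMap k F b = algebraMap k F (a - b) + (x - algebraMap k F a) := by
        rw [map_sub]
        ring
      rw [e, Valuation.map_add_eq_of_lt_left _ (h3 ▸ h1), h3]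

/-- on the line `y = c x + d` : `[y - (c a + d)] ≡ [c (x - a)] = [x - a]` -/
theorem LineV.lc_sub [IsAlgClosed k] {E₀ : IntermediateField k F} {x y : F}
    (hx : Transcendental k x) {c d : k} (hc : c ≠ 0) {v : ValuationSubring F}
    (h : LineV E₀ x y c d v) (m : k →₀ ZMod ℓ) :
    lc ℓ k y (m.mapDomain fun a => c * a + d) - lc ℓ k x m ∈ Nv ℓ v := by
  induction m using Finsupp.induction_linear with
  | zero => rw [Finsupp.mapDomain_zero, map_zero, map_zero, sub_zero]; exact zero_mem _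
  | add m m' h1 h2 =>
    rw [Finsupp.mapDomain_add, map_add, map_add, add_sub_add_comm]
    exact add_mem h1 h2
  | single a r =>
    rw [Finsupp.mapDomain_single, lc_single, lc_single, ← smul_sub]
    refine Submodule.smul_mem _ _ ?_
    have h0 : x - algebraMap k F a ≠ 0 := fun e =>
      hx (sub_eq_zero.mp e ▸ isAlgebraic_algebraMap a)
    have h1 : algebraMap k F c ≠ 0 := (map_ne_zero _).mpr hc
    have h2 : cl ℓ (x - algebraMap k F a) = cl ℓ (algebraMap k F c * (x - algebraMap k F a)) := by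
      rw [cl_mul h1 h0, cl_algebraMap, zero_add]
    have h3 : x ∈ hf E₀ x := subset_acl _ (Set.mem_insert _ _)
    have h4 : v.valuation (algebraMap k F c * (x - algebraMap k F a)) = 1 :=
      h.1.val_eq_one ((hf E₀ x).mul_mem ((hf E₀ x).algebraMap_mem c)
        ((hf E₀ x).sub_mem h3 ((hf E₀ x).algebraMap_mem a))) (mul_ne_zero h1 h0)
    rw [h2]
    refine cl_sub_mem_Nv ?_
    have e : y - algebraMap k F (c * a + d) - algebraMap k F c * (x - algebraMap k F a) =
        y - (algebraMap k F c * x + algebraMap k F d) := by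
      rw [map_add, map_mul]
      ring
    rw [h4, e]
    exact h.2

theorem FC.symm {K l M : Type*} [Field K] [Algebra k K] [Field l] [Field M] [Algebra l M]
    {Θ : V ℓ K ≃ₗ[ZMod ℓ] V ℓ M} {E : IntermediateField k K} {D : IntermediateField l M}
    (h : FC Θ E D) : FC Θ.symm D E := by
  exact (Submodule.map_symm_eq_iff Θ).mpr h

theorem Dat.symm {K l M : Type*} [Field K] [Algebra k K] [Field l] [Field M] [Algebra l M]
    {Θ : V ℓ K ≃ₗ[ZMod ℓ] V ℓ M} {n : ℕ} (h : Dat k l Θ n) : Dat l k Θ.symm n := by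
  exact ⟨h.pfM, h.pfK, h.one_le, h.hl, h.hk,
    fun E hE => (h.line' E hE).imp fun _ c => ⟨c.1, c.2.symm⟩,
    fun E hE => (h.line E hE).imp fun _ c => ⟨c.1, c.2.symm⟩,
    fun E hE => (h.hyp' E hE).imp fun _ c => ⟨c.1, c.2.symm⟩,
    fun E hE => (h.hyp E hE).imp fun _ c => ⟨c.1, c.2.symm⟩,
    fun v B h1 h2 h3 => (h.prime' v B h1 h2 h3).imp fun _ c => c.symm,
    fun v B h1 h2 h3 => (h.prime v B h1 h2 h3).imp fun _ c => c.symm⟩

end P019.E
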