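import Vale.Agent.P019.E.Pc

/-!
P019 E/Perf: if all `[t - a]` come from a subfield `A`, then `t` is purely inseparable over `A`.
PLAN. If `t` is transcendental over `A`, `ind` gives a contradiction. So `t` is algebraic over `A`.
Suppose no power `t ^ q` lies in `A`. Then the minimal polynomial of `t` over `A` has a second root
`t' ≠ t` in `Ω = AlgebraicClosure F` (`minpoly.natSepDegree_eq_one_iff_pow_mem` or similar), and there
is `τ : Ω ≃ₐ[A] Ω` with `τ t = t'`. `t` is not a constant (else `t ∈ A`), so `t, t'` are transcendental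
over `k`. Let `F' = F ⊔ τ F ⊆ Ω` : it is purely inseparable over a function field (compositum of the
models `F₀`, `τ F₀` is finitely generated; `isFF_of_fg`). From `t - a = e z ^ ℓ`, `e ∈ A`, we get
`cl (t' - a) = cl (t - a)` in `V F'` for all `a`. If `t'` is transcendental over `k(t)`, `ind` in `F'`
is contradicted. Otherwise let `D = acl t` in `F'`, a flat of dimension one containing `t, t'`;
`V D → V F'` is injective (`vmap_inj_of_flat`). Choose `a` outside the finite set of `pc_vis` and outside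
the finitely many values of `t` at zeros of `t - t'` and poles of `t'`; `Q` a place with `t ≡ a`
(`pc_ex`): `t' - a` is a unit, `cl (t - a) ∉ Uv Q`, contradiction.
-/

namespace P019.E

open IntermediateField

variable {ℓ : ℕ} [Fact ℓ.Prime] {k F : Type*} [Field k] [Field F] [Algebra k F] [IsAlgClosed k]

theorem perf_curve (hℓ : (ℓ : k) ≠ 0) (h : IsPF k F 1) {s s' : F} (hs : Transcendental k s)
    (hc : ∀ a : k, cl ℓ (s' - algebraMap k F a) = cl ℓ (s - algebraMap k F a)) : s = s' := by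
  by_contra hne
  have h1 := pc_vis hℓ h hs
  have h2 : {a : k | ∃ Q : Place k F, Q.1.valuation (s - s') ≠ 1 ∧
      Q.1.valuation (s - algebraMap k F a) < 1}.Finite := by
    refine ((pc_fin h (sub_ne_zero.2 hne)).biUnion (t := fun Q =>
      {a : k | Q.1.valuation (s - algebraMap k F a) < 1}) fun Q _ => ?_).subset ?_
    · exact Set.Subsingleton.finite fun a ha b hb => pc_val_unique Q ha hb
    · rintro a ⟨Q, hQ, ha⟩
      exact Set.mem_biUnion hQ ha
  obtain ⟨a, ha⟩ := (h1.union h2).exists_notMem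
  obtain ⟨Q, hQ⟩ := pc_ex hs a
  refine ha (Or.inl ⟨Q, hQ, ?_⟩)
  have h3 : Q.1.valuation (s - s') = 1 := by
    by_contra h3
    exact ha (Or.inr ⟨Q, h3, hQ⟩)
  rw [← hc]
  refine cl_mem_Hs ?_
  have e : s' - algebraMap k F a = s - algebraMap k F a - (s - s') := by ring
  change Q.1.valuation (s' - algebraMap k F a) = 1
  rw [e, Valuation.map_sub_eq_of_lt_right _ (h3 ▸ hQ), h3]

theorem perf_two (hℓ : (ℓ : k) ≠ 0) {d : ℕ} (h : IsPF k F d) {s s' : F} (hs : Transcendental k s)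
    (hc : ∀ a : k, cl ℓ (s' - algebraMap k F a) = cl ℓ (s - algebraMap k F a)) : s = s' := by
  by_cases h1 : IsAlgebraic k⟮s⟯ s'
  · have hD := flat_acl_one hs
    have m1 : s ∈ acl k {s} := subset_acl _ rfl
    have m2 : s' ∈ acl k {s} := (mem_acl_iff _ _).2 h1
    have h2 : (⟨s, m1⟩ : acl k {s}) = ⟨s', m2⟩ := by
      refine perf_curve hℓ (h.sub _ hD.2) (fun h3 => hs (h3.algHom (acl k {s}).val)) fun a => ?_
      refine vmap_inj_of_flat hD ?_
      rw [vmap_cl, vmap_cl]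
      exact hc a
    exact congrArg Subtype.val h2
  · refine (ind hℓ h (A := k⟮s⟯) h1 Set.infinite_univ (fun a _ => ?_) (FinLe.of_le le_rfl)).elim
    rw [hc]
    exact cl_mem_Hs (sub_mem (mem_adjoin_simple_self k s) (IntermediateField.algebraMap_mem _ a))

omit [IsAlgClosed k] in
theorem perf_comp {Ω : Type*} [Field Ω] [Algebra k Ω] {d : ℕ} (h : IsPF k F d)
    (σ τ : F →ₐ[k] Ω) : ∃ (E₀ : IntermediateField k Ω) (d' : ℕ), IsPF k (perfectClosure E₀ Ω) d' ∧
      (∀ x, σ x ∈ perfectClosure E₀ Ω) ∧ ∀ x, τ x ∈ perfectClosure E₀ Ω := by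
  obtain ⟨F₀, h1, h2⟩ := h
  have hfg : ∀ ρ : F →ₐ[k] Ω, (F₀.map ρ).FG := by
    intro ρ
    obtain ⟨t, ht, e⟩ := fg_def.1 (essFiniteType_iff.1 h1.ess)
    rw [← e, adjoin_map]
    exact fg_adjoin_of_finite (ht.image _)
  have := essFiniteType_iff.2 (fg_sup (hfg σ) (hfg τ))
  obtain ⟨d', h3, _⟩ := isFF_of_fg (fg_top k (F₀.map σ ⊔ F₀.map τ : IntermediateField k Ω))
  obtain ⟨q, hq⟩ := ExpChar.exists k
  have key : ∀ ρ : F →ₐ[k] Ω, F₀.map ρ ≤ F₀.map σ ⊔ F₀.map τ → ∀ x,
      ρ x ∈ perfectClosure (F₀.map σ ⊔ F₀.map τ : IntermediateField k Ω) Ω := by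
    intro ρ hρ x
    obtain ⟨n, y, hy⟩ := IsPurelyInseparable.pow_mem F₀ q x
    refine (mem_perfectClosure_iff_pow_mem q).2 ⟨n, ⟨ρ y, hρ ⟨y, y.2, rfl⟩⟩, ?_⟩
    rw [← map_pow, ← hy]
    rfl
  exact ⟨_, d', (isPF_of_isFF h3).of_pi _, key σ le_sup_left, key τ le_sup_right⟩

theorem perf_emb (hℓ : (ℓ : k) ≠ 0) {Ω : Type*} [Field Ω] [Algebra k Ω] {d : ℕ} (h : IsPF k F d)
    (σ τ : F →ₐ[k] Ω) {t : F} (ht : Transcendental k t)
    (hc : ∀ a : k, ∃ e z : F, e ≠ 0 ∧ z ≠ 0 ∧ σ e = τ e ∧ t - algebraMap k F a = e * z ^ ℓ) :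
    σ t = τ t := by
  obtain ⟨E₀, d', h1, h2, h3⟩ := perf_comp h σ τ
  have h4 : (⟨σ t, h2 t⟩ : perfectClosure E₀ Ω) = ⟨τ t, h3 t⟩ := by
    refine perf_two hℓ h1 (fun h5 => ht ?_) fun a => ?_
    · have h6 : IsAlgebraic k (σ t) := h5.algHom ((perfectClosure E₀ Ω).val.restrictScalars k)
      exact (isAlgebraic_algHom_iff σ σ.injective).1 h6
    · obtain ⟨e, z, e0, z0, he, hz⟩ := hc a
      have key : ∀ (ρ : F →ₐ[k] Ω) (hρ : ∀ x, ρ x ∈ perfectClosure E₀ Ω),
          cl ℓ ((⟨ρ t, hρ t⟩ : perfectClosure E₀ Ω) - algebraMap k _ a) =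
            cl ℓ (⟨ρ e, hρ e⟩ : perfectClosure E₀ Ω) := by
        intro ρ hρ
        have ne : ∀ x, x ≠ 0 → (⟨ρ x, hρ x⟩ : perfectClosure E₀ Ω) ≠ 0 := fun x hx h0 =>
          hx ((map_eq_zero ρ).1 (congrArg Subtype.val h0))
        have e1 : (⟨ρ t, hρ t⟩ : perfectClosure E₀ Ω) - algebraMap k _ a =
            ⟨ρ e, hρ e⟩ * ⟨ρ z, hρ z⟩ ^ ℓ := by
          refine Subtype.ext ?_
          have := congrArg ρ hz
          rw [map_sub, map_mul, map_pow, AlgHom.commutes] at this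
          exact this
        rw [e1, cl_mul (ne e e0) (pow_ne_zero _ (ne z z0)), cl_pow, ZMod.natCast_self, zero_smul,
          add_zero]
      rw [key σ h2, key τ h3]
      exact congrArg _ (Subtype.ext he.symm)
  exact congrArg Subtype.val h4

theorem perf_alg (hℓ : (ℓ : k) ≠ 0) {d : ℕ} (h : IsPF k F d) (A : Type*) [Field A] [Algebra k A]
    [Algebra A F] [IsScalarTower k A F] [Algebra.IsAlgebraic A F] (q : ℕ) [ExpChar A q] {t : F}
    (ht : Transcendental k t) (hc : ∀ a : k, ∃ (e : A) (z : F), e ≠ 0 ∧ z ≠ 0 ∧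
      t - algebraMap k F a = algebraMap A F e * z ^ ℓ) :
    ∃ j : ℕ, t ^ q ^ j ∈ (algebraMap A F).range := by
  classical
  rw [← minpoly.natSepDegree_eq_one_iff_pow_mem q]
  have hi : IsIntegral A t := Algebra.IsIntegral.isIntegral t
  have h0 := Polynomial.natSepDegree_ne_zero (minpoly A t) (minpoly.natDegree_pos hi).ne'
  rw [Polynomial.natSepDegree_eq_of_isAlgClosed (AlgebraicClosure A)] at h0 ⊢
  refine le_antisymm (Finset.card_le_one.2 fun x hx y hy => ?_) (Nat.one_le_iff_ne_zero.2 h0)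
  have ex : ∀ x ∈ ((minpoly A t).aroots (AlgebraicClosure A)).toFinset,
      ∃ φ : F →ₐ[A] AlgebraicClosure A, φ t = x := fun x hx =>
    exists_algHom_of_splits_of_aeval
      (fun z => ⟨Algebra.IsIntegral.isIntegral z, IsAlgClosed.splits _⟩)
      (Polynomial.mem_aroots.1 (Multiset.mem_toFinset.1 hx)).2
  obtain ⟨σ, rfl⟩ := ex x hx
  obtain ⟨τ, rfl⟩ := ex y hy
  refine perf_emb hℓ h (σ.restrictScalars k) (τ.restrictScalars k) ht fun a => ?_
  obtain ⟨e, z, e0, z0, hz⟩ := hc a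
  exact ⟨_, z, (map_ne_zero _).2 e0, z0, (σ.commutes e).trans (τ.commutes e).symm, hz⟩

theorem perf (hℓ : (ℓ : k) ≠ 0) {d : ℕ} (h : IsPF k F d) (A : IntermediateField k F) {t : F}
    (ht : ∀ a : k, cl ℓ (t - algebraMap k F a) ∈ Hs ℓ (A : Set F)) :
    ∃ j : ℕ, t ^ ringExpChar F ^ j ∈ A := by
  by_cases h1 : IsAlgebraic k t
  · refine ⟨0, ?_⟩
    rw [pow_zero, pow_one]
    obtain ⟨c, hc⟩ := minpoly.mem_range_of_degree_eq_one k t
      (IsAlgClosed.degree_eq_one_of_irreducible k (minpoly.irreducible h1.isIntegral))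
    exact hc ▸ A.algebraMap_mem c
  by_cases h2 : IsAlgebraic A t
  swap
  · exact (ind hℓ h h2 Set.infinite_univ (fun a _ => ht a) (FinLe.of_le le_rfl)).elim
  have hle : Algebra.trdeg k ((algebraicClosure A F).restrictScalars k) ≤ d :=
    h.trdeg ▸ trdeg_le_of_injective (IntermediateField.val _) Subtype.val_injective
  obtain ⟨b, hb⟩ := Cardinal.lt_aleph0.1 (hle.trans_lt (Cardinal.natCast_lt_aleph0 (n := d)))
  have hB : IsPF k (algebraicClosure A F) b := h.sub _ hb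
  have := ringExpChar.expChar F
  have m1 : t ∈ algebraicClosure A F := mem_algebraicClosure_iff.2 h2
  obtain ⟨j, y, hy⟩ := perf_alg hℓ hB A (ringExpChar F) (t := ⟨t, m1⟩)
    (fun h3 => h1 (h3.algHom ((algebraicClosure A F).val.restrictScalars k))) fun a => by
      obtain ⟨e, he, e0, hc⟩ := (mem_Hs_sub A _).1 (ht a)
      have t0 : t - algebraMap k F a ≠ 0 := fun h0 =>
        h1 (sub_eq_zero.1 h0 ▸ isAlgebraic_algebraMap a)
      obtain ⟨z, z0, hz⟩ := (cl_eq_iff t0 e0).1 hc.symm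
      have m2 : z ^ ℓ ∈ algebraicClosure A F := by
        have : z ^ ℓ = (t - algebraMap A F (algebraMap k A a)) / algebraMap A F ⟨e, he⟩ := by
          rw [← IsScalarTower.algebraMap_apply, hz]
          exact (mul_div_cancel_left₀ _ e0).symm
        rw [this]
        exact div_mem (sub_mem m1 (IntermediateField.algebraMap_mem _ _)) (IntermediateField.algebraMap_mem _ _)
      have m3 : z ∈ algebraicClosure A F := mem_algebraicClosure_iff.2
        ((mem_algebraicClosure_iff.1 m2).of_pow (Fact.out : ℓ.Prime).pos)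
      exact ⟨⟨e, he⟩, ⟨z, m3⟩, fun h0 => e0 (congrArg Subtype.val h0),
        fun h0 => z0 (congrArg Subtype.val h0), Subtype.ext hz⟩
  refine ⟨j, ?_⟩
  have e : (y : F) = t ^ ringExpChar F ^ j := congrArg Subtype.val hy
  exact e ▸ y.2

end P019.E
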