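import Vale.Agent.P019.E.Prime
import Vale.Agent.P019.E.Perf

/-!
P019 E/Line: a prime over a line identifies the two curves.
PLAN. `line_sub`: `B = hf E₀ x`, `B'` from `Dat.hyp`, `prime_sub`, `FC.le`; for `y` use `LineV.symm`.
`res_onto` (main step): let `Y ∈ Dy`. `ρ : Dx →+* Res w` the residue map, its range is an intermediate
field `A` over `resK l w`. For `β ∈ l`: `cl (Y - β) = Θ (lc y m)`, `m = mapDomain (c · + d) m₀`,
`lc y m ≡ lc x m₀` modulo `Nv v` (`LineV.lc_sub`), `Θ (lc x m₀) = cl e`, `e ∈ Dx`; so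
`cl ((Y - β) / e) ∈ Nv w` and `cl (res (Y - β)) = cl (res e)` (`cl_mem_Nv_iff`; the case `Y = β` is
trivial). `perf` in `Res w` (`res_isPF`) gives `res Y ^ q = res e`, `e ∈ Dx`. `M` is perfect and `Dx`
is flat, so `e = Z ^ q` with `Z ∈ Dx`, and `res (Y - Z) ^ q = 0`.
`exists_gamma`: `γ Y` is the unique `Z ∈ Dx` congruent to `Y`; symmetric statement for the inverse.
`ex_of_good`: `cl (γ e) - cl e ∈ Nv w` (`cl_sub_mem_Nv`), so `lc x m' - lc y m ∈ Nv v`, and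
`lc x (m' - m₀) ∈ Nv v`; `Good` gives `m' a = m₀ a = m (c a + d)`. (If `e = 0` use `Gen.lc_inj`.)
`mov_of_ex`: `Q₁` the place of `Dx` with `Mov γ Q' Q₁` (`pc_move`); it matches `a`; `match_unique`.
-/

namespace P019.E

open IntermediateField

variable {ℓ : ℕ} [Fact ℓ.Prime] {k K l M : Type*} [Field k] [Field K] [Algebra k K] [Field l]
  [Field M] [Algebra l M] [IsAlgClosed k] [IsAlgClosed l] {Θ : V ℓ K ≃ₗ[ZMod ℓ] V ℓ M} {n : ℕ}

theorem line_Nv {K M : Type*} [Field K] [Field M] {Θ : V ℓ K ≃ₗ[ZMod ℓ] V ℓ M}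
    {v : ValuationSubring K} {w : ValuationSubring M} (hw : Corr ℓ Θ v w) (ξ : V ℓ K) :
    Θ ξ ∈ Nv ℓ w ↔ ξ ∈ Nv ℓ v := by
  rw [← hw.2]
  exact ⟨fun ⟨_, h1, h2⟩ => Θ.injective h2 ▸ h1, fun h => ⟨ξ, h, rfl⟩⟩

theorem line_aff {k : Type*} [Field k] {c : k} (hc : c ≠ 0) (d : k) (m : k →₀ ZMod ℓ) :
    ∃ m₀ : k →₀ ZMod ℓ, m = m₀.mapDomain (fun a => c * a + d) ∧ ∀ a, m (c * a + d) = m₀ a := by
  obtain ⟨m₀, rfl⟩ := Finsupp.mapDomain_surjective (f := fun a => c * a + d)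
    (fun b => ⟨c⁻¹ * (b - d), by field_simp; ring⟩) m
  exact ⟨m₀, rfl, fun a => Finsupp.mapDomain_apply
    (fun a b hab => mul_left_cancel₀ hc (add_right_cancel hab)) m₀ a⟩

/-- the residue map on a subfield of the valuation ring -/
theorem line_rho {l M : Type*} [Field l] [Field M] [Algebra l M] {D : IntermediateField l M}
    {w : ValuationSubring M} (h : Sub D w) : ∃ ρ : D →+* Res w, ∀ e : D, ρ e = res w e :=
  ⟨(IsLocalRing.residue w).comp ((algebraMap D M).codRestrict w fun e => h e e.2),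
    fun e => (resb_coe w ⟨e, h e e.2⟩).symm⟩

theorem line_hyp (h : Dat k l Θ n) {E₀ : IntermediateField k K} {x y : K} (hf : Frame E₀ x y)
    {c d : k} {v : ValuationSubring K} (hv : LineV E₀ x y c d v)
    {w : ValuationSubring M} (hw : Corr ℓ Θ v w) {Dx : IntermediateField l M}
    (hDx : LC k Θ x Dx) : Sub Dx w ∧ IsPF (resK l w) (Res w) n := by
  obtain ⟨B', hB', hFC⟩ := h.hyp _ (hf.flat h.pfK)
  obtain ⟨h1, h2⟩ := prime_sub h hw (hf.flat h.pfK) hB' hFC hv.1 (hv.ne_top hf)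
  exact ⟨fun a ha => h1 a (FC.le h hDx.2 hFC hB' (acl_le_hf E₀ x) ha), res_isPF h.pfM hB' h1 h2⟩

theorem line_corr (h : Dat k l Θ n) {E₀ : IntermediateField k K} {x y : K} (hf : Frame E₀ x y)
    {c d : k} {v : ValuationSubring K} (hv : LineV E₀ x y c d v) : ∃ w, Corr ℓ Θ v w := by
  exact h.prime v _ (hf.flat h.pfK) hv.1 (hv.ne_top hf)

theorem line_sub (h : Dat k l Θ n) {E₀ : IntermediateField k K} {x y : K} (hf : Frame E₀ x y)
    {c d : k} (hc : c ≠ 0) {v : ValuationSubring K} (hv : LineV E₀ x y c d v)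
    {w : ValuationSubring M} (hw : Corr ℓ Θ v w) {Dx Dy : IntermediateField l M}
    (hDx : LC k Θ x Dx) (hDy : LC k Θ y Dy) : Sub Dx w ∧ Sub Dy w := by
  exact ⟨(line_hyp h hf hv hw hDx).1, (line_hyp h hf.symm (hv.symm hf hc) hw hDy).1⟩

/-- units of `Dy` have the class of a unit of `Dx` in the residue field -/
theorem line_cl (h : Dat k l Θ n) {E₀ : IntermediateField k K} {x y : K}
    (hf : Frame E₀ x y) (hy : Gen k y) {c d : k} (hc : c ≠ 0)
    {v : ValuationSubring K} (hv : LineV E₀ x y c d v) {w : ValuationSubring M}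
    (hw : Corr ℓ Θ v w) {Dx Dy : IntermediateField l M} (hDx : LC k Θ x Dx)
    (hDy : LC k Θ y Dy) {Y : M} (hY : Y ∈ Dy) (h0 : Y ≠ 0) :
    ∃ e : Dx, cl ℓ (res w Y) = cl ℓ (res w (e : M)) := by
  obtain ⟨s1, s2⟩ := line_sub h hf hc hv hw hDx hDy
  obtain ⟨m, hm⟩ := exists_co h hy hDy ⟨Y, hY⟩
  obtain ⟨m₀, rfl, -⟩ := line_aff hc d m
  obtain ⟨e, he0, he⟩ := exists_co' hDx m₀
  have he1 : (e : M) ≠ 0 := fun c => he0 (Subtype.ext c)
  have h1 := (line_Nv hw _).2 (hv.lc_sub hf.ind.left hc m₀)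
  rw [map_sub, hm, he, ← cl_div h0 he1] at h1
  have u1 := s2.val_eq_one hY h0
  have u2 := s1.val_eq_one e.2 he1
  have h2 := (cl_mem_Nv_iff w (by rw [map_div₀, u1, u2, div_one])).1 h1
  rw [div_eq_mul_inv, res_mul w (resb_mem u1) (resb_mem (resb_inv u2)), res_inv w u2,
    ← div_eq_mul_inv, cl_div (resb_res_ne u1) (resb_res_ne u2), sub_eq_zero] at h2
  exact ⟨e, h2⟩

theorem res_onto [PerfectField M] (h : Dat k l Θ n) {E₀ : IntermediateField k K} {x y : K}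
    (hf : Frame E₀ x y) (hy : Gen k y) {c d : k} (hc : c ≠ 0)
    {v : ValuationSubring K} (hv : LineV E₀ x y c d v) {w : ValuationSubring M}
    (hw : Corr ℓ Θ v w) {Dx Dy : IntermediateField l M} (hDx : LC k Θ x Dx)
    (hDy : LC k Θ y Dy) {Y : M} (hY : Y ∈ Dy) : ∃ Z ∈ Dx, w.valuation (Z - Y) < 1 := by
  obtain ⟨s1, s2⟩ := line_sub h hf hc hv hw hDx hDy
  obtain ⟨ρ, hρ⟩ := line_rho s1
  have hP := (line_hyp h hf hv hw hDx).2
  have := resK_isAlgClosed l w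
  obtain ⟨q, _⟩ := ExpChar.exists l
  have := expChar_of_injective_algebraMap (algebraMap l M).injective q
  have := expChar_of_injective_ringHom (ρ.comp (algebraMap l Dx)).injective q
  have hℓ : ((ℓ : ℕ) : resK l w) ≠ 0 := fun c => by
    have h1 : ((ℓ : ℕ) : Res w) = 0 := by
      rw [← map_natCast (algebraMap (resK l w) (Res w)), c, map_zero]
    rw [← map_natCast (ρ.comp (algebraMap l Dx)), map_eq_zero] at h1
    exact h.hl h1
  let A : IntermediateField (resK l w) (Res w) := ρ.fieldRange.toIntermediateField fun a => by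
    obtain ⟨β, -, e⟩ := (mem_resK w _).1 a.2
    exact ⟨algebraMap l Dx β, (hρ _).trans e.symm⟩
  obtain ⟨j, e, he⟩ := perf hℓ hP A (t := res w Y) fun a => by
    obtain ⟨β, hβ, e⟩ := (mem_resK w _).1 a.2
    have e1 : res w Y - algebraMap (resK l w) (Res w) a = res w (Y - algebraMap l M β) := by
      rw [res_sub w (s2 Y hY) hβ, ← e]
      rfl
    rw [e1]
    by_cases h0 : Y - algebraMap l M β = 0
    · rw [h0, res_zero, cl_zero]
      exact zero_mem _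
    · obtain ⟨z, hz⟩ := line_cl h hf hy hc hv hw hDx hDy (sub_mem hY (Dy.algebraMap_mem β)) h0
      rw [hz]
      exact cl_mem_Hs ⟨z, hρ z⟩
  rw [ringExpChar.eq (Res w) q, hρ] at he
  obtain ⟨Z, hZ⟩ := (bijective_iterateFrobenius M q j).2 e
  rw [iterateFrobenius_def] at hZ
  have hZD : Z ∈ Dx := hDx.1.1 Z (IsAlgebraic.of_pow (expChar_pow_pos l q j)
    (hZ ▸ isAlgebraic_algebraMap e))
  refine ⟨Z, hZD, (res_eq_iff w (s1 Z hZD) (s2 Y hY)).1 ?_⟩
  rw [← hZ, res_pow w (s1 Z hZD), ← sub_eq_zero, ← sub_pow_expChar_pow] at he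
  exact sub_eq_zero.1 (eq_zero_of_pow_eq_zero he)

theorem exists_gamma [PerfectField M] (h : Dat k l Θ n) {E₀ : IntermediateField k K} {x y : K}
    (hf : Frame E₀ x y) (hx : Gen k x) (hy : Gen k y) {c d : k} (hc : c ≠ 0)
    {v : ValuationSubring K} (hv : LineV E₀ x y c d v) {w : ValuationSubring M}
    (hw : Corr ℓ Θ v w) {Dx Dy : IntermediateField l M} (hDx : LC k Θ x Dx)
    (hDy : LC k Θ y Dy) :
    ∃ γ : Dy ≃ₐ[l] Dx, ∀ Y : Dy, w.valuation ((γ Y : M) - Y) < 1 := by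
  obtain ⟨s1, s2⟩ := line_sub h hf hc hv hw hDx hDy
  obtain ⟨ρ, hρ⟩ := line_rho s1
  obtain ⟨ρ', hρ'⟩ := line_rho s2
  have key : ∀ (Z : Dx) (Y : Dy), ρ Z = ρ' Y ↔ w.valuation ((Z : M) - Y) < 1 := fun Z Y => by
    rw [hρ, hρ', res_eq_iff w (s1 _ Z.2) (s2 _ Y.2)]
  have h1 : ∀ Y : Dy, ∃ Z : Dx, ρ Z = ρ' Y := fun Y => by
    obtain ⟨Z, hZ, e⟩ := res_onto h hf hy hc hv hw hDx hDy Y.2
    exact ⟨⟨Z, hZ⟩, (key _ _).2 e⟩
  choose g hg using h1
  let γ : Dy →ₐ[l] Dx :=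
    { toFun := g
      map_one' := ρ.injective (by rw [hg, map_one, map_one])
      map_mul' := fun a b => ρ.injective (by rw [map_mul, hg, hg, hg, map_mul])
      map_zero' := ρ.injective (by rw [hg, map_zero, map_zero])
      map_add' := fun a b => ρ.injective (by rw [map_add, hg, hg, hg, map_add])
      commutes' := fun β => ρ.injective (by rw [hg, hρ, hρ']; rfl) }
  refine ⟨AlgEquiv.ofBijective γ ⟨γ.injective, fun Z => ?_⟩, fun Y => (key _ _).1 (hg Y)⟩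
  obtain ⟨Y, hY, e⟩ := res_onto h hf.symm hx (inv_ne_zero hc) (hv.symm hf hc) hw hDy hDx Z.2
  rw [Valuation.map_sub_swap] at e
  exact ⟨⟨Y, hY⟩, ρ.injective ((hg _).trans ((key Z ⟨Y, hY⟩).2 e).symm)⟩

theorem ex_of_good (h : Dat k l Θ n) {E₀ : IntermediateField k K} {x y : K}
    (hf : Frame E₀ x y) (hx : Gen k x) (hy : Gen k y) {c d : k} (hc : c ≠ 0)
    {v : ValuationSubring K} (hv : LineV E₀ x y c d v) {w : ValuationSubring M}
    (hw : Corr ℓ Θ v w) {Dx Dy : IntermediateField l M} (hDx : LC k Θ x Dx)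
    (hDy : LC k Θ y Dy) {γ : Dy ≃ₐ[l] Dx} (hγ : ∀ Y : Dy, w.valuation ((γ Y : M) - Y) < 1)
    {a : k} (ha : Good ℓ E₀ x y a (c * a + d)) : Ex Θ x y γ a (c * a + d) := by
  intro e m m' hm hm'
  by_cases h0 : e = 0
  · subst h0
    unfold Co at hm hm'
    rw [map_zero, ZeroMemClass.coe_zero, cl_zero, map_eq_zero_iff _ Θ.injective,
      map_eq_zero_iff _ (hx.lc_inj h.hk)] at hm'
    rw [ZeroMemClass.coe_zero, cl_zero, map_eq_zero_iff _ Θ.injective,
      map_eq_zero_iff _ (hy.lc_inj h.hk)] at hm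
    rw [hm, hm']
    rfl
  obtain ⟨m₀, e1, e2⟩ := line_aff hc d m
  have u := (line_sub h hf hc hv hw hDx hDy).2.val_eq_one e.2 fun c => h0 (Subtype.ext c)
  have h1 := cl_sub_mem_Nv (ℓ := ℓ) ((hγ e).trans_eq u.symm)
  rw [← hm, ← hm', ← map_sub, line_Nv hw, e1] at h1
  have h2 := add_mem h1 (hv.lc_sub hx.1 hc m₀)
  rw [sub_add_sub_cancel, ← map_sub] at h2
  have h3 := ha c v (by rwa [add_sub_cancel_left]) _ h2
  rw [e2]
  exact sub_eq_zero.1 h3

theorem mov_of_ex (h : Dat k l Θ n) {x y : K} (hx : Gen k x) (hy : Gen k y)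
    {Dx Dy : IntermediateField l M} (hDx : LC k Θ x Dx) (hDy : LC k Θ y Dy) {γ : Dy ≃ₐ[l] Dx}
    {a b : k} (hE : Ex Θ x y γ a b) {Q : Place l Dx} {Q' : Place l Dy}
    (hQ : Match Θ x Dx (some a) Q) (hQ' : Match Θ y Dy (some b) Q') : Mov γ Q' Q := by
  obtain ⟨Q₁, h1⟩ := pc_move γ Q'
  have h2 : Match Θ x Dx (some a) Q₁ := fun e m' hm' => by
    obtain ⟨e', rfl⟩ := γ.surjective e
    obtain ⟨m, hm⟩ := exists_co h hy hDy e'
    rw [h1.cl_mem, hQ' e' m hm]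
    exact (congrArg (· = 0) (hE e' m m' hm hm')).to_iff.symm
  rwa [match_unique h hx hDx hQ h2]

/-- packaged form : a line through a point of `G` -/
theorem exists_line [PerfectField M] (h : Dat k l Θ n) {E₀ : IntermediateField k K} {x y : K}
    (hf : Frame E₀ x y) (hx : Gen k x) (hy : Gen k y) {G : k → k → Prop}
    (hG : ∀ a b, G a b → Good ℓ E₀ x y a b) {c : k} (hc : c ≠ 0) (d : k)
    {Dx Dy : IntermediateField l M} (hDx : LC k Θ x Dx) (hDy : LC k Θ y Dy) :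
    ∃ γ : Dy ≃ₐ[l] Dx, ∀ a, G a (c * a + d) → Ex Θ x y γ a (c * a + d) := by
  obtain ⟨v, hv⟩ := hf.exists_lineV c d
  obtain ⟨w, hw⟩ := line_corr h hf hv
  obtain ⟨γ, hγ⟩ := exists_gamma h hf hx hy hc hv hw hDx hDy
  exact ⟨γ, fun a ha => ex_of_good h hf hx hy hc hv hw hDx hDy hγ (hG _ _ ha)⟩

end P019.E
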