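import Vale.Agent.P019.E.Eta
import Vale.Agent.P019.E.Act

/-!
P019 E/Main: the theorem for perfect fields.
PLAN. `alpha_surj`: the range of `α` is an intermediate field `A` of `M / l` (it contains the
constants `σ a`), perfect since `K` is perfect. `Hs A = ⊤` because `Θ` is onto (`cl_surj`). `perf`
gives `t ^ q = α u`, `u = u' ^ q` (the exponential characteristics agree), so `t = α u'`.
-/

namespace P019.E

open IntermediateField

variable {ℓ : ℕ} [Fact ℓ.Prime] {k K l M : Type*} [Field k] [Field K] [Algebra k K] [Field l]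
  [Field M] [Algebra l M] [IsAlgClosed k] [IsAlgClosed l] {Θ : V ℓ K ≃ₗ[ZMod ℓ] V ℓ M} {n : ℕ}

theorem alpha_surj [PerfectField K] (h : Dat k l Θ n) {σ : k ≃+* l} {α : K →+* M}
    (hk : ∀ a : k, α (algebraMap k K a) = algebraMap l M (σ a)) {r : ZMod ℓ}
    (h0 : ∀ u, Θ (cl ℓ u) = r • cl ℓ (α u)) : Function.Surjective α := by
  intro t
  let A : IntermediateField l M := α.fieldRange.toIntermediateField fun c =>
    ⟨algebraMap k K (σ.symm c), by rw [hk, σ.apply_symm_apply]⟩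
  obtain ⟨j, u, hu⟩ := perf h.hl h.pfM A (t := t) fun a => by
    obtain ⟨u, -, hu⟩ := cl_surj (Θ.symm (cl ℓ (t - algebraMap l M a)))
    have e : cl ℓ (t - algebraMap l M a) = r • cl ℓ (α u) := by
      rw [← h0, hu, Θ.apply_symm_apply]
    rw [e]
    exact Submodule.smul_mem _ _ (cl_mem_Hs ⟨u, rfl⟩)
  have : ExpChar M (ringExpChar M) := ringExpChar.expChar M
  have : ExpChar K (ringExpChar M) := α.expChar α.injective _
  obtain ⟨u', rfl⟩ := (bijective_iterateFrobenius K (ringExpChar M) j).2 u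
  refine ⟨u', iterateFrobenius_inj M (ringExpChar M) j ?_⟩
  rw [iterateFrobenius_def, iterateFrobenius_def, ← map_pow]
  exact hu

theorem main_perfect [PerfectField K] [PerfectField M] (h : Dat k l Θ n) :
    ∃ (c : (ZMod ℓ)ˣ) (α : K ≃+* M) (σ : k ≃+* l),
      (∀ a : k, α (algebraMap k K a) = algebraMap l M (σ a)) ∧
      ∀ u, Θ (cl ℓ u) = (c : ZMod ℓ) • cl ℓ (α u) := by
  obtain ⟨x₀, hx₀⟩ := h.pfK.exists_trans
  obtain ⟨x, hx⟩ := exists_gen h.pfK h.one_le {(1, 0)} (by simp) ∅ (by simp)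
  have hx' : Gen k x := by simpa using (hx (1, 0) (by simp)).1
  obtain ⟨y, hy⟩ := h.pfK.exists_ind h.one_le hx'.1
  obtain ⟨E₀, hf⟩ := h.pfK.exists_frame hy
  obtain ⟨G, hZ, hG⟩ := hf.exists_nice h.hk h.pfK
  obtain ⟨a, ha⟩ := hZ.fst.exists_notMem
  obtain ⟨b, hb⟩ := not_not.1 ha
  have hN := hG a b hb
  obtain ⟨σ, f, r, hr, hRel, h0⟩ := base h hN hx'
  obtain ⟨α, hα, hk⟩ := exists_alpha h hN.1 hRel
  have hf' : α _ = f := Rel.unique h hN.1 (hα _ hN.1) hRel
  have h1 := eta_zero h hα hk (r := r) hN.1 (fun a => by rw [h0, map_sub, hf', hk])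
  exact ⟨Units.mk0 r hr, RingEquiv.ofBijective α ⟨α.injective, alpha_surj h hk h1⟩, σ, hk, h1⟩

end P019.E
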