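import Vale.Agent.P019.E.Lin

/-!
P019 E/PF: fields purely inseparable over a function field; frames.
`finite_sep`: the compositum `F₁` of `A` and the model is finitely generated over `A`, and `F` is
purely inseparable over `F₁`, so the separable closure of `A` lies in `F₁`.
-/

namespace P019.E

open IntermediateField

variable {k F : Type*} [Field k] [Field F] [Algebra k F]

theorem pf_pi_iff (q : ℕ) [ExpChar k q] (B : IntermediateField k F) :
    IsPurelyInseparable B F ↔ ∀ x : F, ∃ n : ℕ, x ^ q ^ n ∈ B := by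
  have := expChar_of_injective_algebraMap (algebraMap k B).injective q
  rw [isPurelyInseparable_iff_pow_mem B q]
  exact forall_congr' fun x => exists_congr fun n =>
    ⟨fun ⟨y, hy⟩ => hy ▸ y.2, fun h => ⟨⟨_, h⟩, rfl⟩⟩

theorem pf_pi_mono {A B : IntermediateField k F} (h : A ≤ B) (hA : IsPurelyInseparable A F) :
    IsPurelyInseparable B F := by
  obtain ⟨q, _⟩ := ExpChar.exists k
  exact (pf_pi_iff q B).2 fun x => ((pf_pi_iff q A).1 hA x).imp fun _ hn => h hn

theorem pf_equiv {K K' : Type*} [Field K] [Field K'] [Algebra k K] [Algebra k K'] {d : ℕ}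
    (e : K ≃ₐ[k] K') (h : IsFF k K d) : IsFF k K' d := by
  let _ : Algebra K K' := (e : K →+* K').toAlgebra
  have : IsScalarTower k K K' := IsScalarTower.of_algebraMap_eq fun c => (e.commutes c).symm
  have : FiniteDimensional K K' := Module.Finite.of_surjective (Algebra.linearMap K K') e.surjective
  exact h.of_finite K'

theorem isPF_of_isFF {d : ℕ} (h : IsFF k F d) : IsPF k F d := by
  obtain ⟨q, _⟩ := ExpChar.exists k
  exact ⟨⊤, pf_equiv topEquiv.symm h, (pf_pi_iff q ⊤).2 fun _ => ⟨0, mem_top⟩⟩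
theorem IsPF.of_pi {d : ℕ} (h : IsPF k F d) (E : Type*) [Field E] [Algebra F E] [Algebra k E]
    [IsScalarTower k F E] [IsPurelyInseparable F E] : IsPF k E d := by
  obtain ⟨F₀, h1, h2⟩ := h
  obtain ⟨q, _⟩ := ExpChar.exists k
  have := expChar_of_injective_algebraMap (algebraMap k F).injective q
  refine ⟨F₀.map (IsScalarTower.toAlgHom k F E), pf_equiv (equivMap F₀ _) h1,
    (pf_pi_iff q _).2 fun x => ?_⟩
  obtain ⟨n, y, hy⟩ := IsPurelyInseparable.pow_mem F q x
  obtain ⟨m, hm⟩ := (pf_pi_iff q F₀).1 h2 y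
  refine ⟨n + m, _, hm, ?_⟩
  rw [pow_add, pow_mul, ← hy, ← map_pow]
  rfl
theorem IsPF.trdeg {d : ℕ} (h : IsPF k F d) : Algebra.trdeg k F = d := by
  obtain ⟨F₀, h1, h2⟩ := h
  rw [← trdeg_add_eq k F₀ (A := F), h1.trdeg, trdeg_eq_zero, add_zero]
theorem pf_top {d : ℕ} (h : IsPF k F d) : Algebra.trdeg k (⊤ : IntermediateField k F) = d :=
  (topEquiv (F := k) (E := F)).trdeg_eq.trans h.trdeg
/-- the model can be chosen to contain a given finite set -/
theorem IsPF.model {d : ℕ} (h : IsPF k F d) (s : Finset F) :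
    ∃ F₀ : IntermediateField k F, IsFF k F₀ d ∧ IsPurelyInseparable F₀ F ∧ ∀ a ∈ s, a ∈ F₀ := by
  obtain ⟨F₀, h1, h2⟩ := h
  have : FiniteDimensional F₀ (adjoin F₀ (s : Set F)) :=
    finiteDimensional_adjoin fun x _ => IsPurelyInseparable.isIntegral' F₀ x
  exact ⟨(adjoin F₀ (s : Set F)).restrictScalars k, h1.of_finite (adjoin F₀ (s : Set F)),
    pf_pi_mono (fun x hx => (adjoin F₀ (s : Set F)).algebraMap_mem ⟨x, hx⟩) h2,
    fun a ha => subset_adjoin F₀ (s : Set F) ha⟩
theorem IsPF.finite_sep {d : ℕ} (h : IsPF k F d) (A : IntermediateField k F) :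
    FiniteDimensional A (separableClosure A F) := by
  obtain ⟨F₀, h1, h2⟩ := h
  obtain ⟨t, ht⟩ := essFiniteType_iff.1 h1.ess
  have h3 : F₀ ≤ (adjoin A (t : Set F)).restrictScalars k := by
    rw [← ht]
    exact adjoin_le_iff.2 (subset_adjoin A (t : Set F))
  have h4 : IsPurelyInseparable (adjoin A (t : Set F)) F := by
    have h6 := pf_pi_mono h3 h2
    exact h6
  have h5 : separableClosure A F ≤ adjoin A (t : Set F) := fun z hz => by
    obtain ⟨y, hy⟩ := IsPurelyInseparable.inseparable (adjoin A (t : Set F)) z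
      ((mem_separableClosure_iff.1 hz).tower_top _)
    exact hy ▸ y.2
  have : Algebra.EssFiniteType A (adjoin A (t : Set F)) := essFiniteType_iff.2 (fg_adjoin_finset t)
  let _ : Algebra (separableClosure A F) (adjoin A (t : Set F)) := (inclusion h5).toAlgebra
  have : IsScalarTower A (separableClosure A F) (adjoin A (t : Set F)) :=
    IsScalarTower.of_algebraMap_eq fun _ => rfl
  exact ffa_fin A (separableClosure A F) (adjoin A (t : Set F))
theorem IsPF.sub {d : ℕ} (h : IsPF k F d) (A : IntermediateField k F) {a : ℕ}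
    (ha : Algebra.trdeg k A = a) : IsPF k A a := by
  obtain ⟨F₀, h1, h2⟩ := h
  obtain ⟨q, _⟩ := ExpChar.exists k
  let f : F₀.comap A.val →ₐ[k] F₀ :=
    (A.val.comp (F₀.comap A.val).val).codRestrict F₀.toSubalgebra fun x => x.2
  obtain ⟨b, -, hb⟩ := h1.sub f.fieldRange
  have h3 : IsPF k A b := ⟨F₀.comap A.val, pf_equiv (AlgEquiv.ofInjectiveField f).symm hb,
    (pf_pi_iff q _).2 fun x => ((pf_pi_iff q F₀).1 h2 x).imp fun n hn => by
      change A.val (x ^ q ^ n) ∈ F₀
      rw [map_pow]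
      exact hn⟩
  have h4 : (b : Cardinal) = a := h3.trdeg.symm.trans ha
  have h5 : b = a := by exact_mod_cast h4
  exact h5 ▸ h3
theorem IsPF.alg_of_not_mem {n : ℕ} (h : IsPF k F (n + 1)) {B : IntermediateField k F}
    (hB : Flat B n) {z : F} (hz : z ∉ B) : Algebra.IsAlgebraic B⟮z⟯ F := by
  obtain ⟨y, hy, hm⟩ := hB.exists_basis
  refine ⟨fun w => ?_⟩
  have h1 := ffb_alg (A := ⊤) (by simpa using pf_top h) (hB.indep_option hy hm hz)
    (fun _ => mem_top) (z := w) mem_top
  refine ffb_mono (B := (B⟮z⟯).restrictScalars k) (adjoin_le_iff.2 ?_) h1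
  rintro _ ⟨_ | i, rfl⟩
  · exact mem_adjoin_simple_self B z
  · exact (B⟮z⟯).algebraMap_mem ⟨_, hm i⟩
theorem pf_ne_top {d a : ℕ} (h : IsPF k F d) {B : IntermediateField k F}
    (hB : Flat B a) (had : a ≠ d) : B ≠ ⊤ := by
  rintro rfl
  have h1 : (a : Cardinal) = d := hB.2.symm.trans (pf_top h)
  exact had (by exact_mod_cast h1)
theorem IsPF.flat_ne_top {n : ℕ} (h : IsPF k F (n + 1)) {B : IntermediateField k F}
    (hB : Flat B n) : B ≠ ⊤ := pf_ne_top h hB n.succ_ne_self.symm
theorem IsPF.exists_ind {n : ℕ} (h : IsPF k F (n + 1)) (hn : 1 ≤ n) {x : F}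
    (hx : Transcendental k x) : ∃ y, Ind k x y := by
  have h1 := pf_ne_top h (flat_acl_one hx) (by omega)
  by_contra hc
  refine h1 (eq_top_iff.2 fun y _ => not_not.1 fun hy => hc ⟨y, indep_pair_iff.2 ⟨hx, hy⟩⟩)
theorem IsPF.exists_trans {n : ℕ} (h : IsPF k F (n + 1)) : ∃ x : F, Transcendental k x := by
  obtain ⟨y, hy, -⟩ := ffb_basis (pf_top h)
  exact ⟨y 0, hy.transcendental 0⟩
theorem IsPF.exists_frame {d : ℕ} (h : IsPF k F d) {x y : F} (hxy : Ind k x y) :
    ∃ E₀ : IntermediateField k F, Frame E₀ x y := by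
  obtain ⟨s, hs⟩ := exists_isTranscendenceBasis (adjoin k (Set.range ![x, y])) F
  have h1 := AlgebraicIndependent.sumElim_iff.2 ⟨hxy, algebraicIndependent_adjoin_iff.1 hs.1⟩
  have h2 : AlgebraicIndependent k (Sum.elim ![x, y] ((↑) : s → F)) := by
    have := h1.comp _ (Equiv.sumComm (Fin 2) s).injective
    rwa [show Sum.elim ((↑) : s → F) ![x, y] ∘ Equiv.sumComm (Fin 2) s =
      Sum.elim ![x, y] ((↑) : s → F) from funext fun i => by cases i <;> rfl] at this
  refine ⟨adjoin k (Set.range ((↑) : s → F)), algebraicIndependent_adjoin_iff.2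
    (AlgebraicIndependent.sumElim_iff.1 h2).2, ⟨fun w => ?_⟩⟩
  refine ffb_mono (A := (adjoin (adjoin k (Set.range ![x, y]))
    (Set.range ((↑) : s → F))).restrictScalars k)
    (B := (adjoin (adjoin k (Set.range ((↑) : s → F))) {x, y}).restrictScalars k) ?_
    (hs.isAlgebraic_field.isAlgebraic w)
  rw [adjoin_adjoin_left, adjoin_adjoin_left, Set.union_comm, Matrix.range_cons_cons_empty]
theorem Frame.symm {E₀ : IntermediateField k F} {x y : F} (h : Frame E₀ x y) :
    Frame E₀ y x := ⟨indep_pair_symm h.1, by rw [Set.pair_comm]; exact h.2⟩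
theorem Frame.ind {E₀ : IntermediateField k F} {x y : F} (h : Frame E₀ x y) : Ind k x y :=
  h.1.restrictScalars (algebraMap k E₀).injective
theorem Ind.symm {x y : F} (h : Ind k x y) : Ind k y x := indep_pair_symm h
theorem Ind.left {x y : F} (h : Ind k x y) : Transcendental k x := (indep_pair_iff.1 h).1
theorem mem_hf (E₀ : IntermediateField k F) (x : F) : x ∈ hf E₀ x :=
  subset_acl _ (Set.mem_insert _ _)
theorem le_hf (E₀ : IntermediateField k F) (x : F) : E₀ ≤ hf E₀ x := fun _ ha =>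
  subset_acl _ (Set.mem_insert_of_mem _ ha)
theorem pf_acl_mono {s t : Set F} (h : s ⊆ t) : acl k s ≤ acl k t := fun z hz =>
  (mem_acl_iff t z).2 (ffb_mono (adjoin.mono k s t h) ((mem_acl_iff s z).1 hz))
theorem acl_le_hf (E₀ : IntermediateField k F) (x : F) : acl k {x} ≤ hf E₀ x :=
  pf_acl_mono (Set.singleton_subset_iff.2 (Set.mem_insert _ _))
theorem mem_hf_iff (E₀ : IntermediateField k F) (x z : F) :
    z ∈ hf E₀ x ↔ IsAlgebraic E₀⟮x⟯ z := by
  have e : adjoin k (insert x (E₀ : Set F)) = (E₀⟮x⟯).restrictScalars k := by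
    rw [restrictScalars_adjoin, Set.union_singleton]
  rw [hf, mem_acl_iff, e]
  rfl
theorem Frame.not_mem {E₀ : IntermediateField k F} {x y : F} (h : Frame E₀ x y) :
    y ∉ hf E₀ x := fun hy =>
  (indep_pair_iff.1 h.1).2 ((mem_acl_iff _ y).2 ((mem_hf_iff E₀ x y).1 hy))
theorem pf_closed (s : Set F) {z : F} (hz : IsAlgebraic (acl k s) z) : z ∈ acl k s :=
  (mem_acl_iff _ z).2 (ffb_trans (fun b hb => (mem_acl_iff _ b).1 hb) hz)
theorem Frame.flat {n : ℕ} (hF : IsPF k F (n + 1)) {E₀ : IntermediateField k F} {x y : F}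
    (h : Frame E₀ x y) : Flat (hf E₀ x) n := by
  refine ⟨fun z hz => pf_closed _ hz, ?_⟩
  have h1 : AlgebraicIndependent (hf E₀ x) fun _ : Unit => y :=
    algebraicIndependent_unique_type_iff.2 fun hy => h.not_mem (pf_closed _ hy)
  have h2 := ffb_trdeg (A := ⊤) h1 (fun _ => mem_top) fun z _ => by
    refine ffb_mono (A := (adjoin E₀ {x, y}).restrictScalars k)
      (B := (adjoin (hf E₀ x) (Set.range fun _ : Unit => y)).restrictScalars k) ?_
      (h.2.isAlgebraic z)
    rw [restrictScalars_adjoin, restrictScalars_adjoin, Set.range_const]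
    refine adjoin.mono _ _ _ ?_
    rintro a (ha | rfl | rfl)
    · exact Or.inl (le_hf E₀ x ha)
    · exact Or.inl (mem_hf E₀ a)
    · exact Or.inr rfl
  have h3 := trdeg_add_eq k (hf E₀ x) (A := F)
  rw [hF.trdeg, ← (topEquiv (F := hf E₀ x) (E := F)).trdeg_eq, h2, Fintype.card_unit,
    Nat.cast_add] at h3
  exact (Cardinal.add_nat_inj 1).1 h3
/-- change of the second coordinate -/
theorem Frame.change {E₀ : IntermediateField k F} {x y : F} (h : Frame E₀ x y) {u w : F}
    (hu : u ∈ hf E₀ x) (hu0 : u ≠ 0) (hw : w ∈ hf E₀ x) : Frame E₀ x (u * y + w) := by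
  have e : y = (u * y + w - w) / u := by field_simp; ring
  refine ⟨indep_pair_iff.2 ⟨(indep_pair_iff.1 h.1).1, fun hy => h.not_mem ?_⟩, ⟨fun z => ?_⟩⟩
  · rw [e]
    exact div_mem (sub_mem ((mem_hf_iff E₀ x _).2 ((mem_acl_iff _ _).1 hy)) hw) hu
  · have h1 : ∀ a ∈ hf E₀ x, a ∈ acl E₀ {x, u * y + w} := fun a ha =>
      pf_acl_mono (Set.singleton_subset_iff.2 (Set.mem_insert _ _))
        ((mem_acl_iff _ a).2 ((mem_hf_iff E₀ x a).1 ha))
    have h2 : adjoin E₀ {x, y} ≤ acl E₀ {x, u * y + w} := by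
      refine adjoin_le_iff.2 (Set.pair_subset (h1 x (mem_hf E₀ x)) ?_)
      have h3 : (u * y + w - w) / u ∈ acl E₀ {x, u * y + w} :=
        div_mem (sub_mem (subset_acl _ (Set.mem_insert_of_mem _ rfl)) (h1 w hw)) (h1 u hu)
      rwa [← e] at h3
    exact ffb_trans (fun b hb => (mem_acl_iff _ b).1 (h2 hb)) (h.2.isAlgebraic z)
/-- a valuation trivial on `E₀(x)` is trivial on `hf E₀ x` -/
theorem sub_hf {E₀ : IntermediateField k F} {x : F} {v : ValuationSubring F}
    (h : ∀ a ∈ E₀⟮x⟯, a ∈ v) : Sub (hf E₀ x) v := fun a ha => by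
  have h1 := ((mem_hf_iff E₀ x a).1 ha).isIntegral
  refine mem_of_monic v ((minpoly.monic h1).map (algebraMap E₀⟮x⟯ F)) (fun i => ?_) ?_
  · rw [Polynomial.coeff_map]
    exact h _ (Subtype.property _)
  · rw [Polynomial.eval_map_algebraMap]
    exact minpoly.aeval _ a

end P019.E
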