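import Vale.Agent.P019.E.Pc

/-!
P019 E/Prime: corresponding primes, matching of points and places.
PLAN. `FC.le`: `mon`. `prime_sub`: the residue map is a ring hom `ρ : B →+* Res v` whose range contains
`resK k v`; `res_isPF`, `ker_finLe'` and `cl_mem_Nv_iff` give `FinLe (Hs B ⊓ Nv v) ⊥`. Transport by `Θ`.
If `w` is not trivial on `B'`, then `w' = w.comap B'.val ≠ ⊤`, `nh` for `B'` (`IsPF.sub`),
`map_Nv_le`, `Hs_eq_range`, `vmap_inj_of_flat`, `FinLe.of_map` give a contradiction. If `w = ⊤` then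
`Nv w = ⊥`, so `Nv v = ⊥`, against `nh`.
`match_of_prime`: `w` is trivial on `l` by `prime_sub` (`Dat.hyp`). `Hs D ≰ Uv w` since some
`lc x m ∉ Uv v` (`VisAt.lc_mem_iff`, `pt_ne_zero`), so `Q = w.comap D.val` is a place. The subspace
`{ξ : V D | vmap ξ ∈ Uv w}` is proper and contains `Uv Q` (`map_Uv_le`), which has codimension one
(`pc_unif`), so they are equal.
`match_unique`: every `e ∈ D` has coordinates (`exists_co`), `pc_sep`. `match_inj`: every `m` is a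
coordinate (`exists_co'`), `pt_inj`. `match_cof`: `y` with `Ind x y`, a frame, `B = hf E₀ y ∌ x`,
`viscof`, `exists_val_at`, `Dat.prime`, `match_of_prime`.
`match_cof'`: `exists_ext_place` gives `B'`; `t ∈ D` transcendental. For all `Q` except poles of `t`
and places over the finite set of `viscof` (`pc_fin`, `pc_rat`) the extension `w` has
`cl (t - β) ∉ Uv w`. `Dat.prime'` gives `v`, trivial on `k` (`prime_sub` for `Dat.symm`), and
`Hs (acl x) = range (lc x) ≰ Uv v`. If `x ∉ v` then `VisAt x none v` (else all `[x - a] ∈ Uv v`); if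
`x ∈ v`, some `x - a` is a nonunit with `cl (x - a) ∉ Uv v`. Then `match_of_prime`.
-/

namespace P019.E

open IntermediateField

variable {ℓ : ℕ} [Fact ℓ.Prime] {k K l M : Type*} [Field k] [Field K] [Algebra k K] [Field l]
  [Field M] [Algebra l M] [IsAlgClosed k] [IsAlgClosed l] {Θ : V ℓ K ≃ₗ[ZMod ℓ] V ℓ M} {n : ℕ}

theorem FC.le (h : Dat k l Θ n) {E B : IntermediateField k K} {D B' : IntermediateField l M}
    (hE : FC Θ E D) (hB : FC Θ B B') {b : ℕ} (hB' : Flat B' b) (hle : E ≤ B) : D ≤ B' := by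
  refine mon h.hl h.pfM hB' (FinLe.of_le ?_)
  rw [← show _ = Hs ℓ (D : Set M) from hE, ← show _ = Hs ℓ (B' : Set M) from hB]
  exact Submodule.map_mono (Hs_mono hle)

theorem LC.unique (h : Dat k l Θ n) {x : K} {D D' : IntermediateField l M} (hD : LC k Θ x D)
    (hD' : LC k Θ x D') : D = D' :=   le_antisymm (FC.le h hD.2 hD'.2 hD'.1 le_rfl) (FC.le h hD'.2 hD.2 hD.1 le_rfl)

theorem exists_LC (h : Dat k l Θ n) {x : K} (hx : Transcendental k x) :
    ∃ D : IntermediateField l M, LC k Θ x D := h.line _ (flat_acl_one hx)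

theorem LC.isPF (h : Dat k l Θ n) {x : K} {D : IntermediateField l M} (hD : LC k Θ x D) :
    IsPF l D 1 := h.pfM.sub D hD.1.2

theorem exists_co (h : Dat k l Θ n) {x : K} (hx : Gen k x) {D : IntermediateField l M}
    (hD : LC k Θ x D) (e : D) : ∃ m : k →₀ ZMod ℓ, Co Θ x (e : M) m := by
  have h1 : cl ℓ (e : M) ∈ Hs ℓ (D : Set M) := cl_mem_Hs e.2
  rw [← show _ = Hs ℓ (D : Set M) from hD.2, ← hx.range_lc h.hk] at h1
  obtain ⟨ξ, ⟨m, rfl⟩, h2⟩ := h1
  exact ⟨m, h2⟩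

theorem exists_co' {x : K} {D : IntermediateField l M}
    (hD : LC k Θ x D) (m : k →₀ ZMod ℓ) : ∃ e : D, e ≠ 0 ∧ Co Θ x (e : M) m := by
  have h1 : Θ (lc ℓ k x m) ∈ Hs ℓ (D : Set M) := by
    rw [← show _ = Hs ℓ (D : Set M) from hD.2]
    exact ⟨_, lc_mem_Hs x m, rfl⟩
  obtain ⟨e, he, h0, h2⟩ := (mem_Hs_sub D _).1 h1
  exact ⟨⟨e, he⟩, fun h3 => h0 (congrArg Subtype.val h3), h2.symm⟩

theorem Co.unique (h : Dat k l Θ n) {x : K} (hx : Gen k x) {e : M} {m m' : k →₀ ZMod ℓ}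
    (hm : Co Θ x e m) (hm' : Co Θ x e m') : m = m' :=   hx.lc_inj h.hk (Θ.injective ((show _ = _ from hm).trans (show _ = _ from hm').symm))

theorem prime_fin (hk : (ℓ : k) ≠ 0) (hK : IsPF k K (n + 1)) {v : ValuationSubring K}
    {B : IntermediateField k K} (hB : Flat B n) (hv : Sub B v) (h0 : v ≠ ⊤) :
    FinLe (Hs ℓ (B : Set K) ⊓ Nv ℓ v) ⊥ := by
  let ρ : B →+* Res v :=
    (IsLocalRing.residue v).comp (B.val.toRingHom.codRestrict v fun a => hv a a.2)
  have hρ : ∀ a : B, ρ a = res v (a : K) := fun a => (resb_coe v ⟨a, hv a a.2⟩).symm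
  have := resK_isAlgClosed k v
  have hl : (ℓ : resK k v) ≠ 0 := fun e => by
    have h1 : (ℓ : Res v) = 0 := by simpa using congrArg Subtype.val e
    rw [← map_natCast ρ, map_eq_zero, ← map_natCast (algebraMap k B), map_eq_zero] at h1
    exact hk h1
  have h1 := (ker_finLe' hl (res_isPF hK hB hv h0) ρ fun c => by
    obtain ⟨d, -, hd⟩ := (mem_resK v c.1).1 c.2
    exact ⟨algebraMap k B d, (hρ _).trans hd.symm⟩).map (vmap ℓ B.val.toRingHom)
  rw [Submodule.map_bot] at h1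
  refine (FinLe.of_le fun ξ hξ => ?_).trans h1
  obtain ⟨a, ha, ha0, rfl⟩ := (mem_Hs_sub B ξ).1 hξ.1
  refine ⟨cl ℓ (⟨a, ha⟩ : B), ?_, vmap_cl _ _⟩
  change vmap ℓ ρ _ = 0
  rw [vmap_cl, hρ]
  exact (cl_mem_Nv_iff v (hv.val_eq_one ha ha0)).1 hξ.2

theorem prime_sub (h : Dat k l Θ n) {v : ValuationSubring K} {w : ValuationSubring M}
    (hc : Corr ℓ Θ v w) {B : IntermediateField k K} {B' : IntermediateField l M} (hB : Flat B n)
    (hB' : Flat B' n) (hf : FC Θ B B') (hv : Sub B v) (h0 : v ≠ ⊤) : Sub B' w ∧ w ≠ ⊤ := by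
  have h1 := (prime_fin h.hk h.pfK hB hv h0).map Θ.toLinearMap
  rw [Submodule.map_inf _ Θ.injective, show _ = Hs ℓ (B' : Set M) from hf, hc.2,
    Submodule.map_bot] at h1
  constructor
  · by_contra hn
    have h2 : w.comap B'.val.toRingHom ≠ ⊤ := fun e => hn fun a ha => by
      have : (⟨a, ha⟩ : B') ∈ w.comap B'.val.toRingHom := e ▸ ValuationSubring.mem_top _
      exact this
    refine nh h.hl (h.pfM.sub B' hB'.2) h.one_le h2 (FinLe.of_map (vmap ℓ B'.val.toRingHom) ?_ ?_)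
    · exact FinLe.of_le (LinearMap.ker_eq_bot.2 (vmap_inj_of_flat hB')).le
    · rw [Submodule.map_bot]
      refine (FinLe.of_le (le_inf ?_ (map_Nv_le _ w))).trans h1
      rw [Hs_eq_range]
      exact LinearMap.map_le_range
  · rintro rfl
    refine nh h.hk h.pfK (Nat.le_add_left 1 n) h0 (FinLe.of_le fun ξ hξ => ?_)
    have h2 : Θ ξ ∈ Nv ℓ (⊤ : ValuationSubring M) := hc.2 ▸ ⟨ξ, hξ, rfl⟩
    obtain ⟨a, ha, h3⟩ := (mem_Nv_iff _ _).1 h2
    rcases (resb_lt_one_iff _ _).1 ha with h4 | h4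
    · rw [sub_eq_zero.1 h4, cl_one] at h3
      exact (Submodule.mem_bot _).2 (Θ.map_eq_zero_iff.1 h3.symm)
    · exact absurd (ValuationSubring.mem_top _) h4

omit [IsAlgClosed k] in
theorem prime_vis_ne {x : K} {a : Option k} {v : ValuationSubring K} (ha : VisAt ℓ x a v) :
    v ≠ ⊤ := by
  rintro rfl
  cases a <;> exact ha.2 (by rw [Uv_top]; trivial)

theorem prime_corr {v : ValuationSubring K} {w : ValuationSubring M} (hc : Corr ℓ Θ v w)
    (ξ : V ℓ K) : Θ ξ ∈ Uv ℓ w ↔ ξ ∈ Uv ℓ v := by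
  rw [← hc.1]
  exact ⟨fun ⟨η, hη, e⟩ => Θ.injective e ▸ hη, fun h => ⟨ξ, h, rfl⟩⟩

theorem match_of_prime (h : Dat k l Θ n) {x : K} {D : IntermediateField l M} (hD : LC k Θ x D)
    {v : ValuationSubring K} {w : ValuationSubring M} (hc : Corr ℓ Θ v w)
    {B : IntermediateField k K} (hB : Flat B n) (hv : Sub B v) {a : Option k}
    (ha : VisAt ℓ x a v) :
    ∃ Q : Place l D, Q.1 = w.comap D.val.toRingHom ∧ Match Θ x D a Q := by
  have h0 : v ≠ ⊤ := prime_vis_ne ha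
  obtain ⟨B', hB', hf⟩ := h.hyp B hB
  have hw := (prime_sub h hc hB hB' hf hv h0).1.triv
  have key : ∀ (e : M) (m : k →₀ ZMod ℓ), Co Θ x e m → (cl ℓ e ∈ Uv ℓ w ↔ pt a m = 0) := by
    intro e m hm
    rw [← show _ = cl ℓ e from hm, prime_corr hc, ha.lc_mem_iff hv.triv]
  obtain ⟨m₀, hm₀⟩ := pt_ne_zero (ℓ := ℓ) a
  obtain ⟨e₀, -, he₀⟩ := exists_co' hD m₀
  have hne : cl ℓ (e₀ : M) ∉ Uv ℓ w := fun h1 => by
    rw [key _ _ he₀, hm₀] at h1
    exact one_ne_zero h1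
  have hle : ∀ ξ ∈ Uv ℓ (w.comap D.val.toRingHom), vmap ℓ D.val.toRingHom ξ ∈ Uv ℓ w :=
    fun ξ hξ => map_Uv_le _ w ⟨ξ, hξ, rfl⟩
  have hQ : w.comap D.val.toRingHom ≠ ⊤ := fun e => hne (by
    have := hle (cl ℓ e₀) (by rw [e, Uv_top]; trivial)
    rwa [vmap_cl] at this)
  let Q : Place l D := ⟨w.comap D.val.toRingHom, hQ, fun c => hw c⟩
  obtain ⟨π, -, hπ⟩ := pc_unif h.hl (hD.isPF h) Q
  have hπw : vmap ℓ D.val.toRingHom (cl ℓ π) ∉ Uv ℓ w := fun h1 => hne (by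
    obtain ⟨r, hr⟩ := hπ (cl ℓ e₀)
    have h2 := add_mem (hle _ hr) ((Uv ℓ w).smul_mem r h1)
    rwa [map_sub, map_smul, sub_add_cancel, vmap_cl] at h2)
  refine ⟨Q, rfl, fun e m hm => ?_⟩
  rw [← key _ _ hm]
  constructor
  · intro h1
    have := hle _ h1
    rwa [vmap_cl] at this
  · intro h1
    obtain ⟨r, hr⟩ := hπ (cl ℓ e)
    have h2 := hle _ hr
    rw [map_sub, map_smul, vmap_cl] at h2
    have h3 := sub_mem h1 h2
    by_cases hr0 : r = 0
    · rwa [hr0, zero_smul, sub_zero] at hr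
    · exact absurd (((Uv ℓ w).smul_mem_iff hr0).1 (by simpa using h3)) hπw

theorem match_unique (h : Dat k l Θ n) {x : K} (hx : Gen k x) {D : IntermediateField l M}
    (hD : LC k Θ x D) {a : Option k} {Q Q' : Place l D} (hQ : Match Θ x D a Q)
    (hQ' : Match Θ x D a Q') : Q = Q' := by
  refine pc_sep h.hl (hD.isPF h) fun ξ hξ => ?_
  obtain ⟨e, -, rfl⟩ := cl_surj ξ
  obtain ⟨m, hm⟩ := exists_co h hx hD e
  exact (hQ' e m hm).2 ((hQ e m hm).1 hξ)

theorem match_inj {x : K} {D : IntermediateField l M}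
    (hD : LC k Θ x D) {a a' : Option k} {Q : Place l D} (hQ : Match Θ x D a Q)
    (hQ' : Match Θ x D a' Q) : a = a' := by
  refine pt_inj (ℓ := ℓ) fun m => ?_
  obtain ⟨e, -, he⟩ := exists_co' hD m
  exact (hQ e m he).symm.trans (hQ' e m he)

theorem match_cof (h : Dat k l Θ n) {x : K} (hx : Transcendental k x)
    {D : IntermediateField l M} (hD : LC k Θ x D) :
    {a : k | ¬ ∃ Q : Place l D, Match Θ x D (some a) Q}.Finite := by
  obtain ⟨y, hy⟩ := h.pfK.exists_ind h.one_le hx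
  obtain ⟨E₀, hf⟩ := h.pfK.exists_frame hy
  have hB := hf.symm.flat h.pfK
  have hxB := hf.symm.not_mem
  refine (viscof h.hk h.pfK hB hxB).subset fun a ha => ?_
  obtain ⟨v, hv, hva⟩ := exists_val_at (fun e => hxB (hB.1 x e)) a
  refine ⟨v, hv, hva, by_contra fun hn => ha ?_⟩
  have hV : VisAt ℓ x (some a) v := ⟨hva, hn⟩
  obtain ⟨w, hc⟩ := h.prime v _ hB hv (prime_vis_ne hV)
  obtain ⟨Q, -, hQ⟩ := match_of_prime h hD hc hB hv hV
  exact ⟨Q, hQ⟩

omit [IsAlgClosed k] in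
theorem prime_vis {x : K} {v : ValuationSubring K} (hv : Triv k v) {m : k →₀ ZMod ℓ}
    (hm : lc ℓ k x m ∉ Uv ℓ v) : ∃ a : Option k, VisAt ℓ x a v := by
  obtain ⟨a, ha⟩ : ∃ a : k, cl ℓ (x - algebraMap k K a) ∉ Uv ℓ v := by
    by_contra hn
    push Not at hn
    refine hm ?_
    rw [lc, Finsupp.linearCombination_apply]
    exact sum_mem fun a _ => (Uv ℓ v).smul_mem _ (hn a)
  by_cases hx : x ∈ v
  · refine ⟨some a, lt_of_le_of_ne ((v.valuation_le_one_iff _).2 (sub_mem hx (hv a))) ?_, ha⟩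
    exact fun e => ha (cl_mem_Hs e)
  · have h1 : 1 < v.valuation x := not_le.1 fun e => hx ((v.valuation_le_one_iff _).1 e)
    refine ⟨none, h1, fun h2 => ha ?_⟩
    have h3 : v.valuation (x - algebraMap k K a - x) < v.valuation x := by
      rw [sub_sub_cancel_left, Valuation.map_neg]
      exact ((v.valuation_le_one_iff _).2 (hv a)).trans_lt h1
    have h4 := add_mem (Nv_le_Uv v (cl_sub_mem_Nv h3)) h2
    rwa [sub_add_cancel] at h4

theorem match_cof' (h : Dat k l Θ n) {x : K} (hx : Gen k x) {D : IntermediateField l M}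
    (hD : LC k Θ x D) : {Q : Place l D | ¬ ∃ a : Option k, Match Θ x D a Q}.Finite := by
  obtain ⟨B', hB', hDB, hext⟩ := exists_ext_place h.pfM hD.1
  have hP := hD.isPF h
  obtain ⟨t, ht⟩ := IsPF.exists_trans (n := 0) hP
  have ht' : Transcendental l (t : M) :=
    (transcendental_algebraMap_iff (algebraMap D M).injective).2 ht
  have hS := viscof h.hl h.pfM hB' (hDB _ t.2 ht')
  have ht0 : t ≠ 0 := fun e => ht (e ▸ isAlgebraic_zero)
  refine ((pc_fin hP ht0).union (hS.biUnion fun β _ => pc_fin hP (pc_ne ht β))).subset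
    fun Q hQ => ?_
  by_contra hn
  rw [Set.mem_union, not_or] at hn
  obtain ⟨β, hβ⟩ := pc_rat hP Q (resb_mem (not_not.1 hn.1))
  obtain ⟨w, hw, hwQ⟩ := hext Q
  have hwβ : w.valuation ((t : M) - algebraMap l M β) < 1 := by
    rw [← hwQ, resb_lt_one_iff] at hβ
    rw [resb_lt_one_iff]
    exact hβ.imp (fun e => congrArg Subtype.val e) id
  have hne : cl ℓ ((t : M) - algebraMap l M β) ∉ Uv ℓ w := fun h1 =>
    hn.2 (Set.mem_biUnion (x := β) ⟨w, hw, hwβ, h1⟩ hβ.ne)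
  have hw0 : w ≠ ⊤ := prime_vis_ne (ℓ := ℓ) (a := some β) ⟨hwβ, hne⟩
  obtain ⟨v, hc⟩ := h.prime' w B' hB' hw hw0
  obtain ⟨B, hB, hf⟩ := h.hyp' B' hB'
  have hv := (prime_sub h.symm hc.symm hB' hB hf.symm hw hw0).1
  obtain ⟨m, hm⟩ := exists_co h hx hD (t - algebraMap l D β)
  have hlc : lc ℓ k x m ∉ Uv ℓ v := fun h1 => hne (by
    rw [← prime_corr hc, show _ = cl ℓ _ from hm] at h1
    exact h1)
  obtain ⟨a, ha⟩ := prime_vis hv.triv hlc
  obtain ⟨Q', hQ', hM⟩ := match_of_prime h hD hc hB hv ha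
  exact hQ ⟨a, (Subtype.ext (hQ'.trans hwQ) : Q' = Q) ▸ hM⟩

end P019.E
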