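import Vale.Agent.P019.E.Line

/-!
P019 E/Rel: the relation `Rel` between general elements of `K` and elements of `M`.
PLAN. `Rel.unique`: `LC.unique`; the difference vanishes at the places matched with almost all `a`
(`match_cof`, `match_inj`: infinitely many places), `pc_zero`. `Rel.shift`: `Gen.shift`, `lc_shift`:
`Match (x + b) D (some (a + b)) Q ↔ Match x D (some a) Q`.
`Rel.tr`: `γ` from `exists_gamma`; for almost all `a`: `Ex` holds (`Zar.line`, `ex_of_good`), `a` and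
`c a + d` are matched with `Q`, `Q'`, `Mov γ Q' Q`, so `γ Y ≡ σ (c a + d)` and `X ≡ σ a` at `Q`. So
`γ Y = σ c X + σ d` (`pc_zero`).
`Rel.transfer`: frame, `Frame.exists_good`, a line `y = x + d` meeting `G` (`Zar.par`),
`exists_line`, `X = γ Y - σ d`.
-/

namespace P019.E

open IntermediateField

variable {ℓ : ℕ} [Fact ℓ.Prime] {k K l M : Type*} [Field k] [Field K] [Algebra k K] [Field l]
  [Field M] [Algebra l M] [IsAlgClosed k] [IsAlgClosed l] {Θ : V ℓ K ≃ₗ[ZMod ℓ] V ℓ M} {n : ℕ}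
  {σ : k ≃+* l}

theorem rel_comap_lt {E D : Type*} [Field E] [Field D] (f : E →+* D) (W : ValuationSubring D)
    (a : E) : (W.comap f).valuation a < 1 ↔ W.valuation (f a) < 1 := by
  rw [← ValuationSubring.mem_nonunits_iff, ← ValuationSubring.mem_nonunits_iff,
    ValuationSubring.mem_nonunits_iff_or, ValuationSubring.mem_nonunits_iff_or,
    ValuationSubring.mem_comap, map_inv₀, map_eq_zero]

theorem rel_fin (h : Dat k l Θ n) {x : K} {Z : M} (hZ : Rel Θ σ x Z)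
    {D : IntermediateField l M} (hD : LC k Θ x D) : ∃ hZ : Z ∈ D,
    {a : k | ∃ Q : Place l D, Match Θ x D (some a) Q ∧
      ¬ Q.1.valuation (⟨Z, hZ⟩ - algebraMap l D (σ a)) < 1}.Finite := by
  obtain ⟨D', hD', h'⟩ := hZ
  obtain rfl := LC.unique h hD hD'
  exact h'

theorem rel_zero (h : Dat k l Θ n) {x : K} (hx : Transcendental k x)
    {D : IntermediateField l M} (hD : LC k Θ x D) {u : D}
    (hu : {a : k | ∃ Q : Place l D, Match Θ x D (some a) Q ∧ ¬ Q.1.valuation u < 1}.Finite) :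
    u = 0 := by
  refine pc_zero (hD.isPF h) fun hfin => (hu.union (match_cof h hx hD)).infinite_compl ?_
  refine (hfin.biUnion (t := fun Q => {a | Match Θ x D (some a) Q}) fun Q _ =>
    Set.Subsingleton.finite fun a ha b hb => Option.some.inj (match_inj hD ha hb)).subset ?_
  intro a ha
  obtain ⟨Q, hQ⟩ := not_not.1 fun e => ha (Or.inr e)
  exact Set.mem_biUnion (not_not.1 fun e => ha (Or.inl ⟨Q, hQ, e⟩)) hQ

theorem rel_mov (h : Dat k l Θ n) {x y : K} (hx : Gen k x) (hy : Gen k y) {G : k → k → Prop}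
    (hZ : Zar G) {c d : k} (hc : c ≠ 0) (hl : ∃ a, G a (c * a + d))
    {Dx Dy : IntermediateField l M} (hDx : LC k Θ x Dx) (hDy : LC k Θ y Dy) {γ : Dy ≃ₐ[l] Dx}
    (hγ : ∀ a, G a (c * a + d) → Ex Θ x y γ a (c * a + d)) {Y : Dy}
    (hY : {b : k | ∃ Q : Place l Dy, Match Θ y Dy (some b) Q ∧
      ¬ Q.1.valuation (Y - algebraMap l Dy (σ b)) < 1}.Finite) :
    {a : k | ∃ Q : Place l Dx, Match Θ x Dx (some a) Q ∧
      ¬ Q.1.valuation (γ Y - algebraMap l Dx (σ (c * a + d))) < 1}.Finite := by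
  obtain ⟨a₀, ha₀⟩ := hl
  have hinj : Function.Injective fun a : k => c * a + d := fun a b e =>
    mul_left_cancel₀ hc (add_right_cancel e)
  refine ((hZ.line _ _ c ha₀).union
    ((hY.union (match_cof h hy.1 hDy)).preimage hinj.injOn)).subset ?_
  rintro a ⟨Q, hQ, hlt⟩
  by_contra hn
  have h1 : G a (c * a₀ + d + c * (a - a₀)) := not_not.1 fun e => hn (Or.inl e)
  obtain ⟨Q', hQ'⟩ : ∃ Q' : Place l Dy, Match Θ y Dy (some (c * a + d)) Q' :=
    not_not.1 fun e => hn (Or.inr (Or.inr e))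
  have h2 : Q'.1.valuation (Y - algebraMap l Dy (σ (c * a + d))) < 1 :=
    not_not.1 fun e => hn (Or.inr (Or.inl ⟨Q', hQ', e⟩))
  rw [show c * a₀ + d + c * (a - a₀) = c * a + d by ring] at h1
  have h3 := ((mov_of_ex h hx hy hDx hDy (hγ a h1) hQ hQ').val_lt _).2 h2
  rw [map_sub, AlgEquiv.commutes] at h3
  exact hlt h3

theorem Rel.mem (h : Dat k l Θ n) {x : K} {Z : M} (hZ : Rel Θ σ x Z)
    {D : IntermediateField l M} (hD : LC k Θ x D) : Z ∈ D := (rel_fin h hZ hD).1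

theorem Rel.unique (h : Dat k l Θ n) {x : K} (hx : Gen k x) {Z Z' : M} (hZ : Rel Θ σ x Z)
    (hZ' : Rel Θ σ x Z') : Z = Z' := by
  obtain ⟨D, hD, h1, h2⟩ := hZ
  obtain ⟨h1', h2'⟩ := rel_fin h hZ' hD
  have : (⟨Z, h1⟩ : D) - ⟨Z', h1'⟩ = 0 := by
    refine rel_zero h hx.1 hD ((h2.union h2').subset ?_)
    rintro a ⟨Q, hQ, hlt⟩
    by_contra hn
    simp only [Set.mem_union, Set.mem_ofPred_eq, not_or, not_not, not_exists, not_and] at hn
    have := Q.1.valuation.map_sub_lt (hn.1 Q hQ) (hn.2 Q hQ)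
    rw [sub_sub_sub_cancel_right] at this
    exact hlt this
  exact congrArg Subtype.val (sub_eq_zero.1 this)

theorem Rel.ne_const (h : Dat k l Θ n) {x : K} (hx : Gen k x) {Z : M} (hZ : Rel Θ σ x Z)
    (β : l) : Z ≠ algebraMap l M β := by
  obtain ⟨D, hD, h1, h2⟩ := hZ
  intro e
  have e' : (⟨Z, h1⟩ : D) = algebraMap l D β := Subtype.ext e
  refine (h2.union (match_cof h hx.1 hD)).infinite_compl
    ((Set.finite_singleton (σ.symm β)).subset fun a ha => ?_)
  obtain ⟨Q, hQ⟩ := not_not.1 fun e => ha (Or.inr e)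
  have h3 : β = σ a := pc_val_unique Q (u := ⟨Z, h1⟩)
    (by rw [e', sub_self, map_zero]; exact zero_lt_one)
    (not_not.1 fun e => ha (Or.inl ⟨Q, hQ, e⟩))
  rw [Set.mem_singleton_iff, h3, RingEquiv.symm_apply_apply]

theorem Rel.shift {x : K} (hx : Gen k x) {Z : M} (hZ : Rel Θ σ x Z) (b : k) :
    Rel Θ σ (x + algebraMap k K b) (Z + algebraMap l M (σ b)) := by
  obtain ⟨D, hD, h1, h2⟩ := hZ
  refine ⟨D, ⟨hD.1, by rw [(hx.shift b).2]; exact hD.2⟩, add_mem h1 (D.algebraMap_mem _),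
    (h2.image fun a => a + b).subset ?_⟩
  rintro a ⟨Q, hQ, hlt⟩
  refine ⟨a - b, ⟨Q, fun e m hm => ?_, fun h3 => hlt ?_⟩, sub_add_cancel a b⟩
  · rw [hQ e (m.mapDomain fun a => a + b) (by unfold Co at hm ⊢; rw [lc_shift, hm])]
    have : (m.mapDomain fun a => a + b) a = m (a - b) := by
      conv_lhs => rw [← sub_add_cancel a b]
      exact Finsupp.mapDomain_apply (add_left_injective b) m (a - b)
    show (m.mapDomain fun a => a + b) a = 0 ↔ m (a - b) = 0
    rw [this]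
  · convert h3 using 2
    apply Subtype.ext
    show Z + algebraMap l M (σ b) - algebraMap l M (σ a) = Z - algebraMap l M (σ (a - b))
    rw [map_sub, map_sub]
    ring

theorem Rel.tr [PerfectField M] (h : Dat k l Θ n) {E₀ : IntermediateField k K} {x y : K}
    (hf : Frame E₀ x y) (hx : Gen k x) (hy : Gen k y) {G : k → k → Prop} (hZ : Zar G)
    (hG : ∀ a b, G a b → Good ℓ E₀ x y a b) {c d : k} (hc : c ≠ 0) (hl : ∃ a, G a (c * a + d))
    {v : ValuationSubring K} (hv : LineV E₀ x y c d v) {w : ValuationSubring M}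
    (hw : Corr ℓ Θ v w) {Z Y : M} (hX : Rel Θ σ x Z) (hY : Rel Θ σ y Y) :
    w.valuation (Y - (algebraMap l M (σ c) * Z + algebraMap l M (σ d))) < 1 := by
  obtain ⟨Dx, hDx, h1, h2⟩ := hX
  obtain ⟨Dy, hDy, h3, h4⟩ := hY
  obtain ⟨γ, hγ⟩ := exists_gamma h hf hx hy hc hv hw hDx hDy
  have h5 := rel_mov h hx hy hZ hc hl hDx hDy
    (fun a ha => ex_of_good h hf hx hy hc hv hw hDx hDy hγ (hG _ _ ha)) h4
  have h6 : γ ⟨Y, h3⟩ - (algebraMap l Dx (σ c) * ⟨Z, h1⟩ + algebraMap l Dx (σ d)) = 0 := by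
    refine rel_zero h hx.1 hDx ((h2.union h5).subset ?_)
    rintro a ⟨Q, hQ, hlt⟩
    by_contra hn
    simp only [Set.mem_union, Set.mem_ofPred_eq, not_or, not_not, not_exists, not_and] at hn
    have h7 : Q.1.valuation (algebraMap l Dx (σ c) * (⟨Z, h1⟩ - algebraMap l Dx (σ a))) < 1 := by
      rw [map_mul, cv_val_const Q (by simpa using hc), one_mul]
      exact hn.1 Q hQ
    have := Q.1.valuation.map_sub_lt (hn.2 Q hQ) h7
    refine hlt ?_
    convert this using 2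
    rw [map_add, map_add, map_mul, map_mul]
    ring
  have h7 : ((γ ⟨Y, h3⟩ : Dx) : M) = algebraMap l M (σ c) * Z + algebraMap l M (σ d) :=
    congrArg Subtype.val (sub_eq_zero.1 h6)
  have h8 := hγ ⟨Y, h3⟩
  rw [h7] at h8
  rwa [Valuation.map_sub_swap]

theorem Rel.transfer [PerfectField M] (h : Dat k l Θ n) {x y : K} (hx : Gen k x) (hy : Gen k y)
    (hxy : Ind k x y) {Y : M} (hY : Rel Θ σ y Y) : ∃ Z, Rel Θ σ x Z := by
  obtain ⟨E₀, hf⟩ := h.pfK.exists_frame hxy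
  obtain ⟨G, hZ, hG⟩ := hf.exists_good h.hk h.pfK
  obtain ⟨d, hd⟩ := (hZ.par 1).infinite_compl.nonempty
  have hl : ∃ a, G a (1 * a + d) := not_not.1 hd
  obtain ⟨Dx, hDx⟩ := exists_LC h hx.1
  obtain ⟨Dy, hDy, h3, h4⟩ := hY
  obtain ⟨γ, hγ⟩ := exists_line h hf hx hy hG one_ne_zero d hDx hDy
  refine ⟨(γ ⟨Y, h3⟩ - algebraMap l Dx (σ d) : Dx), Dx, hDx, Subtype.property _,
    (rel_mov h hx hy hZ one_ne_zero hl hDx hDy hγ h4).subset ?_⟩
  rintro a ⟨Q, hQ, hlt⟩
  refine ⟨Q, hQ, fun h5 => hlt ?_⟩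
  convert h5 using 2
  rw [one_mul, map_add, map_add, Subtype.coe_eta]
  ring

/-- value at a visible prime -/
theorem Rel.val (h : Dat k l Θ n) {z : K} (hz : Gen k z) {Z : M} (hZ : Rel Θ σ z Z)
    {B : IntermediateField k K} (hB : Flat B n) (hzB : z ∉ B) :
    {d : k | ∃ (v : ValuationSubring K) (w : ValuationSubring M), Sub B v ∧
      v.valuation (z - algebraMap k K d) < 1 ∧ Corr ℓ Θ v w ∧
      ¬ w.valuation (Z - algebraMap l M (σ d)) < 1}.Finite := by
  obtain ⟨D, hD, h1, h2⟩ := hZ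
  refine ((viscof h.hk h.pfK hB hzB).union h2).subset ?_
  rintro d ⟨v, w, hv, hlt, hw, hn⟩
  by_cases hc : cl ℓ (z - algebraMap k K d) ∈ Uv ℓ v
  · exact Or.inl ⟨v, hv, hlt, hc⟩
  · obtain ⟨Q, hQ, hm⟩ := match_of_prime h hD hw hB hv (a := some d) ⟨hlt, hc⟩
    refine Or.inr ⟨Q, hm, fun h3 => hn ?_⟩
    rw [hQ, rel_comap_lt] at h3
    exact h3

end P019.E
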