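import Vale.Agent.P019.E.Lin

/-!
P019 E/Unr: unramified extensions of a discrete valuation.
Setting: `O` is trivial on the subfield `E₁`, `π ≠ 0` a nonunit, `F₀ = E₁(π)`.
PLAN. (1) `unr_base`: a nonzero element of `E₁(π)` is `p(π) / q(π)` with `p, q ∈ E₁[X]`; factor out
powers of `X`; a polynomial with nonzero constant term gives a unit whose residue is the residue of the
constant term. So `O₀ = O ∩ F₀` satisfies: every `a ∈ O₀` is `e + π a'` with `e ∈ E₁`, `a' ∈ O₀`.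
(2) `θ ∈ O` (`mem_of_monic`), `m'(θ)` is a unit since `b m'(θ) = δ`. The residue map restricted to `E₁`
is a ring hom `ρ : E₁ →+* Res O`; `m = m₀ + π m₁` with `m₀ ∈ E₁[X]`, `m₁ ∈ O₀[X]`. Let
`φ : E₁[X] → Res O` be `eval₂ ρ (res θ)`, `h` a generator of its kernel; `m₀ = h q`, and `φ q ≠ 0`
because `φ m₀' ≠ 0`. For `g ∈ O₀[X]`, `g = g₀ + π g₁`: if `φ g₀ ≠ 0` then `g(θ)` is a unit with residue
`φ g₀`. Otherwise `g₀ = h s` and `g(θ) q(θ) = s(θ) m₀(θ) + π .. = π g₂(θ)` with `g₂ ∈ O₀[X]`.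
Induct on `N` with `v(π) ^ N < v(g(θ))`; such `N` exists when `g(θ) ≠ 0`: `g(θ)` is integral over
`O₀`, the lowest nonzero coefficient `a` of a monic equation has `v a ≤ v (g θ)`, and `a = π ^ N · unit`.
Every element of `F₀(θ) = F₀[θ]` is `π ^ (-j) g(θ)` with `g ∈ O₀[X]`.
(3) `vis`: if `cl π ∈ Uv O` then `v π = v (z ^ ℓ)`, `z ^ q ∈ F₀(θ)`, so `q = ℓ j` in `ℤ`, but
`q` is a power of the exponential characteristic, prime to `ℓ`.
(4) `res_pio`: for a unit `u`, `u ^ q = π ^ j w` forces `j = 0`; the exponential characteristics of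
`F` and `Res O` agree with that of `E₁`.
-/

namespace P019.E

open IntermediateField Polynomial

variable {ℓ : ℕ} [Fact ℓ.Prime] {F : Type*} [Field F]

theorem unr_eval (S : Subring F) {R : Type*} [CommRing R] [Algebra R F]
    (hR : ∀ r, algebraMap R F r ∈ S) {x : F} (hx : x ∈ S) (p : R[X]) : aeval x p ∈ S := by
  rw [aeval_eq_sum_range]
  exact S.sum_mem fun i _ => Algebra.smul_def (p.coeff i) (x ^ i) ▸ S.mul_mem (hR _) (S.pow_mem hx i)

theorem unr_lift {R : Type*} [CommRing R] (f : R →+* F) {m : F[X]} (hm : m.Monic)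
    (h : ∀ i, m.coeff i ∈ Set.range f) : ∃ q : R[X], q.map f = m ∧ q.Monic :=
  let ⟨q, h1, _, h2⟩ := lifts_and_natDegree_eq_and_monic ((lifts_iff_coeff_lifts m).2 h) hm
  ⟨q, h1, h2⟩

theorem unr_one {O : ValuationSubring F} {E₁ : Subfield F} (hE : ∀ a ∈ E₁, a ∈ O) {e : F}
    (he : e ∈ E₁) (h0 : e ≠ 0) : O.valuation e = 1 :=
  (resb_eq_one_iff O e).2 ⟨hE e he, fun h =>
    ((resb_lt_one_iff O e).1 h).elim h0 fun h' => h' (hE _ (E₁.inv_mem he))⟩

theorem unr_pos (O : ValuationSubring F) {a : F} (h : a ≠ 0) : 0 < O.valuation a :=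
  zero_lt_iff.2 ((_root_.map_ne_zero _).2 h)

theorem unr_lt {O : ValuationSubring F} {π a : F} (hπ : O.valuation π < 1) (ha : a ∈ O) :
    O.valuation (π * a) < 1 := by
  rw [map_mul]
  exact (mul_le_of_le_one_right' ((O.valuation_le_one_iff a).2 ha)).trans_lt hπ

theorem unr_near {O : ValuationSubring F} {a e : F} (he : O.valuation e = 1)
    (h : O.valuation (a - e) < 1) : O.valuation a = 1 :=
  (O.valuation.map_eq_of_sub_lt (he ▸ h)).trans he

theorem unr_res {O : ValuationSubring F} {s : Set F} (T : Subring (Res O))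
    (h : ∀ x ∈ s, x ∈ O ∧ res O x ∈ T) {b : F} (hb : b ∈ Subring.closure s) :
    b ∈ O ∧ res O b ∈ T := by
  induction hb using Subring.closure_induction with
  | mem x hx => exact h x hx
  | zero => exact ⟨O.zero_mem, res_zero O ▸ T.zero_mem⟩
  | one => exact ⟨O.one_mem, res_one O ▸ T.one_mem⟩
  | add x y _ _ hx hy => exact ⟨O.add_mem _ _ hx.1 hy.1, res_add O hx.1 hy.1 ▸ T.add_mem hx.2 hy.2⟩
  | neg x _ hx => exact ⟨O.neg_mem _ hx.1, resb_neg O hx.1 ▸ T.neg_mem hx.2⟩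
  | mul x y _ _ hx hy => exact ⟨O.mul_mem _ _ hx.1 hy.1, res_mul O hx.1 hy.1 ▸ T.mul_mem hx.2 hy.2⟩

theorem unr_poly {O : ValuationSubring F} {E₁ : Subfield F} (hE : ∀ a ∈ E₁, a ∈ O) {π : F}
    (hπ0 : π ≠ 0) (hπ : O.valuation π < 1) (p : E₁[X]) : aeval π p ≠ 0 →
    ∃ (j : ℕ) (e : F), e ∈ E₁ ∧ e ≠ 0 ∧ O.valuation (aeval π p / π ^ j - e) < 1 := by
  induction p using recOnHorner with
  | M0 => exact fun h => absurd (map_zero _) h
  | MC p a h1 h2 _ =>
    refine fun _ => ⟨0, a, a.2, fun h => h2 (Subtype.ext h), ?_⟩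
    have h3 := divX_mul_X_add p
    rw [h1, C_0, add_zero, mul_comm] at h3
    rw [pow_zero, div_one, map_add, aeval_C, ← h3, map_mul, aeval_X]
    exact (add_sub_cancel_right (π * aeval π p.divX) (a : F)).symm ▸
      unr_lt hπ (unr_eval O.toSubring (fun r => hE _ r.2) (resb_mem' hπ) _)
  | MX p _ ih =>
    intro h
    rw [map_mul, aeval_X] at h ⊢
    obtain ⟨j, e, h1, h2, h3⟩ := ih (left_ne_zero_of_mul h)
    exact ⟨j + 1, e, h1, h2, by rwa [pow_succ, mul_div_mul_right _ _ hπ0]⟩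

theorem unr_adj {E₁ : Subfield F} {π u : F} (hu : u ∈ Subfield.closure (insert π (E₁ : Set F))) :
    u ∈ E₁⟮π⟯ :=
  (Subfield.closure_le (t := E₁⟮π⟯.toSubfield)).2 (Set.insert_subset (mem_adjoin_simple_self _ π)
    fun a ha => E₁⟮π⟯.algebraMap_mem ⟨a, ha⟩) hu

theorem unr_base {O : ValuationSubring F} {E₁ : Subfield F} (hE : ∀ a ∈ E₁, a ∈ O) {π : F}
    (hπ0 : π ≠ 0) (hπ : O.valuation π < 1) {u : F}
    (hu : u ∈ Subfield.closure (insert π (E₁ : Set F))) (h0 : u ≠ 0) :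
    ∃ (j : ℤ) (e : F), e ∈ E₁ ∧ e ≠ 0 ∧ O.valuation (u / π ^ j - e) < 1 := by
  obtain ⟨r, s, rfl⟩ := (mem_adjoin_simple_iff _ u).1 (unr_adj hu)
  obtain ⟨a0, b0⟩ := div_ne_zero_iff.1 h0
  obtain ⟨i, e, a1, a2, a3⟩ := unr_poly hE hπ0 hπ r a0
  obtain ⟨j, e', b1, b2, b3⟩ := unr_poly hE hπ0 hπ s b0
  have a4 := unr_one hE a1 a2
  have b4 := unr_one hE b1 b2
  have b5 := unr_near b4 b3
  refine ⟨i - j, e / e', E₁.div_mem a1 b1, div_ne_zero a2 b2, ?_⟩
  have h1 : aeval π r / aeval π s / π ^ (i - j : ℤ) - e / e' =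
      ((aeval π r / π ^ i - e) * e' - (aeval π s / π ^ j - e') * e) /
        (aeval π s / π ^ j * e') := by
    rw [zpow_sub₀ hπ0, zpow_natCast, zpow_natCast]
    field_simp
    ring
  rw [h1, map_div₀, map_mul, b4, b5, mul_one, div_one]
  exact O.valuation.map_sub_lt (unr_lt a3 (hE _ b1)) (unr_lt b3 (hE _ a1))

theorem unr_val {O : ValuationSubring F} {E₁ : Subfield F} (hE : ∀ a ∈ E₁, a ∈ O) {π : F}
    (hπ0 : π ≠ 0) (hπ : O.valuation π < 1) {u : F}
    (hu : u ∈ Subfield.closure (insert π (E₁ : Set F))) (h0 : u ≠ 0) :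
    ∃ j : ℤ, O.valuation u = O.valuation π ^ j ∧
      (j = 0 → ∃ e ∈ E₁, O.valuation (u - e) < 1) := by
  obtain ⟨j, e, h1, h2, h3⟩ := unr_base hE hπ0 hπ hu h0
  have h4 := unr_near (unr_one hE h1 h2) h3
  rw [map_div₀, map_zpow₀, div_eq_one_iff_eq (zpow_ne_zero _ (unr_pos O hπ0).ne')] at h4
  exact ⟨j, h4, fun h => ⟨e, h1, by rwa [h, zpow_zero, div_one] at h3⟩⟩

/-- the valuation ring of `E₁(π)` -/
def unrO (O : ValuationSubring F) (E₁ : Subfield F) (π : F) : Subring F :=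
  O.toSubring ⊓ (Subfield.closure (insert π (E₁ : Set F))).toSubring

theorem unr_step {O : ValuationSubring F} {E₁ : Subfield F} (hE : ∀ a ∈ E₁, a ∈ O) {π : F}
    (hπ0 : π ≠ 0) (hπ : O.valuation π < 1) (a : unrO O E₁ π) :
    ∃ (e : E₁) (a' : unrO O E₁ π), (a : F) = e + π * a' := by
  have v0 : 0 < O.valuation π := unr_pos O hπ0
  have h1 : ∃ e ∈ E₁, O.valuation (a - e) < 1 := by
    rcases eq_or_ne (a : F) 0 with h | h
    · exact ⟨0, E₁.zero_mem, by simp [h]⟩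
    obtain ⟨j, h1, h2⟩ := unr_val hE hπ0 hπ a.2.2 h
    rcases ((O.valuation_le_one_iff a).2 a.2.1).eq_or_lt with h3 | h3
    · exact h2 ((zpow_eq_one_iff_right₀ v0.le hπ.ne).1 (h1 ▸ h3))
    · exact ⟨0, E₁.zero_mem, by rwa [sub_zero]⟩
  obtain ⟨e, h1, h2⟩ := h1
  have h3 : (a : F) - e ∈ Subfield.closure (insert π (E₁ : Set F)) :=
    sub_mem a.2.2 (Subfield.subset_closure (Set.mem_insert_of_mem _ h1))
  refine ⟨⟨e, h1⟩, ⟨(a - e) / π, (O.valuation_le_one_iff _).1 ?_,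
    Subfield.div_mem _ h3 (Subfield.subset_closure (Set.mem_insert _ _))⟩, by field_simp; ring⟩
  rcases eq_or_ne ((a : F) - e) 0 with h | h
  · simp [h]
  obtain ⟨j, h4, -⟩ := unr_val hE hπ0 hπ h3 h
  rw [h4, ← zpow_zero (O.valuation π), zpow_lt_zpow_iff_right_of_lt_one₀ v0 hπ] at h2
  rw [map_div₀, h4, div_le_one₀ v0]
  exact ((zpow_le_zpow_iff_right_of_lt_one₀ v0 hπ).2 h2).trans_eq (zpow_one _)

theorem unr_dec {O : ValuationSubring F} {E₁ : Subfield F} (hE : ∀ a ∈ E₁, a ∈ O) {π : F}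
    (hπ0 : π ≠ 0) (hπ : O.valuation π < 1) (θ : F) (p : (unrO O E₁ π)[X]) :
    ∃ (p₀ : E₁[X]) (p₁ : (unrO O E₁ π)[X]), aeval θ p = aeval θ p₀ + π * aeval θ p₁ ∧
      aeval θ p.derivative = aeval θ p₀.derivative + π * aeval θ p₁.derivative := by
  induction p using Polynomial.induction_on' with
  | add p q hp hq =>
    obtain ⟨p₀, p₁, h1, h2⟩ := hp
    obtain ⟨q₀, q₁, h3, h4⟩ := hq
    refine ⟨p₀ + q₀, p₁ + q₁, ?_, ?_⟩
    · simp only [map_add, h1, h3]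
      ring
    · simp only [map_add, h2, h4]
      ring
  | monomial n a =>
    obtain ⟨e, a', h⟩ := unr_step hE hπ0 hπ a
    have h' : algebraMap _ F a = algebraMap _ F e + π * algebraMap _ F a' := h
    refine ⟨monomial n e, monomial n a', ?_, ?_⟩
    · simp only [aeval_monomial, h']
      ring
    · simp only [derivative_monomial, aeval_monomial, map_mul, map_natCast, h']
      ring

theorem unr_den {O : ValuationSubring F} {E₁ : Subfield F} (hE : ∀ a ∈ E₁, a ∈ O) {π : F}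
    (hπ0 : π ≠ 0) (hπ : O.valuation π < 1) {θ : F}
    (hθ : IsAlgebraic (Subfield.closure (insert π (E₁ : Set F))) θ) {u : F}
    (hu : u ∈ Subfield.closure (insert θ (insert π (E₁ : Set F)))) :
    ∃ j : ℕ, π ^ j * u ∈ Algebra.adjoin (unrO O E₁ π) {θ} := by
  have hp : π ∈ Subfield.closure (insert π (E₁ : Set F)) :=
    Subfield.subset_closure (Set.mem_insert _ _)
  have hq : ∀ j : ℕ, π ^ j ∈ Algebra.adjoin (unrO O E₁ π) {θ} := fun j =>
    pow_mem (Subalgebra.algebraMap_mem _ (⟨π, resb_mem' hπ, hp⟩ : unrO O E₁ π)) j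
  have h1 : u ∈ (Subfield.closure (insert π (E₁ : Set F)))⟮θ⟯ :=
    unr_adj (Subfield.closure_mono (Set.insert_subset_insert Subfield.subset_closure) hu)
  rw [← mem_toSubalgebra, adjoin_simple_toSubalgebra_of_isAlgebraic hθ] at h1
  clear hu
  induction h1 using Algebra.adjoin_induction with
  | mem x hx => exact ⟨0, by simpa using Algebra.subset_adjoin hx⟩
  | algebraMap a =>
    rcases eq_or_ne (a : F) 0 with h | h
    · exact ⟨0, by simp [show algebraMap _ F a = 0 from h]⟩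
    obtain ⟨j, h1, -⟩ := unr_val hE hπ0 hπ a.2 h
    have v0 : 0 < O.valuation π := unr_pos O hπ0
    refine ⟨j.natAbs, Subalgebra.algebraMap_mem _ (⟨π ^ j.natAbs * a,
      (O.valuation_le_one_iff _).1 ?_, mul_mem (pow_mem hp _) a.2⟩ : unrO O E₁ π)⟩
    rw [map_mul, map_pow, h1, ← zpow_natCast, ← zpow_add₀ v0.ne']
    exact zpow_le_one₀ v0 hπ.le (by omega)
  | add x y _ _ hx hy =>
    obtain ⟨i, hi⟩ := hx
    obtain ⟨j, hj⟩ := hy
    exact ⟨i + j, (by ring : π ^ j * (π ^ i * x) + π ^ i * (π ^ j * y) = π ^ (i + j) * (x + y)) ▸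
      add_mem (mul_mem (hq j) hi) (mul_mem (hq i) hj)⟩
  | mul x y _ _ hx hy =>
    obtain ⟨i, hi⟩ := hx
    obtain ⟨j, hj⟩ := hy
    exact ⟨i + j, (by ring : π ^ i * x * (π ^ j * y) = π ^ (i + j) * (x * y)) ▸ mul_mem hi hj⟩

theorem unr_B {O : ValuationSubring F} {E₁ : Subfield F} (hE : ∀ a ∈ E₁, a ∈ O) {π : F}
    (hπ0 : π ≠ 0) (hπ : O.valuation π < 1) {θ : F} (hθ : θ ∈ O) {g : F}
    (hg : g ∈ Algebra.adjoin (unrO O E₁ π) {θ}) :
    g ∈ O ∧ res O g ∈ Subfield.closure (insert (res O θ) (res O '' (E₁ : Set F))) := by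
  refine unr_res (Subfield.toSubring _) ?_ (Algebra.mem_adjoin_iff.1 hg)
  rintro x (⟨a, rfl⟩ | rfl)
  · obtain ⟨e, a', h⟩ := unr_step hE hπ0 hπ a
    refine ⟨a.2.1, Subfield.subset_closure (Set.mem_insert_of_mem _ ⟨e, e.2,
      ((res_eq_iff O a.2.1 (hE _ e.2)).2 ?_).symm⟩)⟩
    rw [h, add_sub_cancel_left]
    exact unr_lt hπ a'.2.1
  · exact ⟨hθ, Subfield.subset_closure (Set.mem_insert _ _)⟩

theorem unr_red {O : ValuationSubring F} {E₁ : Subfield F} (hE : ∀ a ∈ E₁, a ∈ O) {π : F}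
    (hπ0 : π ≠ 0) (hπ : O.valuation π < 1) {θ : F} (hθ : θ ∈ O) {m : (unrO O E₁ π)[X]}
    (h0 : aeval θ m = 0) (h1 : O.valuation (aeval θ m.derivative) = 1) :
    ∃ q ∈ Algebra.adjoin (unrO O E₁ π) {θ}, O.valuation q = 1 ∧
      ∀ g ∈ Algebra.adjoin (unrO O E₁ π) {θ}, O.valuation g < 1 →
        ∃ g' ∈ Algebra.adjoin (unrO O E₁ π) {θ}, g * q = π * g' := by
  have hO : ∀ p : E₁[X], aeval θ p ∈ O := unr_eval O.toSubring (fun r => hE _ r.2) hθ
  have hO' : ∀ p : (unrO O E₁ π)[X], aeval θ p ∈ O := unr_eval O.toSubring (fun r => r.2.1) hθ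
  have hB : ∀ p : E₁[X], aeval θ p ∈ Algebra.adjoin (unrO O E₁ π) {θ} :=
    unr_eval (Algebra.adjoin (unrO O E₁ π) {θ}).toSubring (fun r : E₁ => Subalgebra.algebraMap_mem _
      (⟨r, hE _ r.2, Subfield.subset_closure (Set.mem_insert_of_mem _ r.2)⟩ : unrO O E₁ π))
      (Algebra.self_mem_adjoin_singleton _ θ)
  have hB' : ∀ p : (unrO O E₁ π)[X], aeval θ p ∈ Algebra.adjoin (unrO O E₁ π) {θ} :=
    fun p => aeval_mem_adjoin_singleton _ θ
  let I : Ideal E₁[X] :=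
    { carrier := {p | O.valuation (aeval θ p) < 1}
      add_mem' := fun ha hb => by
        rw [Set.mem_ofPred, map_add]
        exact O.valuation.map_add_lt ha hb
      zero_mem' := by simp
      smul_mem' := fun c p hp => by
        rw [Set.mem_ofPred, smul_eq_mul, map_mul, mul_comm]
        exact unr_lt hp (hO c) }
  have hI : ∀ {x : F} {p : E₁[X]} {p' : (unrO O E₁ π)[X]}, x = aeval θ p + π * aeval θ p' →
      (O.valuation x < 1 ↔ p ∈ I) := fun {x p p'} h => ⟨fun h' => by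
        change O.valuation (aeval θ p) < 1
        rw [eq_sub_of_add_eq h.symm]
        exact O.valuation.map_sub_lt h' (unr_lt hπ (hO' p')),
      fun h' => h ▸ O.valuation.map_add_lt h' (unr_lt hπ (hO' p'))⟩
  obtain ⟨h, hh⟩ := (IsPrincipalIdealRing.principal I).principal
  have hd : ∀ {p}, p ∈ I ↔ h ∣ p := by
    intro p
    rw [hh]
    exact Ideal.mem_span_singleton
  obtain ⟨m₀, m₁, a1, a2⟩ := unr_dec hE hπ0 hπ θ m
  obtain ⟨q, rfl⟩ := hd.1 ((hI a1).1 (by simp [h0]))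
  refine ⟨aeval θ q, hB q, (resb_eq_one_iff O _).2 ⟨hO q, fun hq => ?_⟩, fun g hg hv => ?_⟩
  · refine ((hI a2).2 ?_).ne h1
    rw [derivative_mul]
    exact I.add_mem (I.mul_mem_left _ hq) (I.mul_mem_right _ (hd.2 dvd_rfl))
  · rw [Algebra.adjoin_singleton_eq_range_aeval] at hg
    obtain ⟨p, rfl⟩ := hg
    obtain ⟨p₀, p₁, b1, -⟩ := unr_dec hE hπ0 hπ θ p
    obtain ⟨s, rfl⟩ := hd.1 ((hI b1).1 hv)
    refine ⟨aeval θ p₁ * aeval θ q - aeval θ s * aeval θ m₁,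
      sub_mem (mul_mem (hB' _) (hB _)) (mul_mem (hB _) (hB' _)), ?_⟩
    rw [h0, map_mul] at a1
    rw [map_mul] at b1
    change aeval θ p * _ = _
    rw [b1]
    linear_combination -aeval θ s * a1

theorem unr_core {O : ValuationSubring F} {E₁ : Subfield F} (hE : ∀ a ∈ E₁, a ∈ O) {π : F}
    (hπ0 : π ≠ 0) (hπ : O.valuation π < 1) {R : Subring F} {θ δ : F} (hD : EtD R θ δ)
    (hRO : ∀ r ∈ R, r ∈ O) (hR : ∀ r ∈ R, r ∈ Subfield.closure (insert π (E₁ : Set F)))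
    (hδ : O.valuation δ = 1) {u : F}
    (hu : u ∈ Subfield.closure (insert θ (insert π (E₁ : Set F)))) (h0 : u ≠ 0) :
    ∃ j : ℤ, O.valuation (u / π ^ j) = 1 ∧
      res O (u / π ^ j) ∈ Subfield.closure (insert (res O θ) (res O '' (E₁ : Set F))) := by
  obtain ⟨-, m, m1, m2, m3, b, b1, b2⟩ := hD
  have v0 : 0 < O.valuation π := unr_pos O hπ0
  have hθ : θ ∈ O := mem_of_monic O m1 (fun i => hRO _ (m2 i)) m3
  obtain ⟨p, rfl, -⟩ := unr_lift (algebraMap (unrO O E₁ π) F) m1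
    fun i => ⟨⟨_, hRO _ (m2 i), hR _ (m2 i)⟩, rfl⟩
  have halg : IsAlgebraic (Subfield.closure (insert π (E₁ : Set F))) θ := by
    obtain ⟨p', h1, h2⟩ := unr_lift (algebraMap (Subfield.closure (insert π (E₁ : Set F))) F) m1
      fun i => ⟨⟨_, hR _ (m2 i)⟩, rfl⟩
    exact ⟨p', h2.ne_zero, by rw [← eval_map_algebraMap, h1, m3]⟩
  rw [derivative_map, eval_map_algebraMap] at b2
  rw [eval_map_algebraMap] at m3
  have b3 : b ∈ O := (Subring.closure_le (t := O.toSubring)).2 (Set.insert_subset hθ hRO) b1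
  obtain ⟨q, q1, q2, q3⟩ := unr_red hE hπ0 hπ hθ m3 ((resb_eq_one_iff O _).2
    ⟨unr_eval O.toSubring (fun r => r.2.1) hθ _, fun h => (unr_lt h b3).ne (by rw [mul_comm, b2, hδ])⟩)
  have key : ∀ (N : ℕ), ∀ g ∈ Algebra.adjoin (unrO O E₁ π) {θ},
      O.valuation π ^ N < O.valuation g → ∃ j : ℕ, O.valuation (g / π ^ j) = 1 ∧
        res O (g / π ^ j) ∈ Subfield.closure (insert (res O θ) (res O '' (E₁ : Set F))) := by
    intro N
    induction N with
    | zero =>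
      intro g hg h
      exact absurd ((O.valuation_le_one_iff g).2 (unr_B hE hπ0 hπ hθ hg).1) (not_le.2 (by simpa using h))
    | succ N ih =>
      intro g hg h
      obtain ⟨g1, g2⟩ := unr_B hE hπ0 hπ hθ hg
      rcases ((O.valuation_le_one_iff g).2 g1).eq_or_lt with h1 | h1
      · exact ⟨0, by rwa [pow_zero, div_one], by rwa [pow_zero, div_one]⟩
      obtain ⟨g', h2, h3⟩ := q3 g hg h1
      have h4 := congrArg O.valuation h3
      rw [map_mul, map_mul, q2, mul_one] at h4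
      rw [h4, pow_succ'] at h
      obtain ⟨j, h5, h6⟩ := ih g' h2 (lt_of_mul_lt_mul_left' h)
      have h7 : g / π ^ (j + 1) = g' / π ^ j * q⁻¹ := by
        have := resb_ne q2
        field_simp
        linear_combination π ^ j * h3
      refine ⟨j + 1, by rw [h7, map_mul, h5, resb_inv q2, mul_one], ?_⟩
      rw [h7, res_mul O (resb_mem h5) (resb_mem (resb_inv q2)), res_inv O q2]
      exact mul_mem h6 (inv_mem (unr_B hE hπ0 hπ hθ q1).2)
  obtain ⟨i, hi⟩ := unr_den hE hπ0 hπ halg hu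
  obtain ⟨i', hi'⟩ := unr_den hE hπ0 hπ halg (inv_mem hu)
  have h1 := (O.valuation_le_one_iff _).2 (unr_B hE hπ0 hπ hθ hi').1
  rw [map_mul, map_pow, map_inv₀, ← div_eq_mul_inv,
    div_le_one₀ (unr_pos O h0)] at h1
  obtain ⟨j, h2⟩ := key (i + i' + 1) _ hi (by
    rw [map_mul, map_pow]
    refine (pow_lt_pow_right_of_lt_one₀ v0 hπ (Nat.lt_succ_self _)).trans_le ?_
    rw [pow_add]
    exact mul_le_mul_right h1 _)
  have h3 : u / π ^ (j - i : ℤ) = π ^ i * u / π ^ j := by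
    rw [zpow_sub₀ hπ0, zpow_natCast, zpow_natCast]
    field_simp
  exact ⟨j - i, h3 ▸ h2⟩

theorem unr_pio {O : ValuationSubring F} {E₁ : Subfield F} (hE : ∀ a ∈ E₁, a ∈ O) {π : F}
    (hπ0 : π ≠ 0) (hπ : O.valuation π < 1) {R : Subring F} {θ δ : F} (hD : EtD R θ δ)
    (hRO : ∀ r ∈ R, r ∈ O) (hR : ∀ r ∈ R, r ∈ Subfield.closure (insert π (E₁ : Set F)))
    (hδ : O.valuation δ = 1) {u : F} (h0 : u ≠ 0) :
    ∃ (n : ℕ) (j : ℤ), O.valuation u ^ ringExpChar F ^ n = O.valuation π ^ j ∧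
      res O (u ^ ringExpChar F ^ n / π ^ j) ∈
        Subfield.closure (insert (res O θ) (res O '' (E₁ : Set F))) := by
  obtain ⟨n, hn⟩ := hD.1 u
  obtain ⟨j, h1, h2⟩ := unr_core hE hπ0 hπ hD hRO hR hδ (Subfield.closure_le.2 (Set.insert_subset
    (Subfield.subset_closure (Set.mem_insert _ _)) fun r hr =>
      Subfield.closure_mono (Set.subset_insert _ _) (hR r hr)) hn) (pow_ne_zero _ h0)
  rw [map_div₀, map_zpow₀, map_pow,
    div_eq_one_iff_eq (zpow_ne_zero _ (unr_pos O hπ0).ne')] at h1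
  exact ⟨n, j, h1, h2⟩

theorem vis (hℓ : (ℓ : F) ≠ 0) {O : ValuationSubring F} {E₁ : Subfield F}
    (hE : ∀ a ∈ E₁, a ∈ O) {π : F} (hπ0 : π ≠ 0) (hπ : O.valuation π < 1) {R : Subring F}
    {θ δ : F} (hD : EtD R θ δ) (hRO : ∀ r ∈ R, r ∈ O)
    (hR : ∀ r ∈ R, r ∈ Subfield.closure (insert π (E₁ : Set F))) (hδ : O.valuation δ = 1) :
    cl ℓ π ∉ Uv ℓ O := by
  intro h
  obtain ⟨a, h1, h2⟩ := (mem_Uv_iff O _).1 h
  obtain ⟨c, h3, h4⟩ := (cl_eq_iff hπ0 (resb_ne h1)).1 h2.symm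
  obtain ⟨n, j, h5, -⟩ := unr_pio hE hπ0 hπ hD hRO hR hδ h3
  have h6 := congrArg O.valuation h4
  rw [map_mul, h1, one_mul, map_pow] at h6
  have h7 : O.valuation π ^ ((ringExpChar F ^ n : ℕ) : ℤ) = O.valuation π ^ (j * ℓ) := by
    rw [zpow_mul, ← h5, zpow_natCast, zpow_natCast, pow_right_comm, ← h6]
  have h8 := (zpow_right_inj₀ (unr_pos O hπ0) hπ.ne).1 h7
  have hd : ℓ ∣ ringExpChar F :=
    (Fact.out : ℓ.Prime).dvd_of_dvd_pow (Int.natCast_dvd_natCast.1 (Dvd.intro_left j h8.symm))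
  obtain ⟨q, hq⟩ := ExpChar.exists F
  rw [ringExpChar.eq F q] at hd
  cases hq with
  | zero => exact (Fact.out : ℓ.Prime).not_dvd_one hd
  | prime hp =>
    rw [(Nat.prime_dvd_prime_iff_eq Fact.out hp).1 hd] at hℓ
    exact hℓ (CharP.cast_eq_zero F q)

theorem res_pio {O : ValuationSubring F} {E₁ : Subfield F}
    (hE : ∀ a ∈ E₁, a ∈ O) {π : F} (hπ0 : π ≠ 0) (hπ : O.valuation π < 1) {R : Subring F}
    {θ δ : F} (hD : EtD R θ δ) (hRO : ∀ r ∈ R, r ∈ O)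
    (hR : ∀ r ∈ R, r ∈ Subfield.closure (insert π (E₁ : Set F))) (hδ : O.valuation δ = 1) :
    PIo (Subfield.closure (insert (res O θ) (res O '' (E₁ : Set F)))) := by
  intro r
  obtain ⟨q, hq⟩ := ExpChar.exists E₁
  have e1 := expChar_of_injective_ringHom E₁.subtype.injective q
  have e2 := expChar_of_injective_ringHom ((IsLocalRing.residue O).comp
    (E₁.subtype.codRestrict O fun a => hE _ a.2)).injective q
  obtain ⟨a, ha, rfl⟩ := res_surj O r
  rcases ((O.valuation_le_one_iff a).2 ha).eq_or_lt with h | h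
  · obtain ⟨n, j, h1, h2⟩ := unr_pio hE hπ0 hπ hD hRO hR hδ (resb_ne h)
    rw [h, one_pow] at h1
    rw [(zpow_eq_one_iff_right₀ zero_le hπ.ne).1 h1.symm, zpow_zero, div_one, res_pow O ha,
      ringExpChar.eq F q] at h2
    exact ⟨n, by rwa [ringExpChar.eq _ q]⟩
  · exact ⟨0, by rw [pow_zero, pow_one, (res_eq_zero_iff O ha).2 h]; exact zero_mem _⟩

/-- reduction of etale data (map `m` coefficientwise; `θ ∈ O`) -/
theorem EtD.res {O : ValuationSubring F} {R : Subring F} {θ δ : F} (hD : EtD R θ δ)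
    (hRO : ∀ r ∈ R, r ∈ O) (R' : Subring (Res O)) (hR' : ∀ r ∈ R, res O r ∈ R')
    (hP : PIo (Subfield.closure (insert (res O θ) (R' : Set (Res O))))) :
    EtD R' (res O θ) (res O δ) := by
  obtain ⟨-, m, m1, m2, m3, b, b1, b2⟩ := hD
  have hθ : θ ∈ O := mem_of_monic O m1 (fun i => hRO _ (m2 i)) m3
  obtain ⟨p, rfl, hp⟩ := unr_lift O.subtype m1 fun i => ⟨⟨_, hRO _ (m2 i)⟩, rfl⟩
  have h1 : ∀ p : O[X], (p.map O.subtype).eval θ ∈ O ∧ P019.res O ((p.map O.subtype).eval θ) =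
      (p.map (IsLocalRing.residue O)).eval (P019.res O θ) := fun p => by
    have h2 : (p.map O.subtype).eval θ = (p.eval ⟨θ, hθ⟩ : O) := eval_map_apply O.subtype ⟨θ, hθ⟩
    rw [h2, resb_coe, resb_coe O ⟨θ, hθ⟩, eval_map_apply]
    exact ⟨SetLike.coe_mem _, rfl⟩
  obtain ⟨b3, b4⟩ := unr_res (O := O) (Subring.closure (insert (P019.res O θ) (R' : Set (Res O))))
    (by
      rintro x (rfl | hx)
      · exact ⟨hθ, Subring.subset_closure (Set.mem_insert _ _)⟩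
      · exact ⟨hRO x hx, Subring.subset_closure (Set.mem_insert_of_mem _ (hR' x hx))⟩) b1
  refine ⟨hP, p.map (IsLocalRing.residue O), hp.map _, fun j => ?_, ?_, _, b4, ?_⟩
  · have := hR' _ (m2 j)
    rwa [coeff_map, ← resb_coe, ← show _ = ((p.coeff j : O) : F) from coeff_map O.subtype j]
  · rw [← (h1 p).2, m3, res_zero]
  · rw [← b2, derivative_map, derivative_map, res_mul O b3 (h1 _).1, (h1 _).2]

end P019.E
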