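import Vale.Agent.P019.E.Unr
import Vale.Agent.P019.E.Etx
import Vale.Agent.P019.E.Val

/-!
P019 E/Vis: finite ramification; good points.
PLAN. `viscof`: `A = B(z)`, `R = B[z]`, `exists_etD` gives `δ = p(z)`, `p ∈ B[X]` nonzero. If `d` is
not a root of `p` then `δ ≡ p(d)` is a unit; `vis` with `E₁ = B`, `π = z - d`.
`good_of_etD`: let `v` lie over the line `y = c x + d` through `(a, b)`. `E₁ = E₀(x) ⊆ v`,
`π = y - (c x + d)`; `δ ≡ p(x)` with `p(X) = P(X, c X + d)`, `p(a) ≠ 0`, so `δ` is a unit. `res_pio`,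
`EtD.res` with `R' = closure (x̄, res E₀)`: etale data in `Res v` (note `res '' E₀(x) ⊆` the field
generated by `R'` since `res` is a ring hom on `E₀(x)`). Let `Ē₀` be the subfield `res '' E₀`;
`x̄` is transcendental over it. Choose `η` on `Res v` containing `Ē₀` with `x̄ - ā` a nonunit
(`exists_val_of_prime`, or `exists_val_at` over the base field `resK k v`). `δ̄ ≡ res (p a)` is a unit
of `η`, `vis` gives `cl (x̄ - ā) ∉ Uv η`. If `lc x m ∈ Nv v`, write `lc x m = cl f` with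
`f = ∏ (x - a') ^ (m a').val`, `cl_mem_Nv_iff` gives `cl (res f) = 0`; the other factors are units
of `η`, so `m a • cl (x̄ - ā) ∈ Uv η`.
-/

namespace P019.E

open IntermediateField Polynomial

variable {ℓ : ℕ} [Fact ℓ.Prime] {k F : Type*} [Field k] [Field F] [Algebra k F] [IsAlgClosed k]

theorem vis_mem {E L σ : Type*} [Field E] [Field L] [Algebra E L] [SetLike σ L]
    [SubringClass σ L] {T : σ} (h : ∀ e, algebraMap E L e ∈ T) {z : L} (hz : z ∈ T) (p : E[X]) :
    aeval z p ∈ T := by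
  rw [aeval_eq_sum_range]
  exact sum_mem fun i _ => by
    rw [Algebra.smul_def]
    exact mul_mem (h _) (pow_mem hz _)

theorem vis_poly {E L : Type*} [Field E] [Field L] [Algebra E L] (hℓ : (ℓ : L) ≠ 0)
    {O : ValuationSubring L} (hρ : Triv E O) {z : L} {d : E} (h0 : z - algebraMap E L d ≠ 0)
    (h1 : O.valuation (z - algebraMap E L d) < 1) {θ : L} {p : E[X]}
    (hD : EtD (aeval z : E[X] →ₐ[E] L).toRingHom.range θ (aeval z p)) (hp : p.eval d ≠ 0) :
    cl ℓ (z - algebraMap E L d) ∉ Uv ℓ O := by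
  have hz : z ∈ O := by simpa using add_mem (resb_mem' h1) (hρ d)
  refine vis hℓ (E₁ := (algebraMap E L).fieldRange) ?_ h0 h1 hD ?_ ?_ ?_
  · rintro _ ⟨e, rfl⟩
    exact hρ e
  · rintro _ ⟨q, rfl⟩
    exact vis_mem hρ hz q
  · rintro _ ⟨q, rfl⟩
    have h2 : ∀ e, algebraMap E L e ∈ Subfield.closure
        (insert (z - algebraMap E L d) ((algebraMap E L).fieldRange : Set L)) := fun e =>
      Subfield.subset_closure (Or.inr ⟨e, rfl⟩)
    refine vis_mem h2 ?_ q
    simpa using add_mem (Subfield.subset_closure (Set.mem_insert _ _)) (h2 d)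
  · obtain ⟨q, hq⟩ := X_sub_C_dvd_sub_C_eval (p := p) (a := d)
    have h2 : O.valuation (algebraMap E L (p.eval d)) = 1 := by
      refine (resb_eq_one_iff _ _).2 ⟨hρ _, fun h => ?_⟩
      rcases (resb_lt_one_iff _ _).1 h with h | h
      · exact hp ((map_eq_zero _).1 h)
      · exact h (map_inv₀ (algebraMap E L) _ ▸ hρ _)
    rw [sub_eq_iff_eq_add'.1 hq, map_add, map_mul, map_sub, aeval_C, aeval_X, aeval_C,
      Valuation.map_add_eq_of_lt_left, h2]
    rw [h2, map_mul]
    exact mul_lt_one_of_lt_of_le h1 ((O.valuation_le_one_iff _).2 (vis_mem hρ hz q))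

omit [Fact ℓ.Prime] in
theorem vis_ne {k L : Type*} [Field k] [Field L] [Algebra k L] (hℓ : (ℓ : k) ≠ 0) :
    (ℓ : L) ≠ 0 := by
  rw [← map_natCast (algebraMap k L)]
  exact (_root_.map_ne_zero _).2 hℓ

theorem viscof (hℓ : (ℓ : k) ≠ 0) {n : ℕ} (h : IsPF k F (n + 1)) {B : IntermediateField k F}
    (hB : Flat B n) {z : F} (hz : z ∉ B) :
    {d : k | ∃ v : ValuationSubring F, Sub B v ∧ v.valuation (z - algebraMap k F d) < 1 ∧
      cl ℓ (z - algebraMap k F d) ∈ Uv ℓ v}.Finite := by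
  have : Algebra.IsAlgebraic (B⟮z⟯.restrictScalars k) F := h.alg_of_not_mem hB hz
  obtain ⟨θ, _, ⟨p, rfl⟩, h0, hD⟩ := exists_etD h (B⟮z⟯.restrictScalars k)
    (aeval z : B[X] →ₐ[B] F).toRingHom.range (le_antisymm (Subfield.closure_le.2 (by
      rintro _ ⟨q, rfl⟩
      exact vis_mem (T := B⟮z⟯) B⟮z⟯.algebraMap_mem (mem_adjoin_simple_self B z) q))
      (Subfield.closure_mono (by
        rintro _ (⟨e, rfl⟩ | rfl)
        · exact ⟨C e, aeval_C _ _⟩
        · exact ⟨Polynomial.X, aeval_X _⟩)))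
  have hp : p ≠ 0 := fun e => h0 (by rw [e, map_zero])
  refine ((finite_setOfPred_isRoot hp).preimage (algebraMap k B).injective.injOn).subset ?_
  rintro d ⟨v, h1, h2, h3⟩
  by_contra h4
  have h5 : z - algebraMap B F (algebraMap k B d) ≠ 0 := fun e =>
    hz (by rw [sub_eq_zero.1 e]; exact (algebraMap k B d).2)
  exact vis_poly (E := B) (vis_ne hℓ) (fun e => h1 e e.2) h5 h2 hD h4 h3

omit [IsAlgClosed k] in
theorem vis_lc {v : ValuationSubring F} [Algebra k (Res v)] {x : F}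
    (h1 : ∀ a : k, v.valuation (x - algebraMap k F a) = 1)
    (h2 : ∀ a : k, res v (x - algebraMap k F a) = res v x - algebraMap k (Res v) a)
    {m : k →₀ ZMod ℓ} (hm : lc ℓ k x m ∈ Nv ℓ v) : lc ℓ k (res v x) m = 0 := by
  obtain ⟨f, -, f1, f2⟩ := resb_red' (ℓ := ℓ) v
  have h3 : ∀ a : k, cl ℓ (x - algebraMap k F a) ∈ Uv ℓ v := fun a => cl_mem_Hs (h1 a)
  have h4 : ∀ m, lc ℓ k x m ∈ Uv ℓ v := fun m =>
    Submodule.sum_mem _ fun a _ => Submodule.smul_mem _ _ (h3 a)
  have h5 : f ∘ₗ (lc ℓ k x).codRestrict _ h4 = lc ℓ k (res v x) := Finsupp.lhom_ext fun a r => by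
    have e : (lc ℓ k x).codRestrict _ h4 (Finsupp.single a r) = r • ⟨_, h3 a⟩ :=
      Subtype.ext (lc_single x a r)
    rw [LinearMap.comp_apply, e, map_smul, f2 _ _ (h1 a) rfl, h2, lc_single]
  rw [← h5]
  exact (f1 _).2 hm

theorem good_of_etD (hℓ : (ℓ : k) ≠ 0) {E₀ : IntermediateField k F} {x y : F}
    (hf : Frame E₀ x y) {θ : F} {P : E₀[X][X]}
    (hD : EtD (Subring.closure (insert x (insert y (E₀ : Set F)))) θ
      ((P.map (mapRingHom (algebraMap E₀ F))).evalEval x y)) {a b : k}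
    (hab : P.evalEval (algebraMap k E₀ a) (algebraMap k E₀ b) ≠ 0) : Good ℓ E₀ x y a b := by
  intro c v hv m hm
  have hE : ∀ a ∈ E₀⟮x⟯, a ∈ E.hf E₀ x := fun a ha =>
    (mem_hf_iff _ _ _).2 (isAlgebraic_algebraMap (⟨a, ha⟩ : E₀⟮x⟯))
  have hx : Transcendental E₀ x := hf.1.transcendental 0
  have hq : ∀ q : E₀[X], aeval x q ∈ E₀⟮x⟯ :=
    vis_mem E₀⟮x⟯.algebraMap_mem (mem_adjoin_simple_self E₀ x)
  have hu : ∀ q : E₀[X], q ≠ 0 → v.valuation (aeval x q) = 1 := fun q h =>
    hv.1.val_eq_one (hE _ (hq q)) fun e => h (transcendental_iff.1 hx q e)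
  let L : E₀[X] := C (algebraMap k E₀ c) * Polynomial.X + C (algebraMap k E₀ (b - c * a))
  have hL : aeval x L = algebraMap k F c * x + algebraMap k F (b - c * a) := by
    simp only [L, map_add, map_mul, aeval_C, aeval_X]
    rfl
  have hπ := hv.2
  rw [← hL] at hπ
  have hy : y ∈ v := by simpa using add_mem (resb_mem' hπ) (hv.1 _ (hE _ (hq L)))
  let ι : E₀ →+* v := (algebraMap E₀ F).codRestrict v fun e => hv.1 _ (le_hf E₀ x e.2)
  let x' : v := ⟨x, hv.1 _ (mem_hf E₀ x)⟩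
  let _ : Algebra E₀ (Res v) := ((IsLocalRing.residue v).comp ι).toAlgebra
  let _ : Algebra k (Res v) := ((algebraMap E₀ (Res v)).comp (algebraMap k E₀)).toAlgebra
  have e1 : ∀ q : E₀[X], (q.eval₂ ι x' : v) = aeval x q := fun q => hom_eval₂ q ι v.subtype x'
  have e2 : ∀ q : E₀[X], res v (aeval x q) = aeval (res v x) q := fun q => by
    rw [← e1, resb_coe, hom_eval₂, ← resb_coe]
    rfl
  have e3 : ∀ Q : E₀[X][X], (Q.eval₂ (eval₂RingHom ι x') ⟨y, hy⟩ : v) =
      (Q.map (mapRingHom (algebraMap E₀ F))).evalEval x y := fun Q => by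
    rw [← eval₂_eval₂RingHom_apply]
    exact (hom_eval₂ Q _ v.subtype _).trans (congrArg (Q.eval₂ · y) (RingHom.ext e1))
  have e4 : ∀ Q : E₀[X][X], res v ((Q.map (mapRingHom (algebraMap E₀ F))).evalEval x y) =
      aeval (res v x) (Q.eval L) := fun Q => by
    have h1 : IsLocalRing.residue v ⟨y, hy⟩ =
        (IsLocalRing.residue v).comp (eval₂RingHom ι x') L := by
      rw [RingHom.comp_apply, ← resb_coe, ← resb_coe, coe_eval₂RingHom, e1]
      exact (res_eq_iff v hy (hv.1 _ (hE _ (hq L)))).2 hπ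
    rw [← e3, resb_coe, hom_eval₂, h1, eval₂_at_apply, RingHom.comp_apply, ← resb_coe,
      coe_eval₂RingHom, e1, e2]
  have hR : ∀ r ∈ Subring.closure (insert x (insert y (E₀ : Set F))), ∃ Q : E₀[X][X],
      (Q.map (mapRingHom (algebraMap E₀ F))).evalEval x y = r := by
    refine (Subring.closure_le (t := ((evalEvalRingHom x y).comp
      (mapRingHom (mapRingHom (algebraMap E₀ F)))).range)).2 ?_
    rintro r (rfl | rfl | h)
    · exact ⟨C Polynomial.X, by simp⟩
    · exact ⟨Polynomial.X, by simp⟩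
    · exact ⟨C (C ⟨r, h⟩), by simp⟩
  have hRO : ∀ r ∈ Subring.closure (insert x (insert y (E₀ : Set F))), r ∈ v := fun r hr => by
    obtain ⟨Q, rfl⟩ := hR r hr
    exact e3 Q ▸ Subtype.property _
  have hx' : Transcendental E₀ (res v x) := transcendental_iff.2 fun q h => by
    by_contra h0
    exact resb_res_ne (hu q h0) ((e2 q).trans h)
  have hp : (P.eval L).eval (algebraMap k E₀ a) ≠ 0 := by
    have h1 : L.eval (algebraMap k E₀ a) = algebraMap k E₀ b := by simp [L]
    rwa [← coe_evalRingHom, ← eval₂_at_apply, eval₂_evalRingHom, coe_evalRingHom, h1]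
  have hδ : v.valuation ((P.map (mapRingHom (algebraMap E₀ F))).evalEval x y) = 1 :=
    resb_unit (e3 P ▸ Subtype.property _) fun e =>
      hp (by rw [transcendental_iff.1 hx' _ ((e4 P).symm.trans e), eval_zero])
  have hP := res_pio (E₁ := E₀⟮x⟯.toSubfield) (fun a ha => hv.1 a (hE a ha))
    (fun e => hf.not_mem (by rw [sub_eq_zero.1 e]; exact hE _ (hq L))) hπ hD hRO
    ((Subring.closure_le (t := (Subfield.closure _).toSubring)).2 (by
      rintro r (rfl | rfl | h)
      · exact Subfield.subset_closure (Or.inr (mem_adjoin_simple_self E₀ r))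
      · have := add_mem (Subfield.subset_closure (Set.mem_insert (r - aeval x L) _))
          (Subfield.subset_closure (Or.inr (hq L)))
        rwa [sub_add_cancel] at this
      · exact Subfield.subset_closure (Or.inr (E₀⟮x⟯.algebraMap_mem ⟨r, h⟩)))) hδ
  have hD' := hD.res hRO (aeval (res v x) : E₀[X] →ₐ[E₀] Res v).toRingHom.range
    (fun r hr => by
      obtain ⟨Q, rfl⟩ := hR r hr
      exact ⟨_, (e4 Q).symm⟩)
    (fun u => (hP u).imp fun j hj => Subfield.closure_le.2 (by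
      rintro _ (rfl | ⟨e, he, rfl⟩)
      · exact Subfield.subset_closure (Set.mem_insert _ _)
      obtain ⟨r, s, rfl⟩ := (mem_adjoin_simple_iff E₀ e).1 he
      by_cases hs : s = 0
      · simp [hs]
      rw [div_eq_mul_inv, res_mul v (hv.1 _ (hE _ (hq r))) (resb_mem (resb_inv (hu s hs))),
        res_inv v (hu s hs), e2, e2]
      exact mul_mem (Subfield.subset_closure (Or.inr ⟨r, rfl⟩))
        (inv_mem (Subfield.subset_closure (Or.inr ⟨s, rfl⟩)))) hj)
  rw [e4] at hD'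
  obtain ⟨η, h1, h2⟩ := exists_val_at (B := (⊥ : IntermediateField E₀ (Res v)))
    (hx'.extendScalars _) (algebraMap k E₀ a)
  have h3 : Triv E₀ η := fun e => h1 _ (IntermediateField.algebraMap_mem _ e)
  have h4 := vis_poly (vis_ne (k := k) hℓ) h3
    (fun e => hx' (by rw [sub_eq_zero.1 e]; exact isAlgebraic_algebraMap _)) h2 hD' hp
  have h5 : ∀ a : k, x - algebraMap k F a =
      aeval x (Polynomial.X - C (algebraMap k E₀ a)) := fun a => by
    rw [map_sub, aeval_X, aeval_C]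
    rfl
  refine (VisAt.lc_mem_iff (x := res v x) (a := some a) (fun c => h3 _) ⟨h2, h4⟩ m).1 ?_
  rw [vis_lc (fun a => h5 a ▸ hu _ (X_sub_C_ne_zero _)) (fun a => ?_) hm]
  · exact zero_mem _
  · rw [h5, e2, map_sub, aeval_X, aeval_C]
    rfl

theorem Frame.exists_good (hℓ : (ℓ : k) ≠ 0) {d : ℕ} (h : IsPF k F d)
    {E₀ : IntermediateField k F} {x y : F} (hf : Frame E₀ x y) :
    ∃ G : k → k → Prop, Zar G ∧ ∀ a b, G a b → Good ℓ E₀ x y a b := by
  obtain ⟨θ, P, hP, hD⟩ := hf.exists_etD h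
  exact ⟨_, zar hP, fun a b hab => good_of_etD hℓ hf hD hab⟩

end P019.E
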